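import Crest.Agent.R82.Opt

/-! Lipschitz dependence of the soft barycentres on the source density (row 82). -/

open MeasureTheory
open scoped RealInnerProductSpace

namespace Crest.Agent.R82

variable {E : Type} [NormedAddCommGroup E] [InnerProductSpace ℝ E] [FiniteDimensional ℝ E]
  [MeasurableSpace E] [BorelSpace E] {ι : Type} [Fintype ι] [Nonempty ι]

/-- The midpoint Prekopa-Leindler property of a measure carried by the ball of radius `R`. -/
def PLMeas (ρ : Measure E) (R : ℝ) : Prop :=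
  ∀ f g h : E → ℝ, Continuous f → Continuous g → Continuous h →
    (∀ x, 0 ≤ f x) → (∀ x, 0 ≤ g x) → (∀ x, 0 ≤ h x) →
    (∀ x x', ‖x‖ ≤ R → ‖x'‖ ≤ R → f x * g x' ≤ h ((1 / 2 : ℝ) • (x + x')) ^ 2) →
    (∫ x, f x ∂ρ) * (∫ x, g x ∂ρ) ≤ (∫ x, h x ∂ρ) ^ 2

/-- Gaussian weight -/
noncomputable def gw (lam : ℝ) (x : E) : ℝ := Real.exp (-(lam * ‖x‖ ^ 2 / 2))

theorem gw_pos (lam : ℝ) (x : E) : 0 < gw lam x := Real.exp_pos _

theorem cont_gw (lam : ℝ) : Continuous (gw lam : E → ℝ) := by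
  unfold gw; fun_prop

theorem gw_mid (lam : ℝ) (x x' : E) :
    gw lam x * gw lam x' * Real.exp (lam * ‖x - x'‖ ^ 2 / 4) =
      gw lam ((1 / 2 : ℝ) • (x + x')) ^ 2 := by
  unfold gw
  rw [sq (Real.exp _), ← Real.exp_add, ← Real.exp_add, ← Real.exp_add]
  congr 1
  have h1 : ‖(1 / 2 : ℝ) • (x + x')‖ ^ 2 = ‖x + x'‖ ^ 2 / 4 := by
    rw [norm_smul, mul_pow]; norm_num; ring
  have h2 := parallelogram_law_with_norm ℝ x x'
  rw [h1]
  have h3 : ‖x + x'‖ ^ 2 = 2 * (‖x‖ ^ 2 + ‖x'‖ ^ 2) - ‖x - x'‖ ^ 2 := by nlinarith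
  rw [h3]; ring

section
variable {ρ : Measure E} [IsProbabilityMeasure ρ] {R : ℝ} (hR : ∀ᵐ x ∂ρ, ‖x‖ ≤ R)
include hR

theorem int_pos_cont {f : E → ℝ} (hf : Continuous f) (hf0 : ∀ x, 0 < f x) : 0 < ∫ x, f x ∂ρ := by
  rw [integral_pos_iff_support_of_nonneg (fun x => (hf0 x).le) (integrable_cont hR hf)]
  have : Function.support f = Set.univ := by
    ext x; simp [(hf0 x).ne']
  rw [this]; simp

theorem jensen_exp {f u : E → ℝ} (hf : Continuous f) (hf0 : ∀ x, 0 < f x) (hu : Continuous u) :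
    (∫ x, f x ∂ρ) * Real.exp ((∫ x, f x * u x ∂ρ) / ∫ x, f x ∂ρ) ≤
      ∫ x, f x * Real.exp (u x) ∂ρ := by
  set a := ∫ x, f x ∂ρ with ha
  set c := (∫ x, f x * u x ∂ρ) / a with hc
  have ha0 : 0 < a := int_pos_cont hR hf hf0
  have hi1 : Integrable (fun x => Real.exp c * (1 - c) * f x) ρ :=
    integrable_cont hR (continuous_const.mul hf)
  have hi2 : Integrable (fun x => Real.exp c * (f x * u x)) ρ :=
    integrable_cont hR (continuous_const.mul (hf.mul hu))
  have h1 : ∫ x, (Real.exp c * (1 - c) * f x + Real.exp c * (f x * u x)) ∂ρ ≤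
      ∫ x, f x * Real.exp (u x) ∂ρ := by
    refine integral_mono (hi1.add hi2) (integrable_cont hR (hf.mul hu.rexp)) fun x => ?_
    have h3 := Real.add_one_le_exp (u x - c)
    have h4 : Real.exp (u x) = Real.exp c * Real.exp (u x - c) := by
      rw [← Real.exp_add]; congr 1; ring
    have h5 := mul_le_mul_of_nonneg_left h3 (mul_pos (hf0 x) (Real.exp_pos c)).le
    simp only
    rw [h4]
    linarith
  rw [integral_add hi1 hi2, integral_const_mul, integral_const_mul] at h1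
  have h6 : ∫ x, f x * u x ∂ρ = c * a := by rw [hc]; field_simp
  rw [h6, ← ha] at h1
  linarith

/-- one-cell consequence of Prekopa-Leindler -/
theorem cell_ineq (hPL : PLMeas ρ R) (lam τ : ℝ) {p p' p'' u : E → ℝ} (hp : Continuous p)
    (hp' : Continuous p') (hp'' : Continuous p'') (hu : Continuous u) (hp0 : ∀ x, 0 < p x)
    (hp0' : ∀ x, 0 < p' x) (hp0'' : ∀ x, 0 < p'' x)
    (hmid : ∀ x x', p x * p' x' ≤ p'' ((1 / 2 : ℝ) • (x + x')) ^ 2)
    (huu : ∀ x x', ‖x‖ ≤ R → ‖x'‖ ≤ R → u x - u x' ≤ lam * ‖x - x'‖ ^ 2 / 4 + τ)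
    (a a' r : ℝ) (ha : a = ∫ x, p x * gw lam x ∂ρ) (ha' : a' = ∫ x, p' x * gw lam x ∂ρ)
    (hr : r = (a' - a) / a') :
    a + (1 / 2) * ((a' - a) - r ^ 2 * a' + ∫ x, p x * gw lam x * u x ∂ρ -
      (1 - r) * ∫ x, p' x * gw lam x * u x ∂ρ - a * τ) ≤ ∫ x, p'' x * gw lam x ∂ρ := by
  have hw := cont_gw (E := E) lam
  have ha0 : 0 < a := ha ▸ int_pos_cont hR (hp.mul hw) fun x => mul_pos (hp0 x) (gw_pos lam x)
  have ha0' : 0 < a' := ha' ▸ int_pos_cont hR (hp'.mul hw) fun x => mul_pos (hp0' x) (gw_pos lam x)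
  set c := ∫ x, p'' x * gw lam x ∂ρ with hc
  have hc0 : 0 < c := int_pos_cont hR (hp''.mul hw) fun x => mul_pos (hp0'' x) (gw_pos lam x)
  set I := ∫ x, p x * gw lam x * u x ∂ρ with hI
  set I' := ∫ x, p' x * gw lam x * u x ∂ρ with hI'
  have hA := jensen_exp hR (hp.mul hw) (fun x => mul_pos (hp0 x) (gw_pos lam x)) hu
  have hB := jensen_exp hR (hp'.mul hw) (fun x => mul_pos (hp0' x) (gw_pos lam x))
    (u := fun x => -u x - τ) (by fun_prop)
  simp only [Pi.mul_apply] at hA hB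
  have hI2 : ∫ x, p' x * gw lam x * (-u x - τ) ∂ρ = -I' - τ * a' := by
    have hi1 : Integrable (fun x => -(p' x * gw lam x * u x)) ρ :=
      integrable_cont hR ((hp'.mul hw).mul hu).neg
    have hi2 : Integrable (fun x => τ * (p' x * gw lam x)) ρ :=
      integrable_cont hR (continuous_const.mul (hp'.mul hw))
    rw [ha', hI', ← integral_const_mul, ← integral_neg, ← integral_sub hi1 hi2]
    congr 1; funext x; ring
  rw [← ha, ← hI] at hA
  rw [← ha', hI2] at hB
  have hPL' := hPL (fun x => p x * gw lam x * Real.exp (u x))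
    (fun x => p' x * gw lam x * Real.exp (-u x - τ)) (fun x => p'' x * gw lam x)
    ((hp.mul hw).mul hu.rexp) ((hp'.mul hw).mul (by fun_prop)) (hp''.mul hw)
    (fun x => (mul_pos (mul_pos (hp0 x) (gw_pos lam x)) (Real.exp_pos _)).le)
    (fun x => (mul_pos (mul_pos (hp0' x) (gw_pos lam x)) (Real.exp_pos _)).le)
    (fun x => (mul_pos (hp0'' x) (gw_pos lam x)).le) (by
      intro x x' hx hx'
      have h1 : Real.exp (u x) * Real.exp (-u x' - τ) ≤ Real.exp (lam * ‖x - x'‖ ^ 2 / 4) := by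
        rw [← Real.exp_add]
        exact Real.exp_le_exp.2 (by linarith [huu x x' hx hx'])
      have h2 := hmid x x'
      have h3 := gw_mid lam x x'
      have h4 := gw_pos lam x
      have h5 := gw_pos lam x'
      calc p x * gw lam x * Real.exp (u x) * (p' x' * gw lam x' * Real.exp (-u x' - τ))
          = (p x * p' x') * (gw lam x * gw lam x' * (Real.exp (u x) * Real.exp (-u x' - τ))) := by
            ring
        _ ≤ p'' ((1 / 2 : ℝ) • (x + x')) ^ 2 *
            (gw lam x * gw lam x' * Real.exp (lam * ‖x - x'‖ ^ 2 / 4)) := by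
            refine mul_le_mul h2 (mul_le_mul_of_nonneg_left h1 (by positivity)) (by positivity)
              (by positivity)
        _ = _ := by rw [h3]; ring)
  rw [← hc] at hPL'
  set X := r + I / a + (-I' - τ * a') / a' with hX
  have h1r : 1 - r = a / a' := by rw [hr]; field_simp; ring
  have h7 : a * Real.exp r ≤ a' := by
    have h8 := Real.add_one_le_exp (-r)
    have h9 : a / a' ≤ Real.exp (-r) := by linarith
    rw [div_le_iff₀ ha0'] at h9
    have h10 := mul_le_mul_of_nonneg_right h9 (Real.exp_pos r).le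
    have h11 : Real.exp (-r) * a' * Real.exp r = a' := by
      rw [mul_right_comm, ← Real.exp_add]; simp
    linarith
  have h12 : (a * Real.exp (X / 2)) ^ 2 ≤ c ^ 2 := by
    refine le_trans ?_ (le_trans (mul_le_mul hA hB (by positivity) (le_trans (by positivity) hA))
      hPL')
    have h13 : Real.exp (X / 2) ^ 2 =
        Real.exp r * Real.exp (I / a) * Real.exp ((-I' - τ * a') / a') := by
      rw [sq, ← Real.exp_add, ← Real.exp_add, ← Real.exp_add]; congr 1; rw [hX]; ring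
    rw [mul_pow, h13]
    calc a ^ 2 * (Real.exp r * Real.exp (I / a) * Real.exp ((-I' - τ * a') / a'))
        = (a * Real.exp r) * (a * Real.exp (I / a) * Real.exp ((-I' - τ * a') / a')) := by ring
      _ ≤ a' * (a * Real.exp (I / a) * Real.exp ((-I' - τ * a') / a')) :=
          mul_le_mul_of_nonneg_right h7 (by positivity)
      _ = _ := by ring
  have h14 : a * Real.exp (X / 2) ≤ c := by
    exact (pow_le_pow_iff_left₀ (by positivity) hc0.le two_ne_zero).1 h12
  have h15 := mul_le_mul_of_nonneg_left (Real.add_one_le_exp (X / 2)) ha0.le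
  have h16 : a * X = (a' - a) - r ^ 2 * a' + I - (1 - r) * I' - a * τ := by
    rw [h1r, hX, hr]; field_simp; ring
  nlinarith

end

/-- the modulus-of-continuity estimate for the test functions -/
theorem test_fun_ineq {R : ℝ} (hR0 : 0 < R) (r : ℝ) (v x x' : E) (hx : ‖x‖ ≤ R) (hx' : ‖x'‖ ≤ R) :
    (3 * r + ⟪x, v⟫) / gw (1 / (100 * R ^ 2)) x - (3 * r + ⟪x', v⟫) / gw (1 / (100 * R ^ 2)) x' ≤
      (1 / (100 * R ^ 2)) * ‖x - x'‖ ^ 2 / 4 + ((3 / 4) * r ^ 2 + 900 * (R * ‖v‖) ^ 2) := by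
  set lam := 1 / (100 * R ^ 2) with hlam
  have hg : ∀ z : E, 1 / gw lam z = Real.exp (lam * ‖z‖ ^ 2 / 2) := by
    intro z; unfold gw; rw [Real.exp_neg]; simp
  set D := ‖x - x'‖ / R with hD
  have hD0 : 0 ≤ D := by positivity
  have hDR : ‖x - x'‖ = D * R := by rw [hD]; field_simp
  set ζ := R * ‖v‖ with hζ
  have hζ0 : 0 ≤ ζ := by positivity
  have hrange : ∀ z : E, ‖z‖ ≤ R → 0 ≤ lam * ‖z‖ ^ 2 / 2 ∧ lam * ‖z‖ ^ 2 / 2 ≤ 1 / 200 := by
    intro z hz
    refine ⟨by positivity, ?_⟩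
    have : ‖z‖ ^ 2 ≤ R ^ 2 := pow_le_pow_left₀ (norm_nonneg _) hz 2
    have h2 : lam * ‖z‖ ^ 2 ≤ lam * R ^ 2 := mul_le_mul_of_nonneg_left this (by positivity)
    have h3 : lam * R ^ 2 = 1 / 100 := by rw [hlam]; field_simp
    linarith
  have hexp2 : ∀ t : ℝ, t ≤ 1 / 200 → Real.exp t ≤ 2 := by
    intro t ht
    have h1 := Real.add_one_le_exp (-t)
    have h2 : Real.exp t * Real.exp (-t) = 1 := by rw [← Real.exp_add]; simp
    have h3 := Real.exp_pos t
    nlinarith
  set A := lam * ‖x‖ ^ 2 / 2 with hA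
  set B := lam * ‖x'‖ ^ 2 / 2 with hB
  have hA2 := hexp2 A (hrange x hx).2
  have hB2 := hexp2 B (hrange x' hx').2
  have hAB : |A - B| ≤ D / 100 := by
    have h1 : |‖x‖ - ‖x'‖| ≤ D * R := hDR ▸ abs_norm_sub_norm_le x x'
    have h2 : A - B = lam / 2 * ((‖x‖ + ‖x'‖) * (‖x‖ - ‖x'‖)) := by rw [hA, hB]; ring
    have h3 : |(‖x‖ + ‖x'‖) * (‖x‖ - ‖x'‖)| ≤ (2 * R) * (D * R) := by
      rw [abs_mul]
      refine mul_le_mul ?_ h1 (abs_nonneg _) (by positivity)
      rw [abs_of_nonneg (by positivity)]; linarith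
    rw [h2, abs_mul, abs_of_nonneg (by positivity : 0 ≤ lam / 2)]
    refine le_trans (mul_le_mul_of_nonneg_left h3 (by positivity)) (le_of_eq ?_)
    rw [hlam]; field_simp
  have hE : |Real.exp A - Real.exp B| ≤ 2 * (D / 100) := by
    have h1 : ∀ s t : ℝ, Real.exp s ≤ 2 → |s - t| ≤ D / 100 →
        Real.exp s - Real.exp t ≤ 2 * (D / 100) := by
      intro s t hs hst
      have h2 := Real.add_one_le_exp (t - s)
      have h3 : Real.exp t = Real.exp s * Real.exp (t - s) := by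
        rw [← Real.exp_add]; congr 1; ring
      have h4 := Real.exp_pos s
      have h5 : s - t ≤ D / 100 := le_trans (le_abs_self _) hst
      have h6 : Real.exp s * (t - s + 1) ≤ Real.exp t := by
        rw [h3]; exact mul_le_mul_of_nonneg_left h2 h4.le
      nlinarith
    rw [abs_le]
    constructor
    · have := h1 B A hB2 (by rwa [abs_sub_comm]); linarith
    · exact h1 A B hA2 hAB
  have hq : |3 * r + ⟪x, v⟫| ≤ 3 * |r| + ζ := by
    refine le_trans (abs_add_le _ _) (add_le_add (by rw [abs_mul]; norm_num) ?_)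
    exact le_trans (abs_real_inner_le_norm x v) (mul_le_mul_of_nonneg_right hx (norm_nonneg _))
  have hq2 : |⟪x, v⟫ - ⟪x', v⟫| ≤ D * ζ := by
    rw [← inner_sub_left]
    refine le_trans (abs_real_inner_le_norm _ v) (le_of_eq ?_)
    rw [hDR, hζ]; ring
  rw [div_eq_mul_one_div, div_eq_mul_one_div (3 * r + ⟪x', v⟫), hg, hg, ← hA, ← hB]
  have e1 : (3 * r + ⟪x, v⟫) * Real.exp A - (3 * r + ⟪x', v⟫) * Real.exp B =
      (3 * r + ⟪x, v⟫) * (Real.exp A - Real.exp B) + (⟪x, v⟫ - ⟪x', v⟫) * Real.exp B := by ring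
  have e2 : (3 * r + ⟪x, v⟫) * (Real.exp A - Real.exp B) ≤ (3 * |r| + ζ) * (2 * (D / 100)) := by
    refine le_trans (le_abs_self _) ?_
    rw [abs_mul]
    exact mul_le_mul hq hE (abs_nonneg _) (by positivity)
  have e3 : (⟪x, v⟫ - ⟪x', v⟫) * Real.exp B ≤ D * ζ * 2 := by
    refine le_trans (le_abs_self _) ?_
    rw [abs_mul, abs_of_pos (Real.exp_pos B)]
    exact mul_le_mul hq2 hB2 (Real.exp_pos B).le (by positivity)
  have e4 : lam * ‖x - x'‖ ^ 2 / 4 = D ^ 2 / 400 := by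
    rw [hDR, hlam]; field_simp; ring
  rw [e1, e4, ← sq_abs r]
  set s := |r| with hs
  have hs0 : 0 ≤ s := abs_nonneg r
  nlinarith [sq_nonneg (D / 20 - 10 * (0.06 * s + 2.02 * ζ)), sq_nonneg (0.06 * s - 2.02 * ζ),
    sq_nonneg s, sq_nonneg ζ]

theorem bary_stab {ρ : Measure E} [IsProbabilityMeasure ρ] {R : ℝ} (hR0 : 0 < R)
    (hR : ∀ᵐ x ∂ρ, ‖x‖ ≤ R) (hPL : PLMeas ρ R) {k : E → ℝ} (hk : Continuous k)
    (hk2 : ∀ᵐ x ∂ρ, |k x| ≤ 1 / 2) {m : ι → ℝ} {y : ι → E} {ψ ψ' : ι → ℝ}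
    (h : Opt ρ (fun _ => 1) m y ψ) (h' : Opt ρ (fun x => 1 + k x) m y ψ') (v : ι → E) :
    bary ρ (fun _ => 1) y ψ v - bary ρ (fun x => 1 + k x) y ψ' v ≤
      5 * ∫ x, k x ^ 2 ∂ρ + 3000 * R ^ 2 * ∑ i, m i * ‖v i‖ ^ 2 := by
  set lam := 1 / (100 * R ^ 2) with hlam
  have hw := cont_gw (E := E) lam
  set p : ι → E → ℝ := fun i x => sm (aff y ψ x) i with hp
  set p' : ι → E → ℝ := fun i x => sm (aff y ψ' x) i with hp'
  set p'' : ι → E → ℝ := fun i x => sm (aff y (fun j => (ψ j + ψ' j) / 2) x) i with hp''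
  have hpc : ∀ i, Continuous (p i) := fun i => cont_sm _ _ i
  have hpc' : ∀ i, Continuous (p' i) := fun i => cont_sm _ _ i
  have hpc'' : ∀ i, Continuous (p'' i) := fun i => cont_sm _ _ i
  set a : ι → ℝ := fun i => ∫ x, p i x * gw lam x ∂ρ with ha
  set a' : ι → ℝ := fun i => ∫ x, p' i x * gw lam x ∂ρ with ha'
  set r : ι → ℝ := fun i => (a' i - a i) / a' i with hr
  set τ : ι → ℝ := fun i => (3 / 4) * r i ^ 2 + 900 * (R * ‖v i‖) ^ 2 with hτ
  set u : ι → E → ℝ := fun i x => (3 * r i + ⟪x, v i⟫) / gw lam x with hu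
  have huc : ∀ i, Continuous (u i) := fun i =>
    Continuous.div (by fun_prop) hw fun x => (gw_pos lam x).ne'
  have hsum : ∀ χ : ι → ℝ, ∑ i, ∫ x, sm (aff y χ x) i * gw lam x ∂ρ = ∫ x, gw lam x ∂ρ := by
    intro χ
    have hi : ∀ i, Integrable (fun x => sm (aff y χ x) i * gw lam x) ρ := fun i =>
      integrable_cont hR ((cont_sm y χ i).mul hw)
    rw [← integral_finsetSum _ fun i _ => hi i]
    congr 1; funext x
    rw [← Finset.sum_mul, sum_sm, one_mul]
  have hcell : ∀ i, a i + (1 / 2) * ((a' i - a i) - r i ^ 2 * a' i +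
      ∫ x, p i x * gw lam x * u i x ∂ρ - (1 - r i) * ∫ x, p' i x * gw lam x * u i x ∂ρ -
        a i * τ i) ≤ ∫ x, p'' i x * gw lam x ∂ρ := by
    intro i
    refine cell_ineq hR hPL lam (τ i) (hpc i) (hpc' i) (hpc'' i) (huc i) (fun x => sm_pos _ _)
      (fun x => sm_pos _ _) (fun x => sm_pos _ _) ?_ ?_ _ _ _ rfl rfl rfl
    · intro x x'
      have h1 := sm_mid (aff y ψ x) (aff y ψ' x') i
      have h2 : (fun j => (aff y ψ x j + aff y ψ' x' j) / 2) =
          aff y (fun j => (ψ j + ψ' j) / 2) ((1 / 2 : ℝ) • (x + x')) := by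
        funext j
        simp only [aff, inner_smul_left, inner_add_left]
        simp; ring
      rw [h2] at h1
      exact h1
    · intro x x' hx hx'
      exact test_fun_ineq hR0 (r i) (v i) x x' hx hx'
  -- per-index bound
  have hterm : ∀ i, ∫ x, sm (aff y ψ x) i * ⟪x, v i⟫ * 1 ∂ρ -
      ∫ x, sm (aff y ψ' x) i * ⟪x, v i⟫ * (1 + k x) ∂ρ ≤
      (- r i ^ 2 * a' i + ∫ x, p i x * gw lam x * u i x ∂ρ -
        (1 - r i) * ∫ x, p' i x * gw lam x * u i x ∂ρ - a i * τ i) +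
      (5 * ∫ x, p' i x * k x ^ 2 ∂ρ + 3000 * R ^ 2 * (m i * ‖v i‖ ^ 2)) := by
    intro i
    have e1 : ∀ x, gw lam x * u i x = 3 * r i + ⟪x, v i⟫ := by
      intro x; simp only [hu]; field_simp [(gw_pos lam x).ne']
    have hm1 : ∫ x, p i x ∂ρ = m i := by simpa using h i
    have hm2 : ∫ x, p' i x * (1 + k x) ∂ρ = m i := h' i
    have hξc : Continuous fun x : E => ⟪x, v i⟫ := by fun_prop
    have hI : ∫ x, p i x * gw lam x * u i x ∂ρ =
        3 * r i * m i + ∫ x, sm (aff y ψ x) i * ⟪x, v i⟫ * 1 ∂ρ := by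
      have hi1 : Integrable (fun x => 3 * r i * p i x) ρ :=
        integrable_cont hR (continuous_const.mul (hpc i))
      have hi2 : Integrable (fun x => sm (aff y ψ x) i * ⟪x, v i⟫ * 1) ρ :=
        integrable_cont hR (((hpc i).mul hξc).mul continuous_const)
      rw [← hm1, ← integral_const_mul, ← integral_add hi1 hi2]
      congr 1; funext x
      rw [mul_assoc, e1]; simp only [hp]; ring
    have hI' : ∫ x, p' i x * gw lam x * u i x ∂ρ = ∫ x, p' i x * (3 * r i + ⟪x, v i⟫) ∂ρ := by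
      congr 1; funext x; rw [mul_assoc, e1]
    have hτ0 : 0 ≤ τ i := by simp only [hτ]; positivity
    have ham : a i ≤ m i := by
      rw [← hm1]
      refine integral_mono (integrable_cont hR ((hpc i).mul hw)) (integrable_cont hR (hpc i))
        fun x => ?_
      have : gw lam x ≤ 1 := by
        unfold gw; rw [Real.exp_le_one_iff]
        have : 0 ≤ lam * ‖x‖ ^ 2 / 2 := by positivity
        linarith
      exact mul_le_of_le_one_right (sm_pos _ _).le this
    have haτ : a i * τ i ≤ m i * τ i := mul_le_mul_of_nonneg_right ham hτ0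
    -- the pointwise inequality
    have hpt : ∫ x, (r i ^ 2 * (p' i x * gw lam x) + (1 - r i) * (p' i x * (3 * r i + ⟪x, v i⟫)) +
        (τ i - 3 * r i - 3000 * R ^ 2 * ‖v i‖ ^ 2) * (p' i x * (1 + k x))) ∂ρ ≤
        ∫ x, (p' i x * ⟪x, v i⟫ * (1 + k x) + 5 * (p' i x * k x ^ 2)) ∂ρ := by
      refine integral_mono_ae (integrable_cont hR (by fun_prop)) (integrable_cont hR (by fun_prop)) ?_
      filter_upwards [hR, hk2] with x hx hkx
      have hp0 : 0 < p' i x := sm_pos _ _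
      have hg1 : gw lam x ≤ 1 := by
        unfold gw; rw [Real.exp_le_one_iff]
        have : 0 ≤ lam * ‖x‖ ^ 2 / 2 := by positivity
        linarith
      have hξ : ⟪x, v i⟫ ^ 2 ≤ (R * ‖v i‖) ^ 2 := by
        rw [← sq_abs]
        exact pow_le_pow_left₀ (abs_nonneg _)
          (le_trans (abs_real_inner_le_norm x _) (mul_le_mul_of_nonneg_right hx (norm_nonneg _))) 2
      rw [abs_le] at hkx
      set ξ := ⟪x, v i⟫
      set Z2 := (R * ‖v i‖) ^ 2 with hZ2
      have hZ : R ^ 2 * ‖v i‖ ^ 2 = Z2 := by rw [hZ2]; ring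
      have hZ0 : 0 ≤ Z2 := by positivity
      have key : r i ^ 2 * gw lam x + (1 - r i) * (3 * r i + ξ) +
          (τ i - 3 * r i - 3000 * Z2) * (1 + k x) ≤ ξ * (1 + k x) + 5 * k x ^ 2 := by
        have t1 : r i ^ 2 * gw lam x ≤ r i ^ 2 := mul_le_of_le_one_right (sq_nonneg _) hg1
        have t2 : (3 / 4 * r i ^ 2) * (1 + k x) ≤ (3 / 4 * r i ^ 2) * (3 / 2) :=
          mul_le_mul_of_nonneg_left (by linarith) (by positivity)
        have t3 : (2100 * Z2) * (1 / 2) ≤ (2100 * Z2) * (1 + k x) :=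
          mul_le_mul_of_nonneg_left (by linarith) (by positivity)
        have t4 : τ i = 3 / 4 * r i ^ 2 + 900 * Z2 := rfl
        rw [t4]
        nlinarith [sq_nonneg (r i + 3 * k x), sq_nonneg (r i + 2 * ξ), sq_nonneg (ξ + k x)]
      have := mul_le_mul_of_nonneg_left key hp0.le
      rw [mul_assoc 3000, hZ]
      linarith
    rw [integral_add (integrable_cont hR (by fun_prop)) (integrable_cont hR (by fun_prop)),
      integral_add (integrable_cont hR (by fun_prop)) (integrable_cont hR (by fun_prop)),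
      integral_add (integrable_cont hR (by fun_prop)) (integrable_cont hR (by fun_prop)),
      integral_const_mul, integral_const_mul, integral_const_mul, integral_const_mul, hm2] at hpt
    rw [hI, hI']
    have e5 : a' i = ∫ x, p' i x * gw lam x ∂ρ := rfl
    rw [← e5] at hpt
    simp only [hp'] at hpt ⊢
    linarith
  have hS1 := Finset.sum_le_sum fun i (_ : i ∈ Finset.univ) => hcell i
  have hS2 := Finset.sum_le_sum fun i (_ : i ∈ Finset.univ) => hterm i
  have ea : ∑ i, a i = ∫ x, gw lam x ∂ρ := hsum ψ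
  have ea' : ∑ i, a' i = ∫ x, gw lam x ∂ρ := hsum ψ'
  have ec : ∑ i, ∫ x, p'' i x * gw lam x ∂ρ = ∫ x, gw lam x ∂ρ := hsum _
  have ek : ∑ i, ∫ x, p' i x * k x ^ 2 ∂ρ = ∫ x, k x ^ 2 ∂ρ := by
    have hi : ∀ i, Integrable (fun x => p' i x * k x ^ 2) ρ := fun i =>
      integrable_cont hR ((hpc' i).mul (hk.pow 2))
    rw [← integral_finsetSum _ fun i _ => hi i]
    congr 1; funext x
    rw [← Finset.sum_mul, sum_sm, one_mul]
  set Y : ι → ℝ := fun i => - r i ^ 2 * a' i + ∫ x, p i x * gw lam x * u i x ∂ρ -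
        (1 - r i) * ∫ x, p' i x * gw lam x * u i x ∂ρ - a i * τ i with hY
  have hS3 : ∑ i, (a i + (1 / 2) * ((a' i - a i) - r i ^ 2 * a' i +
      ∫ x, p i x * gw lam x * u i x ∂ρ - (1 - r i) * ∫ x, p' i x * gw lam x * u i x ∂ρ -
        a i * τ i)) = ∑ i, a i + (1 / 2) * (∑ i, a' i - ∑ i, a i + ∑ i, Y i) := by
    rw [← Finset.sum_sub_distrib, ← Finset.sum_add_distrib, Finset.mul_sum,
      ← Finset.sum_add_distrib]
    refine Finset.sum_congr rfl fun i _ => ?_
    simp only [hY]; ring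
  rw [hS3, ea, ea', ec] at hS1
  rw [Finset.sum_sub_distrib, Finset.sum_add_distrib, Finset.sum_add_distrib, ← Finset.mul_sum,
    ← Finset.mul_sum, ek] at hS2
  unfold bary
  change _ ≤ ∑ i, Y i + _ at hS2
  linarith

end Crest.Agent.R82
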