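import Mathlib

/-! Log-sum-exp and softmax on a finite index set (row 82). -/

open Finset

namespace Crest.Agent.R82

variable {ι : Type} [Fintype ι] [Nonempty ι]

/-- partition sum -/
noncomputable def Zs (a : ι → ℝ) : ℝ := ∑ i, Real.exp (a i)

/-- log-sum-exp -/
noncomputable def LS (a : ι → ℝ) : ℝ := Real.log (Zs a)

/-- softmax weights -/
noncomputable def sm (a : ι → ℝ) (i : ι) : ℝ := Real.exp (a i) / Zs a

theorem Zs_pos (a : ι → ℝ) : 0 < Zs a :=
  Finset.sum_pos (fun i _ => Real.exp_pos _) Finset.univ_nonempty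

theorem sm_pos (a : ι → ℝ) (i : ι) : 0 < sm a i := div_pos (Real.exp_pos _) (Zs_pos a)

theorem sum_sm (a : ι → ℝ) : ∑ i, sm a i = 1 := by
  unfold sm
  rw [← Finset.sum_div]
  exact div_self (Zs_pos a).ne'

theorem sm_le_one (a : ι → ℝ) (i : ι) : sm a i ≤ 1 := by
  rw [← sum_sm a]
  exact Finset.single_le_sum (f := fun j => sm a j) (fun j _ => (sm_pos a j).le) (Finset.mem_univ i)

theorem exp_eq_sm (a : ι → ℝ) (i : ι) : Real.exp (a i) = Zs a * sm a i := by
  unfold sm
  field_simp [(Zs_pos a).ne']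

theorem le_LS (a : ι → ℝ) (i : ι) : a i ≤ LS a := by
  unfold LS
  rw [Real.le_log_iff_exp_le (Zs_pos a)]
  exact Finset.single_le_sum (f := fun j => Real.exp (a j)) (fun j _ => (Real.exp_pos _).le)
    (Finset.mem_univ i)

theorem Zs_eq (a b : ι → ℝ) : Zs b = Zs a * ∑ i, sm a i * Real.exp (b i - a i) := by
  rw [Finset.mul_sum]
  unfold Zs
  refine Finset.sum_congr rfl fun i _ => ?_
  rw [← mul_assoc]
  change _ = (Zs a * sm a i) * _
  rw [← exp_eq_sm, ← Real.exp_add]
  congr 1; ring

/-- gradient inequality (convexity of log-sum-exp) -/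
theorem LS_grad (a b : ι → ℝ) : LS a + ∑ i, sm a i * (b i - a i) ≤ LS b := by
  set c := ∑ i, sm a i * (b i - a i) with hc
  have h1 : Real.exp c ≤ ∑ i, sm a i * Real.exp (b i - a i) := by
    have h2 : ∀ i, sm a i * (Real.exp c * (1 + (b i - a i) - c)) ≤ sm a i * Real.exp (b i - a i) := by
      intro i
      refine mul_le_mul_of_nonneg_left ?_ (sm_pos a i).le
      have h3 := Real.add_one_le_exp (b i - a i - c)
      have h4 : Real.exp (b i - a i) = Real.exp c * Real.exp (b i - a i - c) := by
        rw [← Real.exp_add]; congr 1; ring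
      rw [h4]
      exact mul_le_mul_of_nonneg_left (by linarith) (Real.exp_pos _).le
    have h5 : ∑ i, sm a i * (Real.exp c * (1 + (b i - a i) - c)) = Real.exp c := by
      have : ∀ i, sm a i * (Real.exp c * (1 + (b i - a i) - c)) =
          Real.exp c * (1 - c) * sm a i + Real.exp c * (sm a i * (b i - a i)) := by
        intro i; ring
      simp_rw [this]
      rw [Finset.sum_add_distrib, ← Finset.mul_sum, ← Finset.mul_sum, sum_sm, ← hc]
      ring
    rw [← h5]
    exact Finset.sum_le_sum fun i _ => h2 i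
  unfold LS
  rw [Real.le_log_iff_exp_le (Zs_pos b), Real.exp_add, Real.exp_log (Zs_pos a), Zs_eq a b]
  exact mul_le_mul_of_nonneg_left h1 (Zs_pos a).le

theorem LS_upper (a b : ι → ℝ) : LS b ≤ LS a + ∑ i, sm a i * (Real.exp (b i - a i) - 1) := by
  have hS : 0 < ∑ i, sm a i * Real.exp (b i - a i) :=
    Finset.sum_pos (fun i _ => mul_pos (sm_pos a i) (Real.exp_pos _)) Finset.univ_nonempty
  have h1 : ∑ i, sm a i * (Real.exp (b i - a i) - 1) = ∑ i, sm a i * Real.exp (b i - a i) - 1 := by
    simp_rw [mul_sub, mul_one]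
    rw [Finset.sum_sub_distrib, sum_sm]
  unfold LS
  rw [Zs_eq a b, Real.log_mul (Zs_pos a).ne' hS.ne', h1]
  have := Real.log_le_sub_one_of_pos hS
  linarith

theorem LS_le_add (a b : ι → ℝ) (c : ℝ) (h : ∀ i, b i ≤ a i + c) : LS b ≤ LS a + c := by
  have h1 := LS_grad b a
  have h2 : ∑ i, sm b i * (-c) ≤ ∑ i, sm b i * (a i - b i) :=
    Finset.sum_le_sum fun i _ => mul_le_mul_of_nonneg_left (by linarith [h i]) (sm_pos b i).le
  rw [← Finset.sum_mul, sum_sm] at h2
  linarith

theorem LS_add_const (a : ι → ℝ) (c : ℝ) : LS (fun i => a i + c) = LS a + c := by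
  apply le_antisymm
  · exact LS_le_add _ _ _ fun i => le_rfl
  · have := LS_le_add (fun i => a i + c) a (-c) fun i => by simp
    linarith

theorem LS_entropy (a : ι → ℝ) : LS a ≤ ∑ i, sm a i * a i + Fintype.card ι := by
  have h1 := LS_grad a (fun _ => 0)
  have h2 : LS (fun _ : ι => (0 : ℝ)) ≤ Fintype.card ι := by
    unfold LS Zs
    simp only [Real.exp_zero, Finset.sum_const, Finset.card_univ, nsmul_eq_mul, mul_one]
    have : (0 : ℝ) < Fintype.card ι := by exact_mod_cast Fintype.card_pos
    have := Real.log_le_sub_one_of_pos this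
    linarith
  have h3 : ∑ i, sm a i * ((fun _ => (0 : ℝ)) i - a i) = -∑ i, sm a i * a i := by
    rw [← Finset.sum_neg_distrib]
    exact Finset.sum_congr rfl fun i _ => by simp
  linarith

theorem sm_mid (a b : ι → ℝ) (i : ι) :
    sm a i * sm b i ≤ sm (fun j => (a j + b j) / 2) i ^ 2 := by
  have hcs : Zs (fun j => (a j + b j) / 2) ^ 2 ≤ Zs a * Zs b := by
    have h := Finset.sum_mul_sq_le_sq_mul_sq Finset.univ (fun j => Real.exp (a j / 2))
      (fun j => Real.exp (b j / 2))
    have e1 : ∀ j, Real.exp (a j / 2) * Real.exp (b j / 2) = Real.exp ((a j + b j) / 2) := by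
      intro j; rw [← Real.exp_add]; congr 1; ring
    have e2 : ∀ t : ℝ, Real.exp (t / 2) ^ 2 = Real.exp t := by
      intro t; rw [sq, ← Real.exp_add]; congr 1; ring
    simp_rw [e1, e2] at h
    exact h
  unfold sm
  have e3 : Real.exp ((a i + b i) / 2) ^ 2 = Real.exp (a i) * Real.exp (b i) := by
    rw [sq, ← Real.exp_add, ← Real.exp_add]; congr 1; ring
  rw [div_pow, e3, div_mul_div_comm]
  exact div_le_div_of_nonneg_left (mul_pos (Real.exp_pos _) (Real.exp_pos _)).le
    (pow_pos (Zs_pos _) 2) hcs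

/-- stability of the softmax weight at the index where the shift is largest -/
theorem sm_shift (a c : ι → ℝ) (i j : ι) (hi : ∀ k, c k ≤ c i) (p : ℝ) (hp : p ≤ sm a j) :
    sm (fun k => a k - c k) i * (1 + p * (c i - c j)) ≤ sm a i := by
  classical
  set b : ι → ℝ := fun k => a k - c k with hb
  have hs : 0 ≤ c i - c j := by linarith [hi j]
  have h1 : 1 + p * (c i - c j) ≤ ∑ k, sm a k * Real.exp (c i - c k) := by
    have h2 : ∀ k, sm a k + (if k = j then sm a j * (c i - c j) else 0) ≤
        sm a k * Real.exp (c i - c k) := by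
      intro k
      have h3 := Real.add_one_le_exp (c i - c k)
      have h4 := sm_pos a k
      split_ifs with hk
      · subst hk; nlinarith
      · have := hi k; nlinarith
    have h5 := Finset.sum_le_sum fun k (_ : k ∈ Finset.univ) => h2 k
    rw [Finset.sum_add_distrib, sum_sm, Finset.sum_ite_eq' Finset.univ j] at h5
    simp only [Finset.mem_univ, if_true] at h5
    have := mul_le_mul_of_nonneg_right hp hs
    linarith
  have h6 : Zs b * Real.exp (c i) = Zs a * ∑ k, sm a k * Real.exp (c i - c k) := by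
    rw [Zs_eq a b, mul_assoc, Finset.sum_mul]
    congr 1
    refine Finset.sum_congr rfl fun k _ => ?_
    rw [mul_assoc, ← Real.exp_add]
    congr 2
    simp only [hb]; ring
  have h7 : sm b i * (Zs b * Real.exp (c i)) = Zs a * sm a i := by
    rw [← mul_assoc, mul_comm (sm b i), ← exp_eq_sm, ← exp_eq_sm, ← Real.exp_add]
    congr 1
    simp only [hb]; ring
  rw [h6] at h7
  have h8 : sm b i * ∑ k, sm a k * Real.exp (c i - c k) = sm a i := by
    have hz := (Zs_pos a).ne'
    apply mul_left_cancel₀ hz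
    rw [← h7]; ring
  rw [← h8]
  exact mul_le_mul_of_nonneg_left h1 (sm_pos b i).le

theorem continuous_Zs {X : Type*} [TopologicalSpace X] {a : X → ι → ℝ}
    (ha : ∀ i, Continuous fun x => a x i) : Continuous fun x => Zs (a x) := by
  unfold Zs
  exact continuous_finsetSum _ fun i _ => (ha i).rexp

theorem continuous_LS {X : Type*} [TopologicalSpace X] {a : X → ι → ℝ}
    (ha : ∀ i, Continuous fun x => a x i) : Continuous fun x => LS (a x) :=
  (continuous_Zs ha).log fun x => (Zs_pos (a x)).ne'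

theorem continuous_sm {X : Type*} [TopologicalSpace X] {a : X → ι → ℝ}
    (ha : ∀ i, Continuous fun x => a x i) (i : ι) : Continuous fun x => sm (a x) i :=
  (ha i).rexp.div (continuous_Zs ha) fun x => (Zs_pos (a x)).ne'

end Crest.Agent.R82
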