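import Mathlib
import Crest.Prelude.Def_QuadraticTransport

/-! A map that is optimal among transport maps from an absolutely continuous source is optimal among
all couplings. -/

set_option autoImplicit false

namespace Crest.Agent.R82

open MeasureTheory Crest.AnalysisR.OT ProbabilityTheory
open scoped ENNReal

theorem mk_continuous_cdf (P : Measure ℝ) [IsProbabilityMeasure P] (h : ∀ x, P {x} = 0) :
    Continuous (cdf P) := by
  rw [continuous_iff_continuousAt]
  intro x
  rw [(monotone_cdf P).continuousAt_iff_leftLim_eq_rightLim, (cdf P).rightLim_eq]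
  have h1 := (cdf P).measure_singleton x
  rw [measure_cdf, h x] at h1
  have h2 : cdf P x - Function.leftLim (cdf P) x ≤ 0 := ENNReal.ofReal_eq_zero.1 h1.symm
  have h3 : Function.leftLim (cdf P) x ≤ cdf P x := (monotone_cdf P).leftLim_le le_rfl
  linarith

theorem mk_measure_cdf_le (P : Measure ℝ) [IsProbabilityMeasure P] (h : ∀ x, P {x} = 0)
    (t : ℝ) (ht0 : 0 ≤ t) (ht1 : t ≤ 1) : P {x | cdf P x ≤ t} = ENNReal.ofReal t := by
  have hc := mk_continuous_cdf P h
  rcases eq_or_lt_of_le ht1 with rfl | ht1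
  · have : {x | cdf P x ≤ 1} = Set.univ := Set.eq_univ_of_forall fun x => cdf_le_one P x
    rw [this]; simp
  rcases Set.eq_empty_or_nonempty {x | cdf P x ≤ t} with he | hne
  · have h1 : ∀ x, t ≤ cdf P x := fun x => by
      by_contra hx
      have : x ∈ {x | cdf P x ≤ t} := (not_le.1 hx).le
      rw [he] at this; exact this
    have h2 : t ≤ 0 := ge_of_tendsto' (tendsto_cdf_atBot P) h1
    rw [he, le_antisymm h2 ht0]; simp
  · obtain ⟨b, hb⟩ := Filter.eventually_atTop.1
      ((tendsto_cdf_atTop P).eventually (lt_mem_nhds ht1))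
    have hbdd : BddAbove {x | cdf P x ≤ t} := ⟨b, fun x hx => by
      by_contra hxb
      exact absurd (hb x (not_le.1 hxb).le) (not_lt.2 hx)⟩
    have hcl : IsClosed {x | cdf P x ≤ t} := isClosed_le hc continuous_const
    set a := sSup {x | cdf P x ≤ t} with ha
    have hamem : cdf P a ≤ t := hcl.csSup_mem hne hbdd
    have hset : {x | cdf P x ≤ t} = Set.Iic a := by
      ext x
      exact ⟨fun hx => le_csSup hbdd hx, fun hx => (monotone_cdf P hx).trans hamem⟩
    have hge : t ≤ cdf P a := by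
      have h1 : Filter.Tendsto (cdf P) (nhdsWithin a (Set.Ioi a)) (nhds (cdf P a)) :=
        hc.continuousAt.continuousWithinAt
      refine ge_of_tendsto h1 ?_
      filter_upwards [self_mem_nhdsWithin] with x hx
      by_contra hx'
      have : x ∈ Set.Iic a := hset ▸ (not_le.1 hx').le
      exact absurd (show a < x from hx) (not_lt.2 this)
    rw [hset, ← ofReal_cdf, le_antisymm hamem hge]

theorem mk_exists_map_uniform (P : Measure ℝ) [IsProbabilityMeasure P] (h : ∀ x, P {x} = 0) :
    ∃ F : ℝ → unitInterval, Measurable F ∧ P.map F = volume := by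
  let F : ℝ → unitInterval := fun x => ⟨cdf P x, cdf_nonneg P x, cdf_le_one P x⟩
  have hF : Measurable F := (mk_continuous_cdf P h).measurable.subtype_mk
  refine ⟨F, hF, Measure.ext_of_Iic _ _ fun t => ?_⟩
  rw [Measure.map_apply hF measurableSet_Iic, unitInterval.volume_Iic]
  exact mk_measure_cdf_le P h t t.2.1 t.2.2

theorem mk_transport {d : ℕ} (hd : 1 ≤ d) (σ ν : Measure (EuclideanSpace ℝ (Fin d)))
    [IsFiniteMeasure σ] (hσ : σ ≪ volume) (hm : ν Set.univ = σ Set.univ) :
    ∃ S : EuclideanSpace ℝ (Fin d) → EuclideanSpace ℝ (Fin d), Measurable S ∧ σ.map S = ν := by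
  by_cases h0 : σ = 0
  · refine ⟨id, measurable_id, ?_⟩
    rw [h0] at hm ⊢
    simp only [Measure.coe_zero, Pi.zero_apply, Measure.measure_univ_eq_zero] at hm
    simp [hm]
  set m := σ Set.univ with hmdef
  have hm0 : m ≠ 0 := by simpa [hmdef] using h0
  have hmt : m ≠ ⊤ := measure_ne_top _ _
  let i0 : Fin d := ⟨0, hd⟩
  let c : EuclideanSpace ℝ (Fin d) → ℝ := fun x => x i0
  have hc : Measurable c := by fun_prop
  have hσ' : IsProbabilityMeasure (m⁻¹ • σ) :=
    ⟨by rw [Measure.smul_apply, smul_eq_mul, ← hmdef, ENNReal.inv_mul_cancel hm0 hmt]⟩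
  have hν' : IsProbabilityMeasure (m⁻¹ • ν) :=
    ⟨by rw [Measure.smul_apply, smul_eq_mul, hm, ENNReal.inv_mul_cancel hm0 hmt]⟩
  have : IsProbabilityMeasure ((m⁻¹ • σ).map c) := Measure.isProbabilityMeasure_map hc.aemeasurable
  have hat : ∀ x, ((m⁻¹ • σ).map c) {x} = 0 := by
    intro x
    rw [Measure.map_apply hc (measurableSet_singleton x), Measure.smul_apply]
    have h1 : (volume : Measure (EuclideanSpace ℝ (Fin d))) (c ⁻¹' {x}) = 0 := by
      let A : AffineSubspace ℝ (EuclideanSpace ℝ (Fin d)) :=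
        (AffineSubspace.mk' x ⊥).comap
          (EuclideanSpace.proj (𝕜 := ℝ) i0 : EuclideanSpace ℝ (Fin d) →L[ℝ] ℝ).toLinearMap.toAffineMap
      have hA : (A : Set (EuclideanSpace ℝ (Fin d))) = c ⁻¹' {x} := by
        ext y
        simp [A, c, AffineSubspace.mem_mk', sub_eq_zero]
      rw [← hA]
      refine Measure.addHaar_affineSubspace _ A fun htop => ?_
      have h2 : EuclideanSpace.single i0 (x + 1) ∈ (A : Set (EuclideanSpace ℝ (Fin d))) := by
        rw [htop]; trivial
      rw [hA] at h2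
      simp [c] at h2
    rw [hσ h1]; simp
  obtain ⟨F, hF, hFP⟩ := mk_exists_map_uniform _ hat
  obtain ⟨f, hf, hfν⟩ := (m⁻¹ • ν).exists_measurable_map_eq
  refine ⟨f ∘ F ∘ c, hf.comp (hF.comp hc), ?_⟩
  have h1 : (m⁻¹ • σ).map (f ∘ F ∘ c) = m⁻¹ • ν := by
    rw [← Measure.map_map hf (hF.comp hc), ← Measure.map_map hF hc, hFP, hfν]
  rw [Measure.map_smul] at h1
  have h2 := congrArg (fun τ => m • τ) h1
  simp only [smul_smul, ENNReal.mul_inv_cancel hm0 hmt, one_smul] at h2
  exact h2

theorem mk_sum_fibres {X : Type*} [MeasurableSpace X] (m : Measure X) (q : X → ℕ)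
    (hq : Measurable q) : m = Measure.sum fun k => m.restrict (q ⁻¹' {k}) := by
  rw [← Measure.restrict_iUnion]
  · have : (⋃ k, q ⁻¹' {k}) = Set.univ := by
      ext x; simp
    rw [this, Measure.restrict_univ]
  · intro i j hij
    exact Set.disjoint_left.2 fun x hi hj => hij (hi.symm.trans hj)
  · exact fun k => hq (measurableSet_singleton k)

theorem mk_glue {d : ℕ} (hd : 1 ≤ d) (ρ : Measure (EuclideanSpace ℝ (Fin d))) [IsFiniteMeasure ρ]
    (hρ : ρ ≪ volume) (γ : Measure (EuclideanSpace ℝ (Fin d) × EuclideanSpace ℝ (Fin d)))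
    (hγ : γ.map Prod.fst = ρ) (q : EuclideanSpace ℝ (Fin d) → ℕ) (hq : Measurable q) :
    ∃ S : EuclideanSpace ℝ (Fin d) → EuclideanSpace ℝ (Fin d), Measurable S ∧
      ρ.map (fun x => (q x, S x)) = γ.map (fun p => (q p.1, p.2)) := by
  have hQ : ∀ k, MeasurableSet (q ⁻¹' {k}) := fun k => hq (measurableSet_singleton k)
  have hex : ∀ k, ∃ S : EuclideanSpace ℝ (Fin d) → EuclideanSpace ℝ (Fin d), Measurable S ∧
      (ρ.restrict (q ⁻¹' {k})).map S
        = (γ.restrict ((fun p => q p.1) ⁻¹' {k})).map Prod.snd := by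
    intro k
    refine mk_transport hd _ _ (Measure.absolutelyContinuous_restrict.trans hρ) ?_
    rw [Measure.map_apply measurable_snd MeasurableSet.univ, Set.preimage_univ,
      Measure.restrict_apply_univ, Measure.restrict_apply_univ, ← hγ,
      Measure.map_apply measurable_fst (hQ k)]
    rfl
  choose S hS hSk using hex
  have hSm : Measurable fun x => S (q x) x := by
    have h1 : Measurable fun p : EuclideanSpace ℝ (Fin d) × ℕ => S p.2 p.1 :=
      measurable_from_prod_countable_left fun k => hS k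
    exact h1.comp (measurable_id.prodMk hq)
  refine ⟨fun x => S (q x) x, hSm, ?_⟩
  have hG : Measurable fun x => (q x, S (q x) x) := hq.prodMk hSm
  have hG' : Measurable fun p : EuclideanSpace ℝ (Fin d) × EuclideanSpace ℝ (Fin d) =>
      (q p.1, p.2) := (hq.comp measurable_fst).prodMk measurable_snd
  conv_lhs => rw [mk_sum_fibres ρ q hq]
  conv_rhs => rw [mk_sum_fibres γ (fun p => q p.1) (hq.comp measurable_fst)]
  rw [Measure.map_sum hG.aemeasurable, Measure.map_sum hG'.aemeasurable]
  congr 1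
  ext1 k
  have hk : Measurable fun y : EuclideanSpace ℝ (Fin d) => (k, y) := measurable_prodMk_left
  have e1 : (ρ.restrict (q ⁻¹' {k})).map (fun x => (q x, S (q x) x))
      = ((ρ.restrict (q ⁻¹' {k})).map (S k)).map (fun y => (k, y)) := by
    rw [Measure.map_map hk (hS k)]
    refine Measure.map_congr ?_
    filter_upwards [ae_restrict_mem (hQ k)] with x hx
    have : q x = k := hx
    simp [this]
  have e2 : (γ.restrict ((fun p => q p.1) ⁻¹' {k})).map (fun p => (q p.1, p.2))
      = ((γ.restrict ((fun p => q p.1) ⁻¹' {k})).map Prod.snd).map (fun y => (k, y)) := by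
    rw [Measure.map_map hk measurable_snd]
    refine Measure.map_congr ?_
    filter_upwards [ae_restrict_mem ((hq.comp measurable_fst) (measurableSet_singleton k))]
      with p hp
    have : q p.1 = k := hp
    simp [this]
  rw [e1, e2, hSk]

theorem monge_le_coupling {d : ℕ} (hd : 1 ≤ d) (ρ μ : Measure (EuclideanSpace ℝ (Fin d)))
    [IsProbabilityMeasure ρ] (hρ : ρ ≪ volume)
    (T : EuclideanSpace ℝ (Fin d) → EuclideanSpace ℝ (Fin d)) (hT : IsOptimalMap ρ μ T)
    (γ : Measure (EuclideanSpace ℝ (Fin d) × EuclideanSpace ℝ (Fin d)))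
    (hγ : IsPairCoupling ρ μ γ) : ∫⁻ x, ‖x - T x‖ₑ ^ 2 ∂ρ ≤ quadCost γ := by
  classical
  obtain ⟨hγ1, hγ2⟩ := hγ
  have hγu : γ Set.univ = 1 := by
    have := Measure.map_apply (μ := γ) measurable_fst MeasurableSet.univ
    rw [hγ1, Set.preimage_univ, measure_univ] at this
    exact this.symm
  have key : ∀ δ : ℝ, 0 < δ → ∫⁻ x, ‖x - T x‖ₑ ^ 2 ∂ρ ≤
      ENNReal.ofReal (1 + δ) * quadCost γ + ENNReal.ofReal (4 * δ ^ 2 + 4 * δ) := by
    intro δ hδ
    let u := TopologicalSpace.denseSeq (EuclideanSpace ℝ (Fin d))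
    have hp : ∀ x, ∃ n, dist x (u n) < δ := fun x =>
      (TopologicalSpace.denseRange_denseSeq _).exists_dist_lt x hδ
    let q : EuclideanSpace ℝ (Fin d) → ℕ := fun x => Nat.find (hp x)
    have hq : Measurable q := measurable_find hp fun k =>
      measurableSet_lt (measurable_id.dist measurable_const) measurable_const
    have hqx : ∀ x, ‖x - u (q x)‖ ≤ δ := fun x => by
      rw [← dist_eq_norm]; exact (Nat.find_spec (hp x)).le
    obtain ⟨S, hS, hSγ⟩ := mk_glue hd ρ hρ γ hγ1 q hq
    have hG : Measurable fun x => (q x, S x) := hq.prodMk hS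
    have hG' : Measurable fun p : EuclideanSpace ℝ (Fin d) × EuclideanSpace ℝ (Fin d) =>
        (q p.1, p.2) := (hq.comp measurable_fst).prodMk measurable_snd
    have hSμ : ρ.map S = μ := by
      have := congrArg (fun m => Measure.map Prod.snd m) hSγ
      simp only [Measure.map_map measurable_snd hG, Measure.map_map measurable_snd hG'] at this
      rw [← hγ2]
      exact this
    let g : ℕ × EuclideanSpace ℝ (Fin d) → ℝ≥0∞ := fun p =>
      ENNReal.ofReal ((‖u p.1 - p.2‖ + δ) ^ 2)
    have hg : Measurable g := by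
      refine measurable_from_prod_countable_right fun k => ?_
      change Measurable fun y => ENNReal.ofReal ((‖u k - y‖ + δ) ^ 2)
      fun_prop
    have henorm : ∀ v : EuclideanSpace ℝ (Fin d), ‖v‖ₑ ^ 2 = ENNReal.ofReal (‖v‖ ^ 2) := by
      intro v
      rw [ENNReal.ofReal_pow (norm_nonneg _), ofReal_norm]
    calc ∫⁻ x, ‖x - T x‖ₑ ^ 2 ∂ρ ≤ ∫⁻ x, ‖x - S x‖ₑ ^ 2 ∂ρ := hT.2.2 S hS hSμ
      _ ≤ ∫⁻ x, g (q x, S x) ∂ρ := by
        refine lintegral_mono fun x => ?_
        rw [henorm]
        refine ENNReal.ofReal_le_ofReal (pow_le_pow_left₀ (norm_nonneg _) ?_ 2)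
        have h1 := norm_sub_le_norm_sub_add_norm_sub x (u (q x)) (S x)
        have h2 := hqx x
        change ‖x - S x‖ ≤ ‖u (q x) - S x‖ + δ
        linarith
      _ = ∫⁻ p, g (q p.1, p.2) ∂γ := by
        rw [← lintegral_map hg hG, hSγ, lintegral_map hg hG']
      _ ≤ ∫⁻ p, (ENNReal.ofReal (1 + δ) * ‖p.1 - p.2‖ₑ ^ 2
            + ENNReal.ofReal (4 * δ ^ 2 + 4 * δ)) ∂γ := by
        refine lintegral_mono fun p => ?_
        rw [henorm, ← ENNReal.ofReal_mul (by linarith),
          ← ENNReal.ofReal_add (by positivity) (by positivity)]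
        refine ENNReal.ofReal_le_ofReal ?_
        have h1 := norm_sub_le_norm_sub_add_norm_sub (u (q p.1)) p.1 p.2
        have h2 := hqx p.1
        rw [norm_sub_rev] at h2
        have h3 : (‖u (q p.1) - p.2‖ + δ) ^ 2 ≤ (‖p.1 - p.2‖ + 2 * δ) ^ 2 :=
          pow_le_pow_left₀ (by positivity) (by linarith) 2
        change (‖u (q p.1) - p.2‖ + δ) ^ 2 ≤ _
        nlinarith [mul_nonneg hδ.le (sq_nonneg (‖p.1 - p.2‖ - 2))]
      _ = ENNReal.ofReal (1 + δ) * quadCost γ + ENNReal.ofReal (4 * δ ^ 2 + 4 * δ) := by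
        rw [lintegral_add_right _ measurable_const, lintegral_const, hγu, mul_one,
          lintegral_const_mul' _ _ ENNReal.ofReal_ne_top]
        rfl
  refine ENNReal.le_of_forall_pos_le_add fun ε hε hC => ?_
  set c := (quadCost γ).toReal with hc
  have hc0 : 0 ≤ c := ENNReal.toReal_nonneg
  have hCc : quadCost γ = ENNReal.ofReal c := (ENNReal.ofReal_toReal hC.ne).symm
  have hε' : (0 : ℝ) < ε := hε
  set δ : ℝ := min 1 (ε / (c + 8)) with hδ
  have hδ0 : 0 < δ := lt_min one_pos (by positivity)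
  have hδ1 : δ ≤ 1 := min_le_left _ _
  have hδ2 : δ * (c + 8) ≤ ε := by
    have : δ ≤ ε / (c + 8) := min_le_right _ _
    rwa [le_div_iff₀ (by positivity)] at this
  refine (key δ hδ0).trans ?_
  rw [hCc, ← ENNReal.ofReal_mul (by linarith), ← ENNReal.ofReal_add (by positivity) (by positivity),
    ← ENNReal.ofReal_coe_nnreal, ← ENNReal.ofReal_add hc0 hε'.le]
  refine ENNReal.ofReal_le_ofReal ?_
  nlinarith

end Crest.Agent.R82
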