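import Crest.Prelude.Def_QuadraticTransport

set_option autoImplicit false

namespace Crest.Agent.R82

open MeasureTheory Crest.AnalysisR.OT
open scoped ENNReal NNReal RealInnerProductSpace

section
variable {d : ℕ}

local notation "E" => EuclideanSpace ℝ (Fin d)

lemma rp_cont {φ : E → ℝ} {L : ℝ} (hL : 0 ≤ L) (h : ∀ x z, |φ x - φ z| ≤ L * ‖x - z‖) :
    Continuous φ := by
  have : LipschitzWith ⟨L, hL⟩ φ := by
    refine LipschitzWith.of_dist_le_mul fun x z => ?_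
    rw [Real.dist_eq, dist_eq_norm]
    exact h x z
  exact this.continuous

lemma rp_shift (H : Set E) (v : E) (g : E → ℝ) :
    ∫ x in H, g (x + v) = ∫ y in (fun y => y - v) ⁻¹' H, g y := by
  have h := (measurePreserving_add_right (volume : Measure E) (-v)).setIntegral_preimage_emb
    (measurableEmbedding_addRight (-v)) (fun x => g (x + v)) H
  simp only [neg_add_cancel_right] at h
  rw [← h]
  simp only [sub_eq_add_neg]

lemma rp_shift_vol (H : Set E) (v : E) :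
    (volume : Measure E).real ((fun y => y - v) ⁻¹' H) = (volume : Measure E).real H := by
  simp only [Measure.real, sub_eq_add_neg, measure_preimage_add_right]

lemma rp_shift_sub {K H : Set E} {v : E} (h : ∀ x ∈ H, x + v ∈ K) :
    (fun y => y - v) ⁻¹' H ⊆ K := by
  intro y hy
  have := h _ hy
  simpa using this

/-- integral of a shifted nonnegative continuous function over the inner set -/
lemma rp_shift_le {K H : Set E} (hK : IsCompact K) {v : E} (h : ∀ x ∈ H, x + v ∈ K)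
    {g : E → ℝ} (hg : Continuous g) (hg0 : ∀ x, 0 ≤ g x) :
    ∫ x in H, g (x + v) ≤ ∫ x in K, g x := by
  rw [rp_shift]
  exact setIntegral_mono_set (hg.continuousOn.integrableOn_compact hK)
    (Filter.Eventually.of_forall hg0) (rp_shift_sub h).eventuallyLE

/-- second difference integrated over the inner set -/
lemma rp_second {K H : Set E} (hK : IsCompact K) (hH : IsCompact H) (hHK : H ⊆ K) {v : E}
    (h2 : ∀ x ∈ H, x - v ∈ K) {φ : E → ℝ} {L : ℝ} (hL : 0 ≤ L)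
    (hφ : ∀ x z, |φ x - φ z| ≤ L * ‖x - z‖) :
    ∫ x in H, (φ (x + v) + φ (x - v) - 2 * φ x) ≤
      2 * L * ‖v‖ * ((volume : Measure E).real K - (volume : Measure E).real H) := by
  have hc := rp_cont hL hφ
  set g : E → ℝ := fun x => φ (x + v) - φ x + L * ‖v‖ with hg
  have hgc : Continuous g := by
    simp only [hg]; fun_prop
  have hb : ∀ x, 0 ≤ g x ∧ g x ≤ 2 * L * ‖v‖ := by
    intro x
    have := hφ (x + v) x
    simp only [add_sub_cancel_left] at this
    have := abs_le.1 this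
    simp only [hg]
    constructor <;> linarith [this.1, this.2]
  have e1 : ∫ x in H, (φ (x + v) + φ (x - v) - 2 * φ x) =
      (∫ x in H, g x) - ∫ x in H, g (x + -v) := by
    rw [← integral_sub]
    · congr 1
      ext x
      simp only [hg, ← sub_eq_add_neg]
      simp only [sub_add_cancel]
      ring
    · exact hgc.continuousOn.integrableOn_compact hH
    · exact (hgc.comp (continuous_id.add continuous_const)).continuousOn.integrableOn_compact hH
  have h2' : ∀ x ∈ H, x + -v ∈ K := by simpa [sub_eq_add_neg] using h2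
  set H' : Set E := (fun y => y - -v) ⁻¹' H with hH'
  have hH'K : H' ⊆ K := rp_shift_sub h2'
  have hH'm : MeasurableSet H' :=
    (hH.isClosed.preimage (continuous_id.sub continuous_const)).measurableSet
  have hgK : IntegrableOn g K := hgc.continuousOn.integrableOn_compact hK
  have e2 : ∫ x in H, g (x + -v) = ∫ y in H', g y := rp_shift H (-v) g
  have e3 : ∫ x in H, g x ≤ ∫ x in K, g x :=
    setIntegral_mono_set hgK (Filter.Eventually.of_forall fun x => (hb x).1) hHK.eventuallyLE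
  have e4 : ∫ x in K \ H', g x = (∫ x in K, g x) - ∫ x in H', g x :=
    setIntegral_sdiff hH'm hgK hH'K
  have hfin : (volume : Measure E) (K \ H') ≠ ∞ :=
    ((measure_mono Set.sdiff_subset).trans_lt hK.measure_lt_top).ne
  have e5 : ∫ x in K \ H', g x ≤ ∫ _x in K \ H', (2 * L * ‖v‖) :=
    setIntegral_mono_on (hgK.mono_set Set.sdiff_subset) (integrableOn_const hfin)
      (hK.measurableSet.diff hH'm) fun x _ => (hb x).2
  rw [setIntegral_const, measureReal_sdiff hH'K hH'm hK.measure_lt_top.ne, hH', rp_shift_vol,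
    smul_eq_mul] at e5
  rw [e1, e2]
  linarith

/-- pointwise inequality -/
lemma rp_point {L s D p0 q0 p1 q1 e0 e1 t0 t1 : ℝ} (hs : 0 < s) (hD : D = t0 - t1)
    (ht0 : |t0| ≤ L) (ht1 : |t1| ≤ L) (he0 : 0 ≤ e0) (he1 : 0 ≤ e1)
    (a0 : s * t0 - e0 ≤ p0) (b0 : -(s * t0) - e0 ≤ q0)
    (a1 : s * t1 - e1 ≤ p1) (b1 : -(s * t1) - e1 ≤ q1) :
    D ^ 2 ≤ 4 * L / s * ((p0 + q0) + (p1 + q1) + 3 * e0 + 3 * e1) + (p1 - p0) ^ 2 / s ^ 2 := by
  set a := (p0 + q0) + (p1 + q1) + 3 * e0 + 3 * e1 with ha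
  have ha0 : 0 ≤ a := by rw [ha]; linarith
  have h1 : s * |D| ≤ a + |p1 - p0| := by
    have : |s * D| ≤ a + |p1 - p0| := by
      rw [abs_le]
      have := le_abs_self (p1 - p0)
      have := neg_abs_le (p1 - p0)
      rw [hD, ha]
      constructor <;> nlinarith
    rwa [abs_mul, abs_of_pos hs] at this
  have h2 : |D| ≤ 2 * L := by
    rw [hD]
    have := abs_sub t0 t1
    linarith
  have h3 : s ^ 2 * D ^ 2 ≤ 4 * L * s * a + (p1 - p0) ^ 2 := by
    rw [← sq_abs D, ← sq_abs (p1 - p0)]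
    have hD0 := abs_nonneg D
    have hB0 := abs_nonneg (p1 - p0)
    have h4 : (s * |D|) * (s * |D|) ≤ (s * |D|) * (a + |p1 - p0|) :=
      mul_le_mul_of_nonneg_left h1 (by positivity)
    have h5 : s * |D| * a ≤ s * (2 * L) * a := by gcongr
    nlinarith [sq_nonneg (s * |D| - |p1 - p0|)]
  have hs2 : 0 < s ^ 2 := by positivity
  have : 4 * L / s * a + (p1 - p0) ^ 2 / s ^ 2 = (4 * L * s * a + (p1 - p0) ^ 2) / s ^ 2 := by
    field_simp
  rw [this, le_div_iff₀ hs2]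
  linarith

/-- one coordinate, integrated over the inner set -/
lemma rp_coord {K H : Set E} (hK : IsCompact K) (hH : IsCompact H) (hHK : H ⊆ K) {L s : ℝ}
    (hL : 0 ≤ L) (hs : 0 < s) (hin : ∀ x ∈ H, ∀ v : E, ‖v‖ ≤ s → x + v ∈ K)
    {φ₀ φ₁ : E → ℝ} {T₀ T₁ : E → E} {e₀ e₁ : E → ℝ}
    (hφ₀ : ∀ x z, |φ₀ x - φ₀ z| ≤ L * ‖x - z‖) (hφ₁ : ∀ x z, |φ₁ x - φ₁ z| ≤ L * ‖x - z‖)
    (hint : ∀ k : Fin d, IntegrableOn (fun x => ((T₀ x - T₁ x) k) ^ 2) H)
    (he₀ : IntegrableOn e₀ K) (he₁ : IntegrableOn e₁ K)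
    (h₀ : ∀ᵐ x ∂(volume.restrict K), ‖T₀ x‖ ≤ L ∧ 0 ≤ e₀ x ∧
      ∀ z ∈ K, φ₀ x + ⟪T₀ x, z - x⟫ - e₀ x ≤ φ₀ z)
    (h₁ : ∀ᵐ x ∂(volume.restrict K), ‖T₁ x‖ ≤ L ∧ 0 ≤ e₁ x ∧
      ∀ z ∈ K, φ₁ x + ⟪T₁ x, z - x⟫ - e₁ x ≤ φ₁ z) (c : ℝ) (k : Fin d) :
    ∫ x in H, ((T₀ x - T₁ x) k) ^ 2 ≤
      16 * L ^ 2 * ((volume : Measure E).real K - (volume : Measure E).real H) +
        12 * L / s * ((∫ x in K, e₀ x) + ∫ x in K, e₁ x) +
        4 * (∫ x in K, (φ₁ x - φ₀ x - c) ^ 2) / s ^ 2 := by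
  have hc₀ := rp_cont hL hφ₀
  have hc₁ := rp_cont hL hφ₁
  set v : E := EuclideanSpace.single k s with hv
  have hvn : ‖v‖ = s := by
    rw [hv]; simp [abs_of_pos hs]
  have hp : ∀ x ∈ H, x + v ∈ K := fun x hx => hin x hx v hvn.le
  have hm : ∀ x ∈ H, x - v ∈ K := fun x hx => by
    rw [sub_eq_add_neg]; exact hin x hx (-v) (by rw [norm_neg]; exact hvn.le)
  have hinner : ∀ t : E, ⟪t, v⟫ = s * t k := by
    intro t
    rw [hv, EuclideanSpace.inner_single_right]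
    simp
  set f : E → ℝ := fun x => φ₁ x - φ₀ x - c with hf
  have hfc : Continuous f := by simp only [hf]; fun_prop
  set D₀ : E → ℝ := fun x => φ₀ (x + v) + φ₀ (x - v) - 2 * φ₀ x with hD₀
  set D₁ : E → ℝ := fun x => φ₁ (x + v) + φ₁ (x - v) - 2 * φ₁ x with hD₁
  have hD₀c : Continuous D₀ := by simp only [hD₀]; fun_prop
  have hD₁c : Continuous D₁ := by simp only [hD₁]; fun_prop
  have hHm := hH.measurableSet
  have hpt : ∀ᵐ x ∂(volume.restrict H), ((T₀ x - T₁ x) k) ^ 2 ≤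
      4 * L / s * (D₀ x + D₁ x + 3 * e₀ x + 3 * e₁ x) +
        (2 * f (x + v) ^ 2 + 2 * f x ^ 2) / s ^ 2 := by
    have a₀ := ae_restrict_of_ae_restrict_of_subset hHK h₀
    have a₁ := ae_restrict_of_ae_restrict_of_subset hHK h₁
    filter_upwards [a₀, a₁, ae_restrict_mem hHm] with x hx₀ hx₁ hx
    obtain ⟨n₀, p₀, q₀⟩ := hx₀
    obtain ⟨n₁, p₁, q₁⟩ := hx₁
    have b₀ := q₀ _ (hp x hx)
    have c₀ := q₀ _ (hm x hx)
    have b₁ := q₁ _ (hp x hx)
    have c₁ := q₁ _ (hm x hx)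
    rw [add_sub_cancel_left, hinner] at b₀ b₁
    rw [sub_sub_cancel_left, inner_neg_right, hinner] at c₀ c₁
    have t₀ : |T₀ x k| ≤ L := by
      have := PiLp.norm_apply_le (T₀ x) k
      rw [Real.norm_eq_abs] at this
      exact this.trans n₀
    have t₁ : |T₁ x k| ≤ L := by
      have := PiLp.norm_apply_le (T₁ x) k
      rw [Real.norm_eq_abs] at this
      exact this.trans n₁
    have key := rp_point (L := L) (s := s) (D := (T₀ x - T₁ x) k)
      (p0 := φ₀ (x + v) - φ₀ x) (q0 := φ₀ (x - v) - φ₀ x)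
      (p1 := φ₁ (x + v) - φ₁ x) (q1 := φ₁ (x - v) - φ₁ x) (e0 := e₀ x) (e1 := e₁ x)
      (t0 := T₀ x k) (t1 := T₁ x k) hs (by simp) t₀ t₁ p₀ p₁
      (by linarith) (by linarith) (by linarith) (by linarith)
    refine key.trans (add_le_add (le_of_eq ?_) ?_)
    · simp only [hD₀, hD₁]; ring
    · have : (φ₁ (x + v) - φ₁ x - (φ₀ (x + v) - φ₀ x)) = f (x + v) - f x := by
        simp only [hf]; ring
      rw [this]
      gcongr
      nlinarith [sq_nonneg (f (x + v) + f x)]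
  have iD₀ : IntegrableOn D₀ H := hD₀c.continuousOn.integrableOn_compact hH
  have iD₁ : IntegrableOn D₁ H := hD₁c.continuousOn.integrableOn_compact hH
  have ie₀ : IntegrableOn e₀ H := he₀.mono_set hHK
  have ie₁ : IntegrableOn e₁ H := he₁.mono_set hHK
  have if₁ : IntegrableOn (fun x => f (x + v) ^ 2) H :=
    Continuous.continuousOn (by fun_prop) |>.integrableOn_compact hH
  have if₂ : IntegrableOn (fun x => f x ^ 2) H :=
    Continuous.continuousOn (by fun_prop) |>.integrableOn_compact hH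
  have iA : IntegrableOn (fun x => D₀ x + D₁ x + 3 * e₀ x + 3 * e₁ x) H :=
    ((iD₀.add iD₁).add (ie₀.const_mul 3)).add (ie₁.const_mul 3)
  have iB : IntegrableOn (fun x => 2 * f (x + v) ^ 2 + 2 * f x ^ 2) H :=
    (if₁.const_mul 2).add (if₂.const_mul 2)
  have iC : IntegrableOn (fun x => 4 * L / s * (D₀ x + D₁ x + 3 * e₀ x + 3 * e₁ x) +
      (2 * f (x + v) ^ 2 + 2 * f x ^ 2) / s ^ 2) H :=
    (iA.const_mul (4 * L / s)).add (iB.div_const (s ^ 2))
  have step : ∫ x in H, ((T₀ x - T₁ x) k) ^ 2 ≤ ∫ x in H, (4 * L / s *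
      (D₀ x + D₁ x + 3 * e₀ x + 3 * e₁ x) + (2 * f (x + v) ^ 2 + 2 * f x ^ 2) / s ^ 2) :=
    integral_mono_ae (hint k) iC hpt
  have i1 : IntegrableOn (fun x => D₀ x + D₁ x) H := iD₀.add iD₁
  have i2 : IntegrableOn (fun x => D₀ x + D₁ x + 3 * e₀ x) H := i1.add (ie₀.const_mul 3)
  rw [integral_add (iA.const_mul _) (iB.div_const _), integral_const_mul, integral_div,
    integral_add i2 (ie₁.const_mul 3),
    integral_add i1 (ie₀.const_mul 3), integral_add iD₀ iD₁,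
    integral_add (if₁.const_mul 2) (if₂.const_mul 2)] at step
  simp only [integral_const_mul] at step
  have s₀ := rp_second hK hH hHK hm hL hφ₀
  have s₁ := rp_second hK hH hHK hm hL hφ₁
  rw [hvn] at s₀ s₁
  have m₀ : ∫ x in H, e₀ x ≤ ∫ x in K, e₀ x :=
    setIntegral_mono_set he₀ (h₀.mono fun x hx => hx.2.1) hHK.eventuallyLE
  have m₁ : ∫ x in H, e₁ x ≤ ∫ x in K, e₁ x :=
    setIntegral_mono_set he₁ (h₁.mono fun x hx => hx.2.1) hHK.eventuallyLE
  have n₁ : ∫ x in H, f (x + v) ^ 2 ≤ ∫ x in K, f x ^ 2 :=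
    rp_shift_le (g := fun x => f x ^ 2) hK hp (by fun_prop) fun x => sq_nonneg _
  have n₂ : ∫ x in H, f x ^ 2 ≤ ∫ x in K, f x ^ 2 :=
    setIntegral_mono_set (Continuous.continuousOn (by fun_prop) |>.integrableOn_compact hK)
      (Filter.Eventually.of_forall fun x => sq_nonneg _) hHK.eventuallyLE
  refine step.trans ?_
  set η := (volume : Measure E).real K - (volume : Measure E).real H
  have w1 : 4 * L / s * ((∫ x in H, D₀ x) + (∫ x in H, D₁ x) + 3 * (∫ x in H, e₀ x) +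
      3 * ∫ x in H, e₁ x) ≤ 4 * L / s * (2 * L * s * η + 2 * L * s * η + 3 * (∫ x in K, e₀ x) +
      3 * ∫ x in K, e₁ x) := by
    apply mul_le_mul_of_nonneg_left _ (by positivity)
    linarith
  have w2 : (2 * (∫ x in H, f (x + v) ^ 2) + 2 * ∫ x in H, f x ^ 2) / s ^ 2 ≤
      4 * (∫ x in K, f x ^ 2) / s ^ 2 := by
    gcongr
    linarith
  have w3 : 4 * L / s * (2 * L * s * η + 2 * L * s * η + 3 * (∫ x in K, e₀ x) +
      3 * ∫ x in K, e₁ x) = 16 * L ^ 2 * η + 12 * L / s * ((∫ x in K, e₀ x) + ∫ x in K, e₁ x) := by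
    field_simp
    ring
  linarith

/-- the inner set: a homothetic copy of `K` -/
lemma rp_inner {K : Set E} (hK : IsCompact K) (hKv : Convex ℝ K) {x₀ : E} {r s : ℝ} (hr : 0 < r)
    (hB : Metric.closedBall x₀ r ⊆ K) (hs : 0 < s) (hsr : s ≤ r) :
    ∃ H : Set E, IsCompact H ∧ H ⊆ K ∧ (∀ x ∈ H, ∀ v : E, ‖v‖ ≤ s → x + v ∈ K) ∧
      (volume : Measure E).real K - (volume : Measure E).real H ≤
        d * (s / r) * (volume : Measure E).real K := by
  set τ := s / r with hτ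
  have hτ0 : 0 < τ := div_pos hs hr
  have hτ1 : τ ≤ 1 := (div_le_one hr).2 hsr
  have hin : ∀ x ∈ AffineMap.homothety x₀ (1 - τ) '' K, ∀ v : E, ‖v‖ ≤ s → x + v ∈ K := by
    rintro _ ⟨y, hy, rfl⟩ v hv
    have h1 : x₀ + τ⁻¹ • v ∈ K := by
      apply hB
      rw [Metric.mem_closedBall, dist_eq_norm, add_sub_cancel_left, norm_smul, norm_inv,
        Real.norm_eq_abs, abs_of_pos hτ0, inv_mul_le_iff₀ hτ0, hτ, div_mul_cancel₀ _ hr.ne']
      exact hv
    have h2 := hKv hy h1 (sub_nonneg.2 hτ1) hτ0.le (by ring)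
    convert h2 using 1
    rw [AffineMap.homothety_apply, smul_add, smul_smul, mul_inv_cancel₀ hτ0.ne', one_smul,
      vsub_eq_sub, vadd_eq_add]
    module
  refine ⟨AffineMap.homothety x₀ (1 - τ) '' K, hK.image (AffineMap.homothety_continuous _ _), ?_,
    hin, ?_⟩
  · intro x hx
    simpa using hin x hx 0 (by simpa using hs.le)
  · have hv : (volume : Measure E).real (AffineMap.homothety x₀ (1 - τ) '' K) =
        (1 - τ) ^ d * (volume : Measure E).real K := by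
      rw [Measure.real, Measure.addHaar_image_homothety, ENNReal.toReal_mul,
        ENNReal.toReal_ofReal (abs_nonneg _), finrank_euclideanSpace_fin,
        abs_of_nonneg (pow_nonneg (sub_nonneg.2 hτ1) _)]
      rfl
    have hb : 1 + (d : ℝ) * (-τ) ≤ (1 + -τ) ^ d := one_add_mul_le_pow (by linarith) d
    rw [hv, ← sub_eq_add_neg] at *
    have h0 : 0 ≤ (volume : Measure E).real K := measureReal_nonneg
    nlinarith [mul_le_mul_of_nonneg_right hb h0]

end

theorem rev_poincare {d : ℕ} (K : Set (EuclideanSpace ℝ (Fin d))) (hKc : IsCompact K) (hKv : Convex ℝ K) (hKi : (interior K).Nonempty) (L : ℝ) (hL : 0 ≤ L) :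
    ∃ C : ℝ, 0 < C ∧ ∀ (φ₀ φ₁ : EuclideanSpace ℝ (Fin d) → ℝ) (T₀ T₁ : EuclideanSpace ℝ (Fin d) → EuclideanSpace ℝ (Fin d)) (e₀ e₁ : EuclideanSpace ℝ (Fin d) → ℝ),
      (∀ x z, |φ₀ x - φ₀ z| ≤ L * ‖x - z‖) → (∀ x z, |φ₁ x - φ₁ z| ≤ L * ‖x - z‖) → Measurable T₀ → Measurable T₁ →
      Integrable e₀ (uniformProbOn K) → Integrable e₁ (uniformProbOn K) →
      (∀ᵐ x ∂(uniformProbOn K), ‖T₀ x‖ ≤ L ∧ 0 ≤ e₀ x ∧ ∀ z ∈ K, φ₀ x + ⟪T₀ x, z - x⟫ - e₀ x ≤ φ₀ z) →
      (∀ᵐ x ∂(uniformProbOn K), ‖T₁ x‖ ≤ L ∧ 0 ≤ e₁ x ∧ ∀ z ∈ K, φ₁ x + ⟪T₁ x, z - x⟫ - e₁ x ≤ φ₁ z) →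
      ∀ (c s : ℝ), 0 < s → s ≤ 1 →
        ∫ x, ‖T₀ x - T₁ x‖ ^ 2 ∂(uniformProbOn K) ≤ C * (s + (∫ x, (φ₁ x - φ₀ x - c) ^ 2 ∂(uniformProbOn K)) / s ^ 2 + (∫ x, e₀ x ∂(uniformProbOn K) + ∫ x, e₁ x ∂(uniformProbOn K)) / s) := by
  obtain ⟨x₀, hx₀⟩ := hKi
  obtain ⟨r, hr, hB⟩ : ∃ r : ℝ, 0 < r ∧ Metric.closedBall x₀ r ⊆ K :=
    Metric.nhds_basis_closedBall.mem_iff.1 (mem_interior_iff_mem_nhds.1 hx₀)
  have hV0 : (volume : Measure (EuclideanSpace ℝ (Fin d))) K ≠ 0 :=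
    (Measure.measure_pos_of_nonempty_interior _ ⟨x₀, hx₀⟩).ne'
  have hVt : (volume : Measure (EuclideanSpace ℝ (Fin d))) K ≠ ∞ := hKc.measure_lt_top.ne
  set V : ℝ := (volume : Measure (EuclideanSpace ℝ (Fin d))).real K with hV
  have hVpos : 0 < V := ENNReal.toReal_pos hV0 hVt
  have hc0 : ((volume : Measure (EuclideanSpace ℝ (Fin d))) K)⁻¹ ≠ 0 := ENNReal.inv_ne_zero.2 hVt
  have hct : ((volume : Measure (EuclideanSpace ℝ (Fin d))) K)⁻¹ ≠ ∞ := ENNReal.inv_ne_top.2 hV0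
  set A : ℝ := (16 * d * d + 4 * d + 4) * L ^ 2 / r with hA
  have hA0 : 0 ≤ A := by positivity
  refine ⟨A + 12 * L * d + 4 * d + 1, by positivity, ?_⟩
  intro φ₀ φ₁ T₀ T₁ e₀ e₁ hφ₀ hφ₁ hT₀ hT₁ he₀ he₁ h₀ h₁ c s hs _
  have hI : ∀ g : EuclideanSpace ℝ (Fin d) → ℝ,
      ∫ x, g x ∂(uniformProbOn K) = V⁻¹ * ∫ x in K, g x := by
    intro g
    rw [uniformProbOn, integral_smul_measure, ENNReal.toReal_inv, smul_eq_mul]
    rfl
  simp only [hI]
  rw [uniformProbOn, integrable_smul_measure hc0 hct] at he₀ he₁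
  rw [uniformProbOn, Measure.ae_ennreal_smul_measure_iff hc0] at h₀ h₁
  set F := ∫ x in K, (φ₁ x - φ₀ x - c) ^ 2 with hF
  set G := (∫ x in K, e₀ x) + ∫ x in K, e₁ x with hG
  have hF0 : 0 ≤ F := integral_nonneg fun x => sq_nonneg _
  have hG0 : 0 ≤ G := add_nonneg (integral_nonneg_of_ae (h₀.mono fun x hx => hx.2.1))
    (integral_nonneg_of_ae (h₁.mono fun x hx => hx.2.1))
  have hbd : ∀ᵐ x ∂(volume.restrict K), ‖T₀ x - T₁ x‖ ^ 2 ≤ 4 * L ^ 2 := by
    filter_upwards [h₀, h₁] with x a b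
    have h1 : ‖T₀ x - T₁ x‖ ≤ 2 * L := (norm_sub_le _ _).trans (by linarith [a.1, b.1])
    have h2 := norm_nonneg (T₀ x - T₁ x)
    nlinarith
  have : IsFiniteMeasure ((volume : Measure (EuclideanSpace ℝ (Fin d))).restrict K) :=
    isFiniteMeasure_restrict.2 hVt
  have hTm : Measurable fun x => T₀ x - T₁ x := hT₀.sub hT₁
  have hint : IntegrableOn (fun x => ‖T₀ x - T₁ x‖ ^ 2) K := by
    refine Integrable.of_bound (hTm.norm.pow_const 2).aestronglyMeasurable (4 * L ^ 2) ?_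
    filter_upwards [hbd] with x hx
    rwa [Real.norm_eq_abs, abs_of_nonneg (sq_nonneg _)]
  have hintk : ∀ k : Fin d, IntegrableOn (fun x => ((T₀ x - T₁ x) k) ^ 2) K := by
    intro k
    have hm : Measurable fun x => (T₀ x - T₁ x) k :=
      (EuclideanSpace.proj k : EuclideanSpace ℝ (Fin d) →L[ℝ] ℝ).continuous.measurable.comp hTm
    refine Integrable.of_bound (hm.pow_const 2).aestronglyMeasurable (4 * L ^ 2) ?_
    filter_upwards [hbd] with x hx
    rw [Real.norm_eq_abs, abs_of_nonneg (sq_nonneg _)]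
    refine le_trans ?_ hx
    have := PiLp.norm_apply_le (T₀ x - T₁ x) k
    rw [Real.norm_eq_abs] at this
    rw [← sq_abs]
    exact pow_le_pow_left₀ (abs_nonneg _) this 2
  have hsub : ∀ S : Set (EuclideanSpace ℝ (Fin d)), S ⊆ K → MeasurableSet S →
      ∫ x in S, ‖T₀ x - T₁ x‖ ^ 2 ≤ (volume : Measure (EuclideanSpace ℝ (Fin d))).real S * (4 * L ^ 2) := by
    intro S hS _
    have hfin : (volume : Measure (EuclideanSpace ℝ (Fin d))) S ≠ ∞ :=
      ((measure_mono hS).trans_lt hKc.measure_lt_top).ne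
    have := integral_mono_ae (hint.mono_set hS) (integrableOn_const hfin (C := 4 * L ^ 2))
      (ae_restrict_of_ae_restrict_of_subset hS hbd)
    rwa [setIntegral_const, smul_eq_mul] at this
  have main : ∫ x in K, ‖T₀ x - T₁ x‖ ^ 2 ≤ A * s * V + 4 * d * (F / s ^ 2) + 12 * L * d * (G / s) := by
    have p1 : 0 ≤ 4 * d * (F / s ^ 2) := by positivity
    have p2 : 0 ≤ 12 * L * d * (G / s) := by positivity
    rcases le_or_gt s r with hsr | hsr
    · obtain ⟨H, hH, hHK, hin, hvol⟩ := rp_inner hKc hKv hr hB hs hsr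
      have q1 := setIntegral_sdiff hH.measurableSet hint hHK
      have q2 := hsub (K \ H) Set.sdiff_subset (hKc.measurableSet.diff hH.measurableSet)
      rw [measureReal_sdiff hHK hH.measurableSet hVt] at q2
      have q3 : ∫ x in H, ‖T₀ x - T₁ x‖ ^ 2 = ∑ k : Fin d, ∫ x in H, ((T₀ x - T₁ x) k) ^ 2 := by
        rw [← integral_finsetSum _ fun k _ => (hintk k).mono_set hHK]
        congr 1
        ext x
        exact EuclideanSpace.real_norm_sq_eq _
      have q4 := fun k : Fin d => rp_coord hKc hH hHK hL hs hin hφ₀ hφ₁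
        (fun k => (hintk k).mono_set hHK) he₀ he₁ h₀ h₁ c k
      have q5 := Finset.sum_le_sum fun k (_ : k ∈ (Finset.univ : Finset (Fin d))) => q4 k
      rw [Finset.sum_const, Finset.card_univ, Fintype.card_fin, nsmul_eq_mul, ← q3, ← hF, ← hG,
        ← hV] at q5
      rw [← hV] at hvol q2
      set η := V - (volume : Measure (EuclideanSpace ℝ (Fin d))).real H
      have q6 : η * (4 * L ^ 2) + d * (16 * L ^ 2 * η) ≤ A * s * V := by
        have : η * (4 * L ^ 2) + d * (16 * L ^ 2 * η) = (4 + 16 * d) * L ^ 2 * η := by ring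
        rw [this]
        calc (4 + 16 * d) * L ^ 2 * η ≤ (4 + 16 * d) * L ^ 2 * (d * (s / r) * V) := by gcongr
          _ = ((16 * d * d + 4 * d) * L ^ 2 / r) * s * V := by field_simp; ring
          _ ≤ A * s * V := by
            rw [hA]
            have : (16 * d * d + 4 * d : ℝ) ≤ 16 * d * d + 4 * d + 4 := by linarith
            gcongr
      have q7 : (d : ℝ) * (16 * L ^ 2 * η + 12 * L / s * G + 4 * F / s ^ 2) =
          d * (16 * L ^ 2 * η) + 4 * d * (F / s ^ 2) + 12 * L * d * (G / s) := by ring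
      linarith
    · have q2 := hsub K subset_rfl hKc.measurableSet
      rw [← hV] at q2
      have q3 : 4 * L ^ 2 ≤ A * s := by
        calc 4 * L ^ 2 = 4 * L ^ 2 / r * r := by field_simp
          _ ≤ A * s := by
            rw [hA]; gcongr
            have : (0 : ℝ) ≤ d := Nat.cast_nonneg d
            nlinarith
      nlinarith
  have e1 : s + V⁻¹ * F / s ^ 2 + (V⁻¹ * (∫ x in K, e₀ x) + V⁻¹ * ∫ x in K, e₁ x) / s =
      V⁻¹ * (s * V + F / s ^ 2 + G / s) := by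
    rw [hG]; field_simp
  rw [e1, mul_left_comm]
  apply mul_le_mul_of_nonneg_left _ (by positivity)
  refine main.trans ?_
  have u1 : 0 ≤ s * V := by positivity
  have u2 : 0 ≤ F / s ^ 2 := by positivity
  have u3 : 0 ≤ G / s := by positivity
  have hd : (0 : ℝ) ≤ d := Nat.cast_nonneg d
  have hLd : 0 ≤ L * d := by positivity
  nlinarith [mul_nonneg hA0 u2, mul_nonneg hA0 u3, mul_nonneg hLd u1, mul_nonneg hLd u2,
    mul_nonneg hd u1, mul_nonneg hd u3]

end Crest.Agent.R82
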