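import Crest.Agent.R82.Side
import Crest.Agent.R82.RevPoinc

/-! Discretisation and assembly of the stability estimate (row 82). -/

open MeasureTheory Crest.AnalysisR.OT
open scoped RealInnerProductSpace ENNReal NNReal

namespace Crest.Agent.R82

theorem discretise {X : Type} [MetricSpace X] [SecondCountableTopology X] [Nonempty X]
    [MeasurableSpace X] [BorelSpace X] (π : Measure X) [IsProbabilityMeasure π] {S : Set X}
    (hS : IsCompact S) (hπ : ∀ᵐ x ∂π, x ∈ S) {δ : ℝ} (hδ : 0 < δ) :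
    ∃ (ι : Type) (_ : Fintype ι) (_ : Nonempty ι) (πi : ι → Measure X) (m : ι → ℝ) (u : ι → X),
      (∀ i, 0 < m i) ∧ ∑ i, m i = 1 ∧ ∑ i, πi i = π ∧
      (∀ i, πi i Set.univ = ENNReal.ofReal (m i)) ∧ (∀ i, ∀ᵐ x ∂(πi i), dist x (u i) ≤ δ) := by
  classical
  set u : ℕ → X := TopologicalSpace.denseSeq X with hu
  have hex : ∀ x, ∃ k, dist x (u k) < δ := fun x =>
    (TopologicalSpace.denseRange_denseSeq X).exists_dist_lt x hδ
  set q : X → ℕ := fun x => Nat.find (hex x) with hq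
  have hqm : Measurable q := measurable_find hex fun k =>
    (isOpen_lt (by fun_prop) continuous_const).measurableSet
  obtain ⟨t, ht⟩ := hS.elim_finite_subcover (fun k => Metric.ball (u k) δ)
    (fun k => Metric.isOpen_ball) (fun x _ => by
      obtain ⟨k, hk⟩ := hex x
      exact Set.mem_iUnion.2 ⟨k, hk⟩)
  set A : ℕ → Set X := fun k => q ⁻¹' {k} with hA
  have hAm : ∀ k, MeasurableSet (A k) := fun k => hqm (measurableSet_singleton k)
  set T : Finset ℕ := (Finset.range (t.sup id + 1)).filter fun k => π (A k) ≠ 0 with hT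
  have hae : ∀ᵐ x ∂π, x ∈ ⋃ k ∈ T, A k := by
    have h1 : ∀ᵐ x ∂π, ∀ k, π (A k) = 0 → x ∉ A k := by
      rw [ae_all_iff]
      intro k
      by_cases hk : π (A k) = 0
      · filter_upwards [measure_eq_zero_iff_ae_notMem.1 hk] with x hx _ using hx
      · exact Filter.Eventually.of_forall fun x h => absurd h hk
    filter_upwards [hπ, h1] with x hx hx1
    obtain ⟨k, hk, hxk⟩ := Set.mem_iUnion₂.1 (ht hx)
    have h2 : q x ≤ k := Nat.find_min' (hex x) hxk
    have h3 : k ≤ t.sup id := Finset.le_sup (f := id) hk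
    refine Set.mem_iUnion₂.2 ⟨q x, ?_, rfl⟩
    simp only [hT, Finset.mem_filter, Finset.mem_range]
    exact ⟨by omega, fun h0 => hx1 _ h0 rfl⟩
  have hsum : ∑ i : T, π.restrict (A i) = π := by
    rw [← Measure.sum_fintype, ← Measure.restrict_biUnion_finset _ hAm,
      Measure.restrict_eq_self_of_ae_mem hae]
    intro i _ j _ hij
    exact Set.disjoint_left.2 fun x hi hj => hij (hi.symm.trans hj)
  have hm1 : ∑ i : T, π.real (A i) = 1 := by
    have := congrArg (fun ν : Measure X => (ν Set.univ).toReal) hsum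
    simp only [Measure.coe_finsetSum, Finset.sum_apply, Measure.restrict_apply MeasurableSet.univ,
      Set.univ_inter, measure_univ, ENNReal.toReal_one] at this
    rw [ENNReal.toReal_sum fun i _ => measure_ne_top _ _] at this
    exact this
  have hne : Nonempty T := by
    by_contra h
    rw [not_nonempty_iff] at h
    simp at hm1
  refine ⟨T, inferInstance, hne, fun i => π.restrict (A i), fun i => π.real (A i), fun i => u i,
    fun i => ?_, hm1, hsum, fun i => ?_, fun i => ?_⟩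
  · have := (Finset.mem_filter.1 i.2).2
    exact ENNReal.toReal_pos this (measure_ne_top _ _)
  · rw [Measure.restrict_apply MeasurableSet.univ, Set.univ_inter]
    exact (ENNReal.ofReal_toReal (measure_ne_top _ _)).symm
  · filter_upwards [ae_restrict_mem (hAm i)] with x hx
    have h1 : q x = i := hx
    have h2 := Nat.find_spec (hex x)
    rw [← h1]
    exact h2.le

theorem main_real (d : ℕ) (hd : 1 ≤ d) (K : Set (EuclideanSpace ℝ (Fin d))) (hKc : IsCompact K)
    (hKv : Convex ℝ K) (hKi : (interior K).Nonempty) (Y : Set (EuclideanSpace ℝ (Fin d)))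
    (hYc : IsCompact Y) :
    ∃ C : ℝ, 0 < C ∧ ∀ μ ν : Measure (EuclideanSpace ℝ (Fin d)), IsProbabilityOn Y μ →
      IsProbabilityOn Y ν → ∀ Tμ Tν : EuclideanSpace ℝ (Fin d) → EuclideanSpace ℝ (Fin d),
        IsOptimalMap (uniformProbOn K) μ Tμ → IsOptimalMap (uniformProbOn K) ν Tν →
        ∀ π : Measure (EuclideanSpace ℝ (Fin d) × EuclideanSpace ℝ (Fin d)), IsPairCoupling μ ν π →
          ∀ s : ℝ, 0 < s → s ≤ 1 → ∫ x, ‖Tμ x - Tν x‖ ^ 2 ∂(uniformProbOn K) ≤
            C * (s + (∫ q, ‖q.1 - q.2‖ ^ 2 ∂π) / s ^ 2) := by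
  obtain ⟨R, hR0, hRK⟩ : ∃ R : ℝ, 0 < R ∧ ∀ x ∈ K, ‖x‖ ≤ R := hKc.isBounded.exists_pos_norm_le
  obtain ⟨L, hL0, hLY⟩ : ∃ L : ℝ, 0 < L ∧ ∀ x ∈ Y, ‖x‖ ≤ L := hYc.isBounded.exists_pos_norm_le
  obtain ⟨C₀, hC₀, hRP⟩ := rev_poincare K hKc hKv hKi (L + 1) (by positivity)
  refine ⟨C₀ * (1 + 120000 * R ^ 2), by positivity, ?_⟩
  intro μ ν hμ hν Tμ Tν hTμ hTν π hπ s hs hs1
  set ρ := uniformProbOn K with hρ
  haveI : IsProbabilityMeasure ρ := unif_prob hKc hKi
  have hρR : ∀ᵐ x ∂ρ, ‖x‖ ≤ R := by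
    filter_upwards [unif_ae hKc] with x hx using hRK x hx
  have hPL : PLMeas ρ R := unif_PL hKc hKv hRK
  haveI := hμ.1
  haveI : IsProbabilityMeasure π := by
    constructor
    have := congrArg (fun ν : Measure _ => ν Set.univ) hπ.1
    simp only [Measure.map_apply measurable_fst MeasurableSet.univ, Set.preimage_univ,
      measure_univ] at this
    exact this
  have hμY : ∀ᵐ p ∂μ, p ∈ Y := hμ.2
  have hνY : ∀ᵐ p ∂ν, p ∈ Y := hν.2
  have hπY : ∀ᵐ q ∂π, q ∈ Y ×ˢ Y := by
    have h1 : ∀ᵐ q ∂π, q.1 ∈ Y := ae_of_ae_map measurable_fst.aemeasurable (hπ.1 ▸ hμY)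
    have h2 : ∀ᵐ q ∂π, q.2 ∈ Y := ae_of_ae_map measurable_snd.aemeasurable (hπ.2 ▸ hνY)
    filter_upwards [h1, h2] with q h1 h2 using ⟨h1, h2⟩
  have hμL : ∀ᵐ p ∂μ, ‖p‖ ≤ L + 1 := by
    filter_upwards [hμY] with p hp using by linarith [hLY p hp]
  have hνL : ∀ᵐ p ∂ν, ‖p‖ ≤ L + 1 := by
    filter_upwards [hνY] with p hp using by linarith [hLY p hp]
  set w := ∫ q, ‖q.1 - q.2‖ ^ 2 ∂π with hw
  have hw0 : 0 ≤ w := integral_nonneg fun q => by positivity
  have step : ∀ δ : ℝ, 0 < δ → δ ≤ 1 → ∫ x, ‖Tμ x - Tν x‖ ^ 2 ∂ρ ≤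
      C₀ * (s + 120000 * R ^ 2 * w / s ^ 2) +
        δ * (C₀ * (480000 * R ^ 2 / s ^ 2 + 2 * (2 * R + 1) / s)) := by
    intro δ hδ hδ1
    obtain ⟨ι, _, _, πi, m, u, hm, hm1, hsum, hπm, hu⟩ :=
      discretise π (hYc.prod hYc) hπY hδ
    have hle : ∀ i, πi i ≤ π := fun i => by
      rw [← hsum]
      exact Finset.single_le_sum (f := πi) (fun j _ => Measure.zero_le _) (Finset.mem_univ i)
    have hfin : ∀ i, IsFiniteMeasure (πi i) := fun i => ⟨by rw [hπm]; exact ENNReal.ofReal_lt_top⟩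
    have hu1 : ∀ i, ∀ᵐ q ∂(πi i), ‖q.1 - (u i).1‖ ≤ δ ∧ ‖q.2 - (u i).2‖ ≤ δ := by
      intro i
      filter_upwards [hu i] with q hq
      rw [Prod.dist_eq, max_le_iff, dist_eq_norm, dist_eq_norm] at hq
      exact hq
    have hπb : ∀ i, ∀ᵐ q ∂(πi i), ‖q.1‖ ≤ L ∧ ‖q.2‖ ≤ L := by
      intro i
      filter_upwards [ae_mono (hle i) hπY] with q hq using ⟨hLY _ hq.1, hLY _ hq.2⟩
    have hub : ∀ i, ‖(u i).1‖ ≤ L + 1 ∧ ‖(u i).2‖ ≤ L + 1 := by
      intro i
      haveI : NeZero (πi i) := ⟨fun h => by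
        have := hπm i
        rw [h] at this
        have h2 : ENNReal.ofReal (m i) ≠ 0 := by simpa using hm i
        exact h2 (by simpa using this.symm)⟩
      obtain ⟨q, hq1, hq2⟩ := ((hu1 i).and (hπb i)).exists
      have a1 := norm_sub_norm_le (u i).1 q.1
      have a2 := norm_sub_norm_le (u i).2 q.2
      rw [norm_sub_rev] at a1 a2
      constructor <;> linarith [hq1.1, hq1.2, hq2.1, hq2.2]
    set N : ℝ := (Fintype.card ι : ℝ) with hN
    have hN0 : 0 < N := by rw [hN]; exact_mod_cast Fintype.card_pos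
    set η := δ / N with hη
    have hη0 : 0 < η := by positivity
    have hηN : η * N = δ := by rw [hη]; field_simp
    set y : ι → EuclideanSpace ℝ (Fin d) := fun i => (u i).1 with hy
    set z : ι → EuclideanSpace ℝ (Fin d) := fun i => (u i).2 with hz
    obtain ⟨ψ₀, ψ₁, hψ₀, hψ₁, c, hc⟩ := var_bound hR0 hρR hPL hm hm1 (fun i => η⁻¹ • y i)
      (fun i => η⁻¹ • z i)
    have hclosed : ∀ (v : EuclideanSpace ℝ (Fin d)),
        MeasurableSet {p : EuclideanSpace ℝ (Fin d) | ‖p - v‖ ≤ δ} := fun v =>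
      (isClosed_le (by fun_prop) continuous_const).measurableSet
    obtain ⟨e₀, he₀i, he₀, he₀b⟩ := side_defect hd (unif_ac K) hR0.le hρR hμL hTμ hm hm1
      (μi := fun i => (πi i).map Prod.fst)
      (by rw [← Measure.map_finset_sum measurable_fst.aemeasurable, hsum]; exact hπ.1)
      (fun i => by
        rw [Measure.map_apply measurable_fst MeasurableSet.univ, Set.preimage_univ, hπm])
      (y := y) (δ := δ) (fun i => by
        rw [ae_map_iff measurable_fst.aemeasurable (hclosed _)]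
        filter_upwards [hu1 i] with q hq using hq.1) hη0 hψ₀
    obtain ⟨e₁, he₁i, he₁, he₁b⟩ := side_defect hd (unif_ac K) hR0.le hρR hνL hTν hm hm1
      (μi := fun i => (πi i).map Prod.snd)
      (by rw [← Measure.map_finset_sum measurable_snd.aemeasurable, hsum]; exact hπ.2)
      (fun i => by
        rw [Measure.map_apply measurable_snd MeasurableSet.univ, Set.preimage_univ, hπm])
      (y := z) (δ := δ) (fun i => by
        rw [ae_map_iff measurable_snd.aemeasurable (hclosed _)]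
        filter_upwards [hu1 i] with q hq using hq.2) hη0 hψ₁
    have hlip : ∀ (v : ι → EuclideanSpace ℝ (Fin d)) (χ : ι → ℝ), (∀ i, ‖v i‖ ≤ L + 1) →
        ∀ x x', |η * LS (aff (fun i => η⁻¹ • v i) χ x) - η * LS (aff (fun i => η⁻¹ • v i) χ x')| ≤
          (L + 1) * ‖x - x'‖ := by
      intro v χ hv
      have h1 : ∀ x x', η * LS (aff (fun i => η⁻¹ • v i) χ x) -
          η * LS (aff (fun i => η⁻¹ • v i) χ x') ≤ (L + 1) * ‖x - x'‖ := by
        intro x x'
        have h2 := LS_le_add (aff (fun i => η⁻¹ • v i) χ x') (aff (fun i => η⁻¹ • v i) χ x)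
          (η⁻¹ * ((L + 1) * ‖x - x'‖)) fun i => by
            simp only [aff, inner_smul_right]
            have h3 : ⟪x - x', v i⟫ ≤ (L + 1) * ‖x - x'‖ := by
              refine le_trans (real_inner_le_norm _ _) ?_
              rw [mul_comm]
              exact mul_le_mul_of_nonneg_right (hv i) (norm_nonneg _)
            rw [inner_sub_left] at h3
            have h4 := mul_le_mul_of_nonneg_left h3 (inv_pos.2 hη0).le
            linarith
        have h5 := mul_le_mul_of_nonneg_left h2 hη0.le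
        rw [mul_add, ← mul_assoc, mul_inv_cancel₀ hη0.ne', one_mul] at h5
        linarith
      intro x x'
      rw [abs_le]
      have h6 := h1 x' x
      rw [norm_sub_rev] at h6
      exact ⟨by linarith, h1 x x'⟩
    have hmain := hRP (fun x => η * LS (aff (fun i => η⁻¹ • y i) ψ₀ x))
      (fun x => η * LS (aff (fun i => η⁻¹ • z i) ψ₁ x)) Tμ Tν e₀ e₁
      (hlip y ψ₀ fun i => (hub i).1) (hlip z ψ₁ fun i => (hub i).2) hTμ.1 hTν.1 he₀i he₁i
      (by
        filter_upwards [he₀] with x hx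
        exact ⟨hx.1, hx.2.1, fun z hz => hx.2.2 z (hRK z hz)⟩)
      (by
        filter_upwards [he₁] with x hx
        exact ⟨hx.1, hx.2.1, fun z hz => hx.2.2 z (hRK z hz)⟩) (η * c) s hs hs1
    have hV : ∫ x, (η * LS (aff (fun i => η⁻¹ • z i) ψ₁ x) -
        η * LS (aff (fun i => η⁻¹ • y i) ψ₀ x) - η * c) ^ 2 ∂ρ ≤
        60000 * R ^ 2 * ∑ i, m i * ‖z i - y i‖ ^ 2 := by
      have e1 : ∫ x, (η * LS (aff (fun i => η⁻¹ • z i) ψ₁ x) -
          η * LS (aff (fun i => η⁻¹ • y i) ψ₀ x) - η * c) ^ 2 ∂ρ =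
          η ^ 2 * ∫ x, (LS (aff (fun i => η⁻¹ • z i) ψ₁ x) -
            LS (aff (fun i => η⁻¹ • y i) ψ₀ x) - c) ^ 2 ∂ρ := by
        rw [← integral_const_mul]; congr 1; funext x; ring
      have e2 : η ^ 2 * ∑ i, m i * ‖η⁻¹ • z i - η⁻¹ • y i‖ ^ 2 = ∑ i, m i * ‖z i - y i‖ ^ 2 := by
        rw [Finset.mul_sum]
        refine Finset.sum_congr rfl fun i _ => ?_
        rw [← smul_sub, norm_smul, mul_pow, Real.norm_eq_abs, sq_abs]
        field_simp
      rw [e1, ← e2]
      have := mul_le_mul_of_nonneg_left hc (sq_nonneg η)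
      linarith
    have hW : ∑ i, m i * ‖z i - y i‖ ^ 2 ≤ 2 * w + 8 * δ ^ 2 := by
      have hint : ∀ i, Integrable (fun q : EuclideanSpace ℝ (Fin d) × EuclideanSpace ℝ (Fin d) =>
          ‖q.1 - q.2‖ ^ 2) (πi i) := fun i => integrable_cont_prod (hπb i) (by fun_prop)
      have e1 : w = ∑ i, ∫ q, ‖q.1 - q.2‖ ^ 2 ∂(πi i) := by
        rw [hw, ← hsum, integral_finsetSum_measure fun i _ => hint i]
      have e2 : ∀ i, m i * ‖z i - y i‖ ^ 2 ≤
          2 * ∫ q, ‖q.1 - q.2‖ ^ 2 ∂(πi i) + m i * (8 * δ ^ 2) := by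
        intro i
        have hreal : (πi i).real Set.univ = m i := by
          rw [Measure.real, hπm, ENNReal.toReal_ofReal (hm i).le]
        have hi2 : Integrable (fun q : EuclideanSpace ℝ (Fin d) × EuclideanSpace ℝ (Fin d) =>
          2 * ‖q.1 - q.2‖ ^ 2) (πi i) := (hint i).const_mul 2
        have h1 : ∫ _, ‖z i - y i‖ ^ 2 ∂(πi i) ≤ ∫ q, (2 * ‖q.1 - q.2‖ ^ 2 + 8 * δ ^ 2) ∂(πi i) := by
          refine integral_mono_ae (integrable_const _) (hi2.add (integrable_const _)) ?_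
          filter_upwards [hu1 i] with q hq
          have h2 : ‖z i - y i‖ ≤ ‖q.1 - q.2‖ + 2 * δ := by
            have e : z i - y i = (q.1 - y i) - (q.2 - z i) - (q.1 - q.2) := by abel
            rw [e]
            have a1 := norm_sub_le ((q.1 - y i) - (q.2 - z i)) (q.1 - q.2)
            have a2 := norm_sub_le (q.1 - y i) (q.2 - z i)
            have a3 : ‖q.1 - y i‖ ≤ δ := hq.1
            have a4 : ‖q.2 - z i‖ ≤ δ := hq.2
            linarith
          have h3 := pow_le_pow_left₀ (norm_nonneg _) h2 2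
          nlinarith [sq_nonneg (‖q.1 - q.2‖ - 2 * δ)]
        rw [integral_add hi2 (integrable_const _), integral_const_mul, integral_const,
          integral_const, hreal, smul_eq_mul, smul_eq_mul] at h1
        exact h1
      refine le_trans (Finset.sum_le_sum fun i _ => e2 i) (le_of_eq ?_)
      rw [Finset.sum_add_distrib, ← Finset.mul_sum, ← Finset.sum_mul, hm1, ← e1, one_mul]
    refine le_trans hmain ?_
    have hδ2 : δ ^ 2 ≤ δ := by nlinarith
    have b1 : (∫ x, (η * LS (aff (fun i => η⁻¹ • z i) ψ₁ x) -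
        η * LS (aff (fun i => η⁻¹ • y i) ψ₀ x) - η * c) ^ 2 ∂ρ) / s ^ 2 ≤
        (120000 * R ^ 2 * w + δ * (480000 * R ^ 2)) / s ^ 2 := by
      refine div_le_div_of_nonneg_right (le_trans hV ?_) (by positivity)
      have := mul_le_mul_of_nonneg_left (le_trans hW (by linarith : _ ≤ 2 * w + 8 * δ))
        (by positivity : 0 ≤ 60000 * R ^ 2)
      linarith
    have b2 : (∫ x, e₀ x ∂ρ + ∫ x, e₁ x ∂ρ) / s ≤ δ * (2 * (2 * R + 1)) / s := by
      refine div_le_div_of_nonneg_right ?_ hs.le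
      rw [← hN, hηN] at he₀b he₁b
      linarith
    calc _ ≤ C₀ * (s + (120000 * R ^ 2 * w + δ * (480000 * R ^ 2)) / s ^ 2 +
          δ * (2 * (2 * R + 1)) / s) :=
          mul_le_mul_of_nonneg_left (add_le_add (add_le_add le_rfl b1) b2) hC₀.le
      _ = _ := by ring
  have hlim : ∫ x, ‖Tμ x - Tν x‖ ^ 2 ∂ρ ≤ C₀ * (s + 120000 * R ^ 2 * w / s ^ 2) := by
    refine le_of_forall_pos_le_add fun ε hε => ?_
    set B := C₀ * (480000 * R ^ 2 / s ^ 2 + 2 * (2 * R + 1) / s) with hB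
    have hB0 : 0 < B := by positivity
    have h1 := step (min 1 (ε / B)) (by positivity) (min_le_left _ _)
    have h2 : min 1 (ε / B) * B ≤ ε := by
      calc _ ≤ ε / B * B := mul_le_mul_of_nonneg_right (min_le_right _ _) hB0.le
        _ = ε := by field_simp
    linarith
  refine le_trans hlim ?_
  have h3 : 0 ≤ w / s ^ 2 := by positivity
  have h4 : s + 120000 * R ^ 2 * w / s ^ 2 ≤ (1 + 120000 * R ^ 2) * (s + w / s ^ 2) := by
    have : 0 ≤ 120000 * R ^ 2 * s := by positivity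
    have e : 120000 * R ^ 2 * w / s ^ 2 = 120000 * R ^ 2 * (w / s ^ 2) := by ring
    rw [e]; nlinarith
  rw [mul_assoc C₀]
  exact mul_le_mul_of_nonneg_left h4 hC₀.le

end Crest.Agent.R82
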