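import Crest.Agent.R82.LS

/-! Soft semi-discrete potentials: existence, gradient inequality, stability (row 82). -/

open MeasureTheory
open scoped RealInnerProductSpace

namespace Crest.Agent.R82

variable {E : Type} [NormedAddCommGroup E] [InnerProductSpace ℝ E] [FiniteDimensional ℝ E]
  [MeasurableSpace E] [BorelSpace E] {ι : Type} [Fintype ι] [Nonempty ι]

/-- the affine functions indexed by the atoms -/
noncomputable def aff (y : ι → E) (ψ : ι → ℝ) (x : E) : ι → ℝ := fun i => ⟪x, y i⟫ - ψ i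

theorem continuous_aff (y : ι → E) (ψ : ι → ℝ) (i : ι) : Continuous fun x => aff y ψ x i := by
  unfold aff
  fun_prop

theorem cont_LS (y : ι → E) (ψ : ι → ℝ) : Continuous fun x => LS (aff y ψ x) :=
  continuous_LS (continuous_aff y ψ)

theorem cont_sm (y : ι → E) (ψ : ι → ℝ) (i : ι) : Continuous fun x => sm (aff y ψ x) i :=
  continuous_sm (continuous_aff y ψ) i

theorem integrable_cont {ρ : Measure E} [IsFiniteMeasure ρ] {R : ℝ} (hR : ∀ᵐ x ∂ρ, ‖x‖ ≤ R)
    {f : E → ℝ} (hf : Continuous f) : Integrable f ρ := by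
  obtain ⟨M, hM⟩ := (isCompact_closedBall (0 : E) R).exists_bound_of_continuousOn hf.continuousOn
  refine Integrable.of_bound hf.aestronglyMeasurable M ?_
  filter_upwards [hR] with x hx
  exact hM x (by simpa using hx)

/-- first-order optimality condition -/
def Opt (ρ : Measure E) (σ : E → ℝ) (m : ι → ℝ) (y : ι → E) (ψ : ι → ℝ) : Prop :=
  ∀ i, ∫ x, sm (aff y ψ x) i * σ x ∂ρ = m i

/-- the dual functional -/
noncomputable def Fd (ρ : Measure E) (σ : E → ℝ) (m : ι → ℝ) (y : ι → E) (ψ : ι → ℝ) : ℝ :=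
  ∫ x, LS (aff y ψ x) * σ x ∂ρ + ∑ i, m i * ψ i

/-- pairing of the soft barycentres with a family of vectors -/
noncomputable def bary (ρ : Measure E) (σ : E → ℝ) (y : ι → E) (ψ : ι → ℝ) (v : ι → E) : ℝ :=
  ∑ i, ∫ x, sm (aff y ψ x) i * ⟪x, v i⟫ * σ x ∂ρ

section
variable {ρ : Measure E} [IsProbabilityMeasure ρ] {R : ℝ} (hR : ∀ᵐ x ∂ρ, ‖x‖ ≤ R)
  {σ : E → ℝ} (hσc : Continuous σ) (hσ0 : ∀ᵐ x ∂ρ, 0 ≤ σ x) {m : ι → ℝ}
include hR hσc hσ0

theorem Fd_grad {y : ι → E} {ψ : ι → ℝ} (h : Opt ρ σ m y ψ) (y' : ι → E) (ψ' : ι → ℝ) :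
    Fd ρ σ m y ψ + bary ρ σ y ψ (fun i => y' i - y i) ≤ Fd ρ σ m y' ψ' := by
  have hi1 : ∀ i, Integrable (fun x => sm (aff y ψ x) i * ⟪x, y' i - y i⟫ * σ x) ρ := fun i =>
    integrable_cont hR (((cont_sm y ψ i).mul (by fun_prop)).mul hσc)
  have hi2 : ∀ i, Integrable (fun x => sm (aff y ψ x) i * σ x * (ψ' i - ψ i)) ρ := fun i =>
    integrable_cont hR (((cont_sm y ψ i).mul hσc).mul continuous_const)
  have hi3 : Integrable (fun x => LS (aff y ψ x) * σ x) ρ :=
    integrable_cont hR ((cont_LS y ψ).mul hσc)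
  have hi4 : Integrable (fun x => LS (aff y' ψ' x) * σ x) ρ :=
    integrable_cont hR ((cont_LS y' ψ').mul hσc)
  have key : ∫ x, (LS (aff y ψ x) * σ x + (∑ i, sm (aff y ψ x) i * ⟪x, y' i - y i⟫ * σ x -
      ∑ i, sm (aff y ψ x) i * σ x * (ψ' i - ψ i))) ∂ρ ≤ ∫ x, LS (aff y' ψ' x) * σ x ∂ρ := by
    refine integral_mono_ae (hi3.add ((integrable_finsetSum _ fun i _ => hi1 i).sub
      (integrable_finsetSum _ fun i _ => hi2 i))) hi4 ?_
    filter_upwards [hσ0] with x hx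
    have h1 := mul_le_mul_of_nonneg_right (LS_grad (aff y ψ x) (aff y' ψ' x)) hx
    refine le_trans (le_of_eq ?_) h1
    rw [add_mul, Finset.sum_mul, ← Finset.sum_sub_distrib]
    congr 1
    refine Finset.sum_congr rfl fun i _ => ?_
    simp only [aff, inner_sub_right]
    ring
  have hi6 : Integrable (fun x => ∑ i, sm (aff y ψ x) i * ⟪x, y' i - y i⟫ * σ x -
      ∑ i, sm (aff y ψ x) i * σ x * (ψ' i - ψ i)) ρ :=
    (integrable_finsetSum _ fun i _ => hi1 i).sub (integrable_finsetSum _ fun i _ => hi2 i)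
  rw [integral_add hi3 hi6,
    integral_sub (integrable_finsetSum _ fun i _ => hi1 i)
      (integrable_finsetSum _ fun i _ => hi2 i),
    integral_finsetSum _ fun i _ => hi1 i, integral_finsetSum _ fun i _ => hi2 i] at key
  have h2 : ∑ i, ∫ x, sm (aff y ψ x) i * σ x * (ψ' i - ψ i) ∂ρ =
      ∑ i, m i * ψ' i - ∑ i, m i * ψ i := by
    rw [← Finset.sum_sub_distrib]
    refine Finset.sum_congr rfl fun i _ => ?_
    rw [integral_mul_const, h i]; ring
  unfold Fd bary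
  linarith

theorem Fd_min {y : ι → E} {ψ : ι → ℝ} (h : Opt ρ σ m y ψ) (ψ' : ι → ℝ) :
    Fd ρ σ m y ψ ≤ Fd ρ σ m y ψ' := by
  have := Fd_grad hR hσc hσ0 h y ψ'
  simpa [bary] using this

theorem Fd_le_add (hσ1 : ∫ x, σ x ∂ρ = 1) (y : ι → E) (ψ ψ' : ι → ℝ) (c : ℝ)
    (h : ∀ i, ψ i - ψ' i ≤ c) :
    ∫ x, LS (aff y ψ' x) * σ x ∂ρ ≤ ∫ x, LS (aff y ψ x) * σ x ∂ρ + c := by
  have hi3 : Integrable (fun x => LS (aff y ψ x) * σ x) ρ :=
    integrable_cont hR ((cont_LS y ψ).mul hσc)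
  have hi4 : Integrable (fun x => LS (aff y ψ' x) * σ x) ρ :=
    integrable_cont hR ((cont_LS y ψ').mul hσc)
  have hi5 : Integrable (fun x => c * σ x) ρ := integrable_cont hR (continuous_const.mul hσc)
  have : ∫ x, LS (aff y ψ' x) * σ x ∂ρ ≤ ∫ x, (LS (aff y ψ x) * σ x + c * σ x) ∂ρ := by
    refine integral_mono_ae hi4 (hi3.add hi5) ?_
    filter_upwards [hσ0] with x hx
    have h1 := LS_le_add (aff y ψ x) (aff y ψ' x) c fun i => by
      simp only [aff]; linarith [h i]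
    have := mul_le_mul_of_nonneg_right h1 hx
    linarith
  rw [integral_add hi3 hi5, integral_const_mul, hσ1, mul_one] at this
  exact this

theorem exists_opt (hσ1 : ∫ x, σ x ∂ρ = 1) (hm : ∀ i, 0 < m i) (hm1 : ∑ i, m i = 1)
    (y : ι → E) : ∃ ψ, Opt ρ σ m y ψ := by
  classical
  set F : (ι → ℝ) → ℝ := Fd ρ σ m y with hF
  -- continuity
  have hFc : Continuous F := by
    refine (LipschitzWith.of_le_add_mul 2 fun ψ' ψ => ?_).continuous
    have h1 := Fd_le_add hR hσc hσ0 hσ1 y ψ ψ' (dist ψ' ψ) fun i => by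
      have := dist_le_pi_dist ψ' ψ i
      rw [Real.dist_eq, abs_le] at this
      linarith [this.1]
    have h2 : ∑ i, m i * ψ' i ≤ ∑ i, m i * (ψ i + dist ψ' ψ) :=
      Finset.sum_le_sum fun i _ => mul_le_mul_of_nonneg_left (by
        have := dist_le_pi_dist ψ' ψ i
        rw [Real.dist_eq, abs_le] at this
        linarith [this.2]) (hm i).le
    simp_rw [mul_add] at h2
    rw [Finset.sum_add_distrib, ← Finset.sum_mul, hm1] at h2
    simp only [hF, Fd]
    push_cast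
    linarith
  -- invariance under constants
  have hFinv : ∀ (ψ : ι → ℝ) (c : ℝ), F (fun i => ψ i - c) = F ψ := by
    intro ψ c
    have h1 := Fd_le_add hR hσc hσ0 hσ1 y ψ (fun i => ψ i - c) c fun i => by simp
    have h2 := Fd_le_add hR hσc hσ0 hσ1 y (fun i => ψ i - c) ψ (-c) fun i => by simp
    have h3 : ∑ i, m i * (ψ i - c) = ∑ i, m i * ψ i - c := by
      simp_rw [mul_sub]
      rw [Finset.sum_sub_distrib, ← Finset.sum_mul, hm1, one_mul]
    simp only [hF, Fd]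
    linarith
  -- lower bound
  obtain ⟨B, hB⟩ : ∃ B : ℝ, ∀ (ψ : ι → ℝ) (i : ι), ψ i = 0 →
      -B ≤ ∫ x, LS (aff y ψ x) * σ x ∂ρ := by
    refine ⟨∑ j, |∫ x, ⟪x, y j⟫ * σ x ∂ρ|, fun ψ i hi => ?_⟩
    have h1 : ∫ x, ⟪x, y i⟫ * σ x ∂ρ ≤ ∫ x, LS (aff y ψ x) * σ x ∂ρ := by
      refine integral_mono_ae (integrable_cont hR (by fun_prop))
        (integrable_cont hR ((cont_LS y ψ).mul hσc)) ?_
      filter_upwards [hσ0] with x hx
      have := le_LS (aff y ψ x) i
      simp only [aff, hi, sub_zero] at this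
      exact mul_le_mul_of_nonneg_right this hx
    have h2 : |∫ x, ⟪x, y i⟫ * σ x ∂ρ| ≤ ∑ j, |∫ x, ⟪x, y j⟫ * σ x ∂ρ| :=
      Finset.single_le_sum (f := fun j => |∫ x, ⟪x, y j⟫ * σ x ∂ρ|) (fun j _ => abs_nonneg _)
        (Finset.mem_univ i)
    have h3 := neg_abs_le (∫ x, ⟪x, y i⟫ * σ x ∂ρ)
    linarith
  obtain ⟨i₀, hi₀⟩ := Finite.exists_min m
  set D : ℝ := (|F 0| + |B|) / m i₀ with hD
  have hD0 : 0 ≤ D := div_nonneg (by positivity) (hm i₀).le
  have hcomp : IsCompact (Set.Icc (0 : ι → ℝ) (fun _ => D)) := isCompact_Icc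
  have h0mem : (0 : ι → ℝ) ∈ Set.Icc (0 : ι → ℝ) (fun _ => D) := ⟨le_rfl, fun _ => hD0⟩
  obtain ⟨ψ₀, -, hψ₀⟩ := hcomp.exists_isMinOn ⟨0, h0mem⟩ hFc.continuousOn
  have hglob : ∀ ψ, F ψ₀ ≤ F ψ := by
    intro ψ
    obtain ⟨j, hj⟩ := Finite.exists_min ψ
    rw [← hFinv ψ (ψ j)]
    set χ : ι → ℝ := fun i => ψ i - ψ j with hχ
    have hχ0 : ∀ i, 0 ≤ χ i := fun i => by simp only [hχ]; linarith [hj i]
    by_cases hc : ∀ i, χ i ≤ D
    · exact hψ₀ ⟨hχ0, hc⟩
    · push Not at hc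
      obtain ⟨k, hk⟩ := hc
      have h1 : F ψ₀ ≤ F 0 := hψ₀ h0mem
      have h2 := hB χ j (by simp [hχ])
      have h3 : m k * χ k ≤ ∑ i, m i * χ i :=
        Finset.single_le_sum (f := fun i => m i * χ i) (fun i _ => mul_nonneg (hm i).le (hχ0 i))
          (Finset.mem_univ k)
      have h4 : m i₀ * D ≤ m k * χ k := mul_le_mul (hi₀ k) hk.le hD0 (hm k).le
      have h5 : m i₀ * D = |F 0| + |B| := by
        rw [hD]; field_simp [(hm i₀).ne']
      have h6 := le_abs_self (F 0)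
      have h7 := le_abs_self B
      have h8 : F χ = ∫ x, LS (aff y χ x) * σ x ∂ρ + ∑ i, m i * χ i := rfl
      linarith
  refine ⟨ψ₀, fun j => ?_⟩
  set P := ∫ x, sm (aff y ψ₀ x) j * σ x ∂ρ with hP
  have hineq : ∀ s : ℝ, 0 ≤ (Real.exp (-s) - 1) * P + m j * s := by
    intro s
    set χ : ι → ℝ := fun i => ψ₀ i + if i = j then s else 0 with hχ
    have h1 := hglob χ
    have h2 : ∑ i, m i * χ i = ∑ i, m i * ψ₀ i + m j * s := by
      simp only [hχ, mul_add, Finset.sum_add_distrib, mul_ite, mul_zero, Finset.sum_ite_eq',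
        Finset.mem_univ, if_true]
    have hi3 : Integrable (fun x => LS (aff y ψ₀ x) * σ x) ρ :=
      integrable_cont hR ((cont_LS y ψ₀).mul hσc)
    have hi5 : Integrable (fun x => (Real.exp (-s) - 1) * (sm (aff y ψ₀ x) j * σ x)) ρ :=
      integrable_cont hR (continuous_const.mul ((cont_sm y ψ₀ j).mul hσc))
    have h3 : ∫ x, LS (aff y χ x) * σ x ∂ρ ≤ ∫ x, (LS (aff y ψ₀ x) * σ x +
        (Real.exp (-s) - 1) * (sm (aff y ψ₀ x) j * σ x)) ∂ρ := by
      refine integral_mono_ae (integrable_cont hR ((cont_LS y χ).mul hσc)) (hi3.add hi5) ?_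
      filter_upwards [hσ0] with x hx
      have h4 := LS_upper (aff y ψ₀ x) (aff y χ x)
      have h5 : ∑ i, sm (aff y ψ₀ x) i * (Real.exp (aff y χ x i - aff y ψ₀ x i) - 1) =
          sm (aff y ψ₀ x) j * (Real.exp (-s) - 1) := by
        rw [Finset.sum_eq_single j]
        · simp [aff, hχ]
        · intro i _ hij
          simp [aff, hχ, hij]
        · simp
      rw [h5] at h4
      have := mul_le_mul_of_nonneg_right h4 hx
      linarith
    rw [integral_add hi3 hi5, integral_const_mul] at h3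
    simp only [hF, Fd] at h1
    linarith
  have hder : HasDerivAt (fun s : ℝ => (Real.exp (-s) - 1) * P + m j * s) (-P + m j) 0 := by
    have h1 : HasDerivAt (fun s : ℝ => Real.exp (-s)) (-1) 0 := by
      simpa using (hasDerivAt_neg (0 : ℝ)).exp
    have := ((h1.sub_const 1).mul_const P).add ((hasDerivAt_id (0 : ℝ)).const_mul (m j))
    have e : -P + m j = -1 * P + m j * 1 := by ring
    rw [e]
    exact this
  have hmin : IsLocalMin (fun s : ℝ => (Real.exp (-s) - 1) * P + m j * s) 0 :=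
    Filter.Eventually.of_forall fun s => by simpa using hineq s
  have := hmin.hasDerivAt_eq_zero hder
  linarith

theorem opt_stab (hm : ∀ i, 0 < m i) {y : ι → E} {ψ ψ' : ι → ℝ} (h : Opt ρ (fun _ => 1) m y ψ)
    (h' : Opt ρ σ m y ψ') {κ p : ℝ} (hκ : ∀ᵐ x ∂ρ, σ x ≤ 1 + κ) (hp0 : 0 < p)
    (hp : ∀ᵐ x ∂ρ, ∀ j, p ≤ sm (aff y ψ x) j) :
    ∃ c : ℝ, ∀ i, c ≤ ψ' i - ψ i ∧ ψ' i - ψ i ≤ c + κ / p := by
  set c : ι → ℝ := fun i => ψ' i - ψ i with hc
  obtain ⟨i, hi⟩ := Finite.exists_max c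
  obtain ⟨j, hj⟩ := Finite.exists_min c
  refine ⟨c j, fun k => ⟨hj k, ?_⟩⟩
  have hs : 0 ≤ c i - c j := by linarith [hi j]
  have h1 : ∫ x, sm (aff y ψ' x) i * σ x * (1 + p * (c i - c j)) ∂ρ ≤
      ∫ x, sm (aff y ψ x) i * 1 * (1 + κ) ∂ρ := by
    refine integral_mono_ae (integrable_cont hR (((cont_sm y ψ' i).mul hσc).mul continuous_const))
      (integrable_cont hR (((cont_sm y ψ i).mul continuous_const).mul continuous_const)) ?_
    filter_upwards [hσ0, hκ, hp] with x hx hx1 hx2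
    have h2 := sm_shift (aff y ψ x) c i j hi p (hx2 j)
    have h3 : (fun k => aff y ψ x k - c k) = aff y ψ' x := by
      funext k; simp only [aff, hc]; ring
    rw [h3] at h2
    have h4 := sm_pos (aff y ψ x) i
    calc sm (aff y ψ' x) i * σ x * (1 + p * (c i - c j))
        = sm (aff y ψ' x) i * (1 + p * (c i - c j)) * σ x := by ring
      _ ≤ sm (aff y ψ x) i * σ x := mul_le_mul_of_nonneg_right h2 hx
      _ ≤ sm (aff y ψ x) i * (1 + κ) := mul_le_mul_of_nonneg_left hx1 h4.le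
      _ = _ := by ring
  rw [integral_mul_const, integral_mul_const, h i, h' i] at h1
  have h5 : p * (c i - c j) ≤ κ := by
    have := le_of_mul_le_mul_left h1 (hm i)
    linarith
  have h6 : c i - c j ≤ κ / p := by
    rw [le_div_iff₀ hp0]; linarith
  have := hi k
  change c k ≤ c j + κ / p
  linarith

end

end Crest.Agent.R82
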