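import Crest.Prelude.Def_QuadraticTransport

/-!
Sharpness of the exponent one third for the stability of optimal transport maps: three-atom
targets on the cube.
-/

set_option autoImplicit false

open MeasureTheory Set Crest.AnalysisR.OT
open scoped ENNReal NNReal RealInnerProductSpace

namespace Crest.Agent.R82

section General

variable {E : Type*} [NormedAddCommGroup E] [InnerProductSpace ℝ E] [MeasurableSpace E]
  [BorelSpace E] [SecondCountableTopology E]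

omit [InnerProductSpace ℝ E] [MeasurableSpace E] [BorelSpace E] [SecondCountableTopology E] in
lemma sh_enorm_sq (x : E) : ‖x‖ₑ ^ 2 = ENNReal.ofReal (‖x‖ ^ 2) := by
  rw [← ofReal_norm, ENNReal.ofReal_pow (norm_nonneg _)]

/-- The cost of a competitor equals the cost of the maximising selection plus the duality gap. -/
lemma sh_cost_eq {ρ : Measure E} [IsFiniteMeasure ρ] {Y : Finset E} {T S : E → E}
    (hT : Measurable T) (hS : Measurable S) (hTY : ∀ x, T x ∈ Y)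
    (hmax : ∀ x, ∀ y ∈ Y, ⟪x, y⟫ ≤ ⟪x, T x⟫) (hST : ρ.map S = ρ.map T) :
    (∀ᵐ x ∂ρ, S x ∈ Y) ∧ ∫⁻ x, ‖x - S x‖ₑ ^ 2 ∂ρ = ∫⁻ x, ‖x - T x‖ₑ ^ 2 ∂ρ +
      ∫⁻ x, ENNReal.ofReal (2 * (⟪x, T x⟫ - ⟪x, S x⟫)) ∂ρ := by
  have hY : MeasurableSet (Y : Set E) := Y.measurableSet
  have hSY : ∀ᵐ x ∂ρ, S x ∈ Y := by
    have h1 : ∀ᵐ y ∂(ρ.map T), y ∈ (Y : Set E) :=
      (ae_map_iff hT.aemeasurable hY).2 (Filter.Eventually.of_forall hTY)
    rw [← hST] at h1
    exact (ae_map_iff hS.aemeasurable hY).1 h1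
  refine ⟨hSY, ?_⟩
  have hm : Measurable fun y : E => ‖y‖ₑ ^ 2 := by fun_prop
  have hn : ∫⁻ x, ‖T x‖ₑ ^ 2 ∂ρ = ∫⁻ x, ‖S x‖ₑ ^ 2 ∂ρ := by
    rw [← lintegral_map hm hT, ← lintegral_map hm hS, hST]
  have hfin : ∫⁻ x, ‖T x‖ₑ ^ 2 ∂ρ ≠ ∞ := by
    have : ∫⁻ x, ‖T x‖ₑ ^ 2 ∂ρ ≤ ∫⁻ _, (∑ y ∈ Y, ‖y‖ₑ ^ 2) ∂ρ :=
      lintegral_mono fun x =>
        Finset.single_le_sum (f := fun y : E => ‖y‖ₑ ^ 2) (fun _ _ => zero_le) (hTY x)
    refine ne_top_of_le_ne_top ?_ this
    rw [lintegral_const]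
    refine ENNReal.mul_ne_top ?_ (measure_ne_top _ _)
    exact (ENNReal.sum_lt_top.2 fun y _ => by
      rw [sh_enorm_sq]; exact ENNReal.ofReal_lt_top).ne
  have key : ∫⁻ x, (‖x - S x‖ₑ ^ 2 + ‖T x‖ₑ ^ 2) ∂ρ =
      ∫⁻ x, (‖x - T x‖ₑ ^ 2 + ENNReal.ofReal (2 * (⟪x, T x⟫ - ⟪x, S x⟫)) + ‖S x‖ₑ ^ 2) ∂ρ := by
    refine lintegral_congr_ae ?_
    filter_upwards [hSY] with x hx
    have h0 : 0 ≤ 2 * (⟪x, T x⟫ - ⟪x, S x⟫) := by linarith [hmax x _ hx]
    simp only [sh_enorm_sq]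
    rw [← ENNReal.ofReal_add (by positivity) (by positivity),
      ← ENNReal.ofReal_add (by positivity) h0,
      ← ENNReal.ofReal_add (by positivity) (by positivity)]
    congr 1
    rw [norm_sub_sq_real, norm_sub_sq_real]
    ring
  have hmT : Measurable fun x => ‖T x‖ₑ ^ 2 := hm.comp hT
  have hmS : Measurable fun x => ‖S x‖ₑ ^ 2 := hm.comp hS
  rw [lintegral_add_right _ hmT, lintegral_add_right _ hmS,
    lintegral_add_left (by fun_prop), ← hn] at key
  exact (ENNReal.add_left_inj hfin).1 key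

lemma sh_optimal {ρ : Measure E} [IsFiniteMeasure ρ] {Y : Finset E} {T : E → E}
    (hT : Measurable T) (hTY : ∀ x, T x ∈ Y) (hmax : ∀ x, ∀ y ∈ Y, ⟪x, y⟫ ≤ ⟪x, T x⟫) :
    IsOptimalMap ρ (ρ.map T) T :=
  ⟨hT, rfl, fun S hS hST => by
    rw [(sh_cost_eq hT hS hTY hmax hST).2]; exact le_self_add⟩

lemma sh_gap_zero {ρ : Measure E} [IsFiniteMeasure ρ] {Y : Finset E} {T S : E → E}
    (hT : Measurable T) (hTY : ∀ x, T x ∈ Y) (hmax : ∀ x, ∀ y ∈ Y, ⟪x, y⟫ ≤ ⟪x, T x⟫)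
    (hfin : ∫⁻ x, ‖x - T x‖ₑ ^ 2 ∂ρ ≠ ∞) (hS : IsOptimalMap ρ (ρ.map T) S) :
    ∀ᵐ x ∂ρ, S x ∈ Y ∧ ⟪x, T x⟫ ≤ ⟪x, S x⟫ := by
  obtain ⟨hSm, hST, hopt⟩ := hS
  obtain ⟨h1, h2⟩ := sh_cost_eq hT hSm hTY hmax hST
  have h3 := hopt T hT rfl
  rw [h2] at h3
  have h4 : ∫⁻ x, ENNReal.ofReal (2 * (⟪x, T x⟫ - ⟪x, S x⟫)) ∂ρ = 0 := by
    have : ∫⁻ x, ‖x - T x‖ₑ ^ 2 ∂ρ + ∫⁻ x, ENNReal.ofReal (2 * (⟪x, T x⟫ - ⟪x, S x⟫)) ∂ρ ≤
        ∫⁻ x, ‖x - T x‖ₑ ^ 2 ∂ρ + 0 := by simpa using h3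
    exact le_zero_iff.1 ((ENNReal.add_le_add_iff_left hfin).1 this)
  rw [lintegral_eq_zero_iff (by fun_prop)] at h4
  filter_upwards [h1, h4] with x hx hx'
  exact ⟨hx, by simpa using hx'⟩

end General

section Cube

variable {d : ℕ}

/-- The cube. -/
def sh_Q (d : ℕ) : Set (EuclideanSpace ℝ (Fin d)) := {x | ∀ i, |x i| ≤ 1}

lemma sh_vol_box (s : Fin d → Set ℝ) (hs : ∀ i, MeasurableSet (s i)) :
    volume {x : EuclideanSpace ℝ (Fin d) | ∀ i, x i ∈ s i} = ∏ i, volume (s i) := by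
  rw [← volume_pi_pi, ← (PiLp.volume_preserving_ofLp (Fin d)).measure_preimage
    (MeasurableSet.univ_pi hs).nullMeasurableSet]
  congr 1
  ext x
  simp

lemma sh_Q_closed : IsClosed (sh_Q d) := by
  have : sh_Q d = ⋂ i, {x : EuclideanSpace ℝ (Fin d) | |x i| ≤ 1} := by ext x; simp [sh_Q]
  rw [this]
  exact isClosed_iInter fun i => isClosed_le (by fun_prop) continuous_const

lemma sh_Q_meas : MeasurableSet (sh_Q d) := sh_Q_closed.measurableSet

lemma sh_vol_two {i0 i1 : Fin d} (h01 : i0 ≠ i1) {s0 s1 : Set ℝ} (h0 : MeasurableSet s0)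
    (h1 : MeasurableSet s1) (h0' : s0 ⊆ Icc (-1) 1) (h1' : s1 ⊆ Icc (-1) 1) :
    volume ({x : EuclideanSpace ℝ (Fin d) | x i0 ∈ s0 ∧ x i1 ∈ s1} ∩ sh_Q d) =
      volume s0 * volume s1 * 2 ^ (d - 2) := by
  classical
  let s : Fin d → Set ℝ := fun i => if i = i0 then s0 else if i = i1 then s1 else Icc (-1) 1
  have hs : ∀ i, MeasurableSet (s i) := by
    intro i; simp only [s]; split_ifs
    exacts [h0, h1, measurableSet_Icc]
  have : {x : EuclideanSpace ℝ (Fin d) | x i0 ∈ s0 ∧ x i1 ∈ s1} ∩ sh_Q d =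
      {x | ∀ i, x i ∈ s i} := by
    ext x
    constructor
    · rintro ⟨⟨a, b⟩, c⟩ i
      simp only [s]; split_ifs with e0 e1
      · rwa [e0]
      · rwa [e1]
      · exact abs_le.1 (c i)
    · intro hx
      refine ⟨⟨by simpa [s] using hx i0, by simpa [s, h01.symm] using hx i1⟩, fun i => ?_⟩
      have := hx i
      simp only [s] at this
      split_ifs at this
      exacts [abs_le.2 (h0' this), abs_le.2 (h1' this), abs_le.2 this]
  rw [this, sh_vol_box s hs, ← Finset.mul_prod_erase _ _ (Finset.mem_univ i0),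
    ← Finset.mul_prod_erase _ _ (Finset.mem_erase.2 ⟨h01.symm, Finset.mem_univ i1⟩), mul_assoc]
  congr 1
  · simp [s]
  congr 1
  · simp [s, h01.symm]
  rw [Finset.prod_congr rfl (g := fun _ => (2 : ℝ≥0∞))]
  · rw [Finset.prod_const, Finset.card_erase_of_mem (Finset.mem_erase.2 ⟨h01.symm, Finset.mem_univ i1⟩),
      Finset.card_erase_of_mem (Finset.mem_univ i0), Finset.card_univ, Fintype.card_fin]
    rfl
  · intro i hi
    simp only [Finset.mem_erase] at hi
    simp only [s, hi.1, hi.2.1, if_false, Real.volume_Icc]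
    norm_num

lemma sh_vol_Q {i0 i1 : Fin d} (h01 : i0 ≠ i1) : volume (sh_Q d) = 4 * 2 ^ (d - 2) := by
  have := sh_vol_two h01 measurableSet_Icc measurableSet_Icc (subset_refl (Icc (-1 : ℝ) 1))
    (subset_refl _)
  rw [inter_eq_self_of_subset_right] at this
  · rw [this, Real.volume_Icc]; norm_num
  · intro x hx
    exact ⟨abs_le.1 (hx i0), abs_le.1 (hx i1)⟩

lemma sh_rho_apply {U : Set (EuclideanSpace ℝ (Fin d))} (hU : MeasurableSet U) :
    uniformProbOn (sh_Q d) U = (volume (sh_Q d))⁻¹ * volume (U ∩ sh_Q d) := by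
  simp [uniformProbOn, Measure.restrict_apply hU]

lemma sh_prob {i0 i1 : Fin d} (h01 : i0 ≠ i1) : IsProbabilityMeasure (uniformProbOn (sh_Q d)) :=
  ⟨by
    rw [sh_rho_apply MeasurableSet.univ, univ_inter]
    refine ENNReal.inv_mul_cancel ?_ ?_ <;> rw [sh_vol_Q h01]
    · positivity
    · finiteness⟩

lemma sh_rho_two {i0 i1 : Fin d} (h01 : i0 ≠ i1) {s0 s1 : Set ℝ} (h0 : MeasurableSet s0)
    (h1 : MeasurableSet s1) (h0' : s0 ⊆ Icc (-1) 1) (h1' : s1 ⊆ Icc (-1) 1) :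
    uniformProbOn (sh_Q d) {x : EuclideanSpace ℝ (Fin d) | x i0 ∈ s0 ∧ x i1 ∈ s1} =
      volume s0 * volume s1 / 4 := by
  rw [sh_rho_apply, sh_vol_two h01 h0 h1 h0' h1', sh_vol_Q h01]
  · rw [ENNReal.mul_inv (Or.inl (by norm_num)) (Or.inl (by norm_num)), div_eq_mul_inv]
    have : ((2 : ℝ≥0∞) ^ (d - 2))⁻¹ * 2 ^ (d - 2) = 1 :=
      ENNReal.inv_mul_cancel (by positivity) (by finiteness)
    calc _ = volume s0 * volume s1 * 4⁻¹ * (((2 : ℝ≥0∞) ^ (d - 2))⁻¹ * 2 ^ (d - 2)) := by ring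
      _ = _ := by rw [this, mul_one]
  · exact (h0.preimage (by fun_prop)).inter (h1.preimage (by fun_prop))

lemma sh_ae_Q : ∀ᵐ x ∂(uniformProbOn (sh_Q d)), x ∈ sh_Q d :=
  Measure.ae_smul_measure (ae_restrict_mem sh_Q_meas) _

/-- The reflection in the coordinate `i1`. -/
noncomputable def sh_R (i1 : Fin d) :
    EuclideanSpace ℝ (Fin d) ≃ₗᵢ[ℝ] EuclideanSpace ℝ (Fin d) :=
  LinearIsometryEquiv.piLpCongrRight 2
    (fun i => if i = i1 then LinearIsometryEquiv.neg ℝ else LinearIsometryEquiv.refl ℝ ℝ)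

lemma sh_R_apply (i1 : Fin d) (x : EuclideanSpace ℝ (Fin d)) (i : Fin d) :
    sh_R i1 x i = if i = i1 then -x i else x i := by
  simp only [sh_R, LinearIsometryEquiv.piLpCongrRight_apply]
  split_ifs <;> simp

lemma sh_R_preserving (i1 : Fin d) :
    MeasurePreserving (sh_R i1) (uniformProbOn (sh_Q d)) (uniformProbOn (sh_Q d)) := by
  have h1 := (sh_R i1).measurePreserving.restrict_preimage (sh_Q_meas (d := d))
  have h2 : sh_R i1 ⁻¹' sh_Q d = sh_Q d := by
    ext x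
    simp only [sh_Q, mem_preimage, mem_ofPred_eq, sh_R_apply]
    refine forall_congr' fun i => ?_
    split_ifs <;> simp
  rw [h2] at h1
  exact h1.smul_measure _

open Classical in
/-- The transport map. -/
noncomputable def sh_T (i0 i1 : Fin d) (k : ℝ) (x : EuclideanSpace ℝ (Fin d)) :
    EuclideanSpace ℝ (Fin d) :=
  if |x i0| < k * x i1 then EuclideanSpace.single i1 k
  else if x i0 < 0 then EuclideanSpace.single i0 (-1) else EuclideanSpace.single i0 1

/-- The atoms. -/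
noncomputable def sh_y (i0 i1 : Fin d) (k : ℝ) : Fin 3 → EuclideanSpace ℝ (Fin d) :=
  ![EuclideanSpace.single i0 (-1), EuclideanSpace.single i0 1, EuclideanSpace.single i1 k]

open Classical in
/-- The set of atoms. -/
noncomputable def sh_Y (i0 i1 : Fin d) (k : ℝ) : Finset (EuclideanSpace ℝ (Fin d)) :=
  Finset.univ.image (sh_y i0 i1 k)

lemma sh_mem_Y {i0 i1 : Fin d} {k : ℝ} {y : EuclideanSpace ℝ (Fin d)} : y ∈ sh_Y i0 i1 k ↔
    y = EuclideanSpace.single i0 (-1) ∨ y = EuclideanSpace.single i0 1 ∨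
      y = EuclideanSpace.single i1 k := by
  simp only [sh_Y, Finset.mem_image, Finset.mem_univ, true_and]
  constructor
  · rintro ⟨i, rfl⟩
    fin_cases i <;> simp [sh_y]
  · rintro (rfl | rfl | rfl)
    exacts [⟨0, rfl⟩, ⟨1, rfl⟩, ⟨2, rfl⟩]

lemma sh_y_inj {i0 i1 : Fin d} (h01 : i0 ≠ i1) (k : ℝ) : Function.Injective (sh_y i0 i1 k) := by
  intro a b hab
  have := congrArg (fun x : EuclideanSpace ℝ (Fin d) => x i0) hab
  fin_cases a <;> fin_cases b <;> simp [sh_y, h01] at this ⊢ <;> linarith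

lemma sh_T_meas (i0 i1 : Fin d) (k : ℝ) : Measurable (sh_T i0 i1 k) := by
  refine Measurable.ite ?_ measurable_const (Measurable.ite ?_ measurable_const measurable_const)
  · exact measurableSet_lt (by fun_prop) (by fun_prop)
  · exact measurableSet_lt (by fun_prop) (by fun_prop)

lemma sh_T_mem (i0 i1 : Fin d) (k : ℝ) (x : EuclideanSpace ℝ (Fin d)) :
    sh_T i0 i1 k x ∈ sh_Y i0 i1 k := by
  rw [sh_mem_Y, sh_T]
  split_ifs <;> simp

lemma sh_inner_T (i0 i1 : Fin d) (k : ℝ) (x : EuclideanSpace ℝ (Fin d)) :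
    ⟪x, sh_T i0 i1 k x⟫ = max |x i0| (k * x i1) := by
  rw [sh_T]
  split_ifs with h1 h2
  · rw [EuclideanSpace.inner_single_right, max_eq_right h1.le]; simp
  · rw [EuclideanSpace.inner_single_right, max_eq_left (not_lt.1 h1), abs_of_neg h2]; simp
  · rw [EuclideanSpace.inner_single_right, max_eq_left (not_lt.1 h1), abs_of_nonneg (not_lt.1 h2)]
    simp

lemma sh_T_max (i0 i1 : Fin d) (k : ℝ) (x : EuclideanSpace ℝ (Fin d)) :
    ∀ y ∈ sh_Y i0 i1 k, ⟪x, y⟫ ≤ ⟪x, sh_T i0 i1 k x⟫ := by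
  intro y hy
  rw [sh_inner_T]
  rcases sh_mem_Y.1 hy with rfl | rfl | rfl <;> rw [EuclideanSpace.inner_single_right]
  · exact le_max_of_le_left (by simpa using neg_le_abs (x i0))
  · exact le_max_of_le_left (by simpa using le_abs_self (x i0))
  · exact le_max_of_le_right (by simp)

lemma sh_Y_sub {i0 i1 : Fin d} {k : ℝ} (hk : |k| ≤ 1) {y : EuclideanSpace ℝ (Fin d)}
    (hy : y ∈ sh_Y i0 i1 k) : y ∈ sh_Q d := by
  intro i
  rcases sh_mem_Y.1 hy with rfl | rfl | rfl <;> simp only [PiLp.single_apply] <;> split_ifs <;>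
    simp [hk]

lemma sh_probOn {i0 i1 : Fin d} (h01 : i0 ≠ i1) {k : ℝ} (hk : |k| ≤ 1) :
    IsProbabilityOn (sh_Q d) ((uniformProbOn (sh_Q d)).map (sh_T i0 i1 k)) := by
  have := sh_prob h01
  refine ⟨Measure.isProbabilityMeasure_map (sh_T_meas i0 i1 k).aemeasurable, ?_⟩
  rw [Measure.map_apply (sh_T_meas i0 i1 k) sh_Q_meas.compl]
  convert measure_empty (μ := uniformProbOn (sh_Q d))
  ext x
  simp [sh_Y_sub hk (sh_T_mem i0 i1 k x)]

lemma sh_rho_pos {i0 i1 : Fin d} (h01 : i0 ≠ i1) {U A : Set (EuclideanSpace ℝ (Fin d))}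
    (hU : IsOpen U) (hUA : U ⊆ A) {x : EuclideanSpace ℝ (Fin d)} (hx : x ∈ U)
    (hx' : ∀ i, |x i| < 1) : uniformProbOn (sh_Q d) A ≠ 0 := by
  refine ne_bot_of_le_ne_bot ?_ (measure_mono hUA)
  rw [sh_rho_apply hU.measurableSet, sh_vol_Q h01]
  refine mul_ne_zero (ENNReal.inv_ne_zero.2 (by finiteness)) ?_
  have hO : IsOpen {x : EuclideanSpace ℝ (Fin d) | ∀ i, |x i| < 1} := by
    have : {x : EuclideanSpace ℝ (Fin d) | ∀ i, |x i| < 1} =
        ⋂ i, {x : EuclideanSpace ℝ (Fin d) | |x i| < 1} := by ext x; simp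
    rw [this]
    exact isOpen_iInter_of_finite fun i => isOpen_lt (by fun_prop) continuous_const
  refine ne_bot_of_le_ne_bot ((hU.inter hO).measure_pos volume ⟨x, hx, hx'⟩).ne' ?_
  exact measure_mono (inter_subset_inter_right _ fun y hy i => (hy i).le)

lemma sh_three {i0 i1 : Fin d} (h01 : i0 ≠ i1) {k : ℝ} (hk : |k| ≤ 1) (hk0 : k ≠ 0) :
    IsThreeAtomic ((uniformProbOn (sh_Q d)).map (sh_T i0 i1 k)) := by
  classical
  have := sh_prob h01
  refine ⟨sh_y i0 i1 k, sh_y_inj h01 k,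
    fun i => (uniformProbOn (sh_Q d) (sh_T i0 i1 k ⁻¹' {sh_y i0 i1 k i})).toReal, fun i => ?_, ?_⟩
  · refine ENNReal.toReal_pos ?_ (measure_ne_top _ _)
    fin_cases i
    · refine sh_rho_pos h01 (U := {x | x i0 < 0} ∩ {x | k * x i1 < |x i0|})
        ((isOpen_lt (by fun_prop) (by fun_prop)).inter (isOpen_lt (by fun_prop) (by fun_prop)))
        (fun x hx => ?_) (x := EuclideanSpace.single i0 (-1 / 2)) ?_ ?_
      · have h1 : x i0 < 0 := hx.1
        have h2 : ¬ |x i0| < k * x i1 := not_lt.2 (le_of_lt hx.2)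
        simp [sh_T, sh_y, h1, h2]
      · constructor
        · simp; norm_num
        · simp [h01.symm]
      · intro i
        simp only [PiLp.single_apply]; split_ifs
        · rw [abs_lt]; constructor <;> norm_num
        · simp
    · refine sh_rho_pos h01 (U := {x | 0 < x i0} ∩ {x | k * x i1 < |x i0|})
        ((isOpen_lt (by fun_prop) (by fun_prop)).inter (isOpen_lt (by fun_prop) (by fun_prop)))
        (fun x hx => ?_) (x := EuclideanSpace.single i0 (1 / 2)) ?_ ?_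
      · have h1 : ¬ x i0 < 0 := not_lt.2 (le_of_lt hx.1)
        have h2 : ¬ |x i0| < k * x i1 := not_lt.2 (le_of_lt hx.2)
        simp [sh_T, sh_y, h1, h2]
      · constructor
        · simp
        · simp [h01.symm]
      · intro i
        simp only [PiLp.single_apply]; split_ifs
        · rw [abs_lt]; constructor <;> norm_num
        · simp
    · refine sh_rho_pos h01 (U := {x | |x i0| < k * x i1}) (isOpen_lt (by fun_prop) (by fun_prop))
        (fun x hx => ?_) (x := EuclideanSpace.single i1 (k / 2)) ?_ ?_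
      · have h2 : |x i0| < k * x i1 := hx
        simp [sh_T, sh_y, h2]
      · have : 0 < k * (k / 2) := by
          have := mul_self_pos.2 hk0
          linarith
        simpa [h01] using this
      · intro i
        simp only [PiLp.single_apply]; split_ifs
        · rw [abs_div, abs_two]; linarith
        · simp
  · have := (Measure.ae_mem_finset_iff_map_eq_sum_dirac (s := sh_Y i0 i1 k)
      (μ := uniformProbOn (sh_Q d)) (sh_T_meas i0 i1 k).aemeasurable).1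
      (Filter.Eventually.of_forall (sh_T_mem i0 i1 k))
    rw [this, sh_Y, Finset.sum_image (sh_y_inj h01 k).injOn]
    refine Finset.sum_congr rfl fun i _ => ?_
    rw [ENNReal.ofReal_toReal (measure_ne_top _ _)]

lemma sh_norm_le {x : EuclideanSpace ℝ (Fin d)} (hx : x ∈ sh_Q d) : ‖x‖ ^ 2 ≤ d := by
  rw [EuclideanSpace.real_norm_sq_eq]
  calc ∑ i, x i ^ 2 ≤ ∑ _i : Fin d, (1 : ℝ) := Finset.sum_le_sum fun i _ => by
        have := hx i
        rw [← sq_abs]; nlinarith [abs_nonneg (x i)]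
    _ = d := by simp

lemma sh_cost_fin {i0 i1 : Fin d} (h01 : i0 ≠ i1) {k : ℝ} (hk : |k| ≤ 1) :
    ∫⁻ x, ‖x - sh_T i0 i1 k x‖ₑ ^ 2 ∂(uniformProbOn (sh_Q d)) ≠ ∞ := by
  have := sh_prob h01
  have : ∫⁻ x, ‖x - sh_T i0 i1 k x‖ₑ ^ 2 ∂(uniformProbOn (sh_Q d)) ≤
      ∫⁻ _, ENNReal.ofReal (4 * d) ∂(uniformProbOn (sh_Q d)) := by
    refine lintegral_mono_ae ?_
    filter_upwards [sh_ae_Q] with x hx
    rw [sh_enorm_sq]
    refine ENNReal.ofReal_le_ofReal ?_
    have h1 := sh_norm_le hx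
    have h2 := sh_norm_le (sh_Y_sub hk (sh_T_mem i0 i1 k x))
    have h3 := norm_sub_le x (sh_T i0 i1 k x)
    have h4 : ‖x - sh_T i0 i1 k x‖ ^ 2 ≤ (‖x‖ + ‖sh_T i0 i1 k x‖) ^ 2 := by gcongr
    nlinarith [sq_nonneg (‖x‖ - ‖sh_T i0 i1 k x‖)]
  refine ne_top_of_le_ne_top ?_ this
  rw [lintegral_const]
  exact ENNReal.mul_ne_top ENNReal.ofReal_ne_top (measure_ne_top _ _)

lemma sh_T_R {i0 i1 : Fin d} (h01 : i0 ≠ i1) (k : ℝ) (x : EuclideanSpace ℝ (Fin d)) :
    sh_T i0 i1 (-k) (sh_R i1 x) = sh_R i1 (sh_T i0 i1 k x) := by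
  simp only [sh_T, sh_R_apply, h01, if_false, if_true, mul_neg, neg_mul, neg_neg]
  split_ifs <;> simp [sh_R, h01]

lemma sh_cost_pi {i0 i1 : Fin d} (h01 : i0 ≠ i1) {h : ℝ} (h0 : 0 < h) (h1 : h ≤ 1) :
    quadCost ((uniformProbOn (sh_Q d)).map
      (fun x => (sh_T i0 i1 h x, sh_R i1 (sh_T i0 i1 h x)))) ≤ ENNReal.ofReal (4 * h ^ 3) := by
  have hm := sh_T_meas i0 i1 h
  have hR : Measurable (sh_R i1) := (sh_R i1).continuous.measurable
  have hp : Measurable fun x => (sh_T i0 i1 h x, sh_R i1 (sh_T i0 i1 h x)) :=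
    hm.prodMk (hR.comp hm)
  rw [quadCost, lintegral_map (by fun_prop) hp]
  let B : Set (EuclideanSpace ℝ (Fin d)) := {x | x i0 ∈ Icc (-h) h ∧ x i1 ∈ Icc (-1) 1}
  have hB : MeasurableSet B :=
    (measurableSet_Icc.preimage (by fun_prop)).inter (measurableSet_Icc.preimage (by fun_prop))
  calc _ ≤ ∫⁻ x, B.indicator (fun _ => ENNReal.ofReal (4 * h ^ 2)) x
        ∂(uniformProbOn (sh_Q d)) := by
        refine lintegral_mono_ae ?_
        filter_upwards [sh_ae_Q] with x hx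
        simp only [sh_T]
        split_ifs with c1 c2
        · have hxB : x ∈ B := by
            have := abs_le.1 (hx i1)
            refine ⟨abs_le.1 (c1.le.trans ?_), this⟩
            nlinarith [this.2]
          rw [indicator_of_mem hxB, sh_enorm_sq]
          refine ENNReal.ofReal_le_ofReal (le_of_eq ?_)
          have : EuclideanSpace.single i1 h - sh_R i1 (EuclideanSpace.single i1 h) =
              EuclideanSpace.single i1 (2 * h) := by
            ext i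
            simp only [PiLp.sub_apply, sh_R_apply, PiLp.single_apply]
            split_ifs <;> ring
          rw [this, PiLp.norm_single, Real.norm_eq_abs, sq_abs]; ring
        · simp [sh_R, h01]
        · simp [sh_R, h01]
    _ = ENNReal.ofReal (4 * h ^ 3) := by
        rw [lintegral_indicator_const hB, sh_rho_two h01 measurableSet_Icc measurableSet_Icc
          (Icc_subset_Icc (by linarith) h1) (subset_refl _), Real.volume_Icc, Real.volume_Icc,
          ← ENNReal.ofReal_mul (by linarith), ← ENNReal.ofReal_ofNat 4,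
          ← ENNReal.ofReal_div_of_pos (by norm_num), ← ENNReal.ofReal_mul (by positivity)]
        congr 1; ring

lemma sh_lower {i0 i1 : Fin d} (h01 : i0 ≠ i1) {h : ℝ} (h0 : 0 < h) (h1 : h ≤ 1)
    {Tμ Tν : EuclideanSpace ℝ (Fin d) → EuclideanSpace ℝ (Fin d)}
    (hμ : IsOptimalMap (uniformProbOn (sh_Q d)) ((uniformProbOn (sh_Q d)).map (sh_T i0 i1 h)) Tμ)
    (hν : IsOptimalMap (uniformProbOn (sh_Q d))
      ((uniformProbOn (sh_Q d)).map (sh_T i0 i1 (-h))) Tν) :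
    ENNReal.ofReal (h / 8) ≤ ∫⁻ x, ‖Tμ x - Tν x‖ₑ ^ 2 ∂(uniformProbOn (sh_Q d)) := by
  have := sh_prob h01
  have a1 := sh_gap_zero (sh_T_meas i0 i1 h) (sh_T_mem i0 i1 h) (sh_T_max i0 i1 h)
    (sh_cost_fin h01 (by rwa [abs_of_pos h0])) hμ
  have a2 := sh_gap_zero (sh_T_meas i0 i1 (-h)) (sh_T_mem i0 i1 (-h)) (sh_T_max i0 i1 (-h))
    (sh_cost_fin h01 (by rwa [abs_neg, abs_of_pos h0])) hν
  let B : Set (EuclideanSpace ℝ (Fin d)) :=
    {x | x i0 ∈ Ioo (-(h / 2)) (h / 2) ∧ x i1 ∈ Icc (1 / 2) 1}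
  have hB : MeasurableSet B :=
    (measurableSet_Ioo.preimage (by fun_prop)).inter (measurableSet_Icc.preimage (by fun_prop))
  calc ENNReal.ofReal (h / 8) = ∫⁻ x, B.indicator (fun _ => 1) x ∂(uniformProbOn (sh_Q d)) := by
        rw [lintegral_indicator_const hB, sh_rho_two h01 measurableSet_Ioo measurableSet_Icc
          (Ioo_subset_Icc_self.trans (Icc_subset_Icc (by linarith) (by linarith)))
          (Icc_subset_Icc (by norm_num) le_rfl), Real.volume_Ioo, Real.volume_Icc,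
          ← ENNReal.ofReal_mul (by linarith), ← ENNReal.ofReal_ofNat 4,
          ← ENNReal.ofReal_div_of_pos (by norm_num), one_mul]
        congr 1; ring
    _ ≤ _ := by
        refine lintegral_mono_ae ?_
        filter_upwards [a1, a2] with x hx1 hx2
        by_cases hxB : x ∈ B
        swap
        · simp [indicator_of_notMem hxB]
        rw [indicator_of_mem hxB, sh_enorm_sq, ← ENNReal.ofReal_one]
        refine ENNReal.ofReal_le_ofReal ?_
        have b0 : |x i0| < h / 2 := abs_lt.2 hxB.1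
        have b1 : h / 2 ≤ h * x i1 := by nlinarith [hxB.2.1]
        rw [sh_inner_T] at hx1 hx2
        have c1 := (le_max_right _ _).trans hx1.2
        have c2 := (le_max_left _ _).trans hx2.2
        have e1 : Tμ x = EuclideanSpace.single i1 h := by
          rcases sh_mem_Y.1 hx1.1 with e | e | e
          · rw [e, EuclideanSpace.inner_single_right] at c1
            simp at c1; linarith [neg_le_abs (x i0)]
          · rw [e, EuclideanSpace.inner_single_right] at c1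
            simp at c1; linarith [le_abs_self (x i0)]
          · exact e
        have e2 : |Tν x i0| = 1 := by
          rcases sh_mem_Y.1 hx2.1 with e | e | e
          · simp [e]
          · simp [e]
          · rw [e, EuclideanSpace.inner_single_right] at c2
            simp at c2; linarith [abs_nonneg (x i0)]
        have e3 : |(Tμ x - Tν x) i0| = 1 := by
          simp [e1, h01, e2]
        have e4 := PiLp.norm_apply_le (Tμ x - Tν x) i0
        rw [Real.norm_eq_abs, e3] at e4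
        nlinarith

lemma sh_small {α : ℝ} (hα : 1 / 3 < α) (C : ℝ) :
    ∃ h : ℝ, 0 < h ∧ h ≤ 1 ∧ C * (4 * h ^ 3) ^ α < h / 8 := by
  have hp : 0 < 3 * α - 1 := by linarith
  have hc : ContinuousAt (fun h : ℝ => C * 4 ^ α * h ^ (3 * α - 1)) 0 :=
    continuousAt_const.mul (Real.continuousAt_rpow_const 0 _ (Or.inr hp.le))
  have h1 : ∀ᶠ h in nhds (0 : ℝ), C * 4 ^ α * h ^ (3 * α - 1) < 1 / 8 :=
    hc.eventually_lt continuousAt_const (by simp [Real.zero_rpow hp.ne'])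
  have h2 : ∀ᶠ h in nhds (0 : ℝ), h < 1 := eventually_lt_nhds zero_lt_one
  obtain ⟨h, ⟨a, b⟩, c⟩ := (((h1.and h2).filter_mono nhdsWithin_le_nhds).and
    (self_mem_nhdsWithin (a := (0 : ℝ)) (s := Ioi 0))).exists
  have c' : 0 < h := c
  refine ⟨h, c', b.le, ?_⟩
  have e : (4 * h ^ 3) ^ α = 4 ^ α * h ^ (3 * α - 1) * h := by
    rw [Real.mul_rpow (by norm_num) (by positivity), ← Real.rpow_natCast, ← Real.rpow_mul c'.le,
      mul_assoc, ← Real.rpow_add_one c'.ne']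
    norm_num
  rw [e]
  nlinarith

theorem sh_main (d : ℕ) (hd : 2 ≤ d) (α : ℝ) (hα : 1 / 3 < α) (C : ℝ≥0) :
    ∃ μ ν : Measure (EuclideanSpace ℝ (Fin d)),
      IsProbabilityOn (sh_Q d) μ ∧ IsProbabilityOn (sh_Q d) ν ∧
      IsThreeAtomic μ ∧ IsThreeAtomic ν ∧
      (∃ T, IsOptimalMap (uniformProbOn (sh_Q d)) μ T) ∧
      (∃ T, IsOptimalMap (uniformProbOn (sh_Q d)) ν T) ∧
      ∀ Tμ Tν : EuclideanSpace ℝ (Fin d) → EuclideanSpace ℝ (Fin d),
        IsOptimalMap (uniformProbOn (sh_Q d)) μ Tμ →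
        IsOptimalMap (uniformProbOn (sh_Q d)) ν Tν →
        ∃ π : Measure (EuclideanSpace ℝ (Fin d) × EuclideanSpace ℝ (Fin d)),
          IsPairCoupling μ ν π ∧
          (C : ℝ≥0∞) * quadCost π ^ α < ∫⁻ x, ‖Tμ x - Tν x‖ₑ ^ 2 ∂(uniformProbOn (sh_Q d)) := by
  obtain ⟨h, h0, h1, hlt⟩ := sh_small hα C
  let i0 : Fin d := ⟨0, by omega⟩
  let i1 : Fin d := ⟨1, by omega⟩
  have h01 : i0 ≠ i1 := by simp [i0, i1]
  have := sh_prob h01
  have ha : |h| ≤ 1 := by rwa [abs_of_pos h0]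
  have ha' : |-h| ≤ 1 := by rwa [abs_neg]
  have hm := sh_T_meas i0 i1 h
  have hR : Measurable (sh_R i1) := (sh_R i1).continuous.measurable
  have hp : Measurable fun x => (sh_T i0 i1 h x, sh_R i1 (sh_T i0 i1 h x)) :=
    hm.prodMk (hR.comp hm)
  have hα0 : 0 ≤ α := by linarith
  refine ⟨_, _, sh_probOn h01 ha, sh_probOn h01 ha', sh_three h01 ha h0.ne',
    sh_three h01 ha' (neg_ne_zero.2 h0.ne'),
    ⟨_, sh_optimal hm (sh_T_mem i0 i1 h) (sh_T_max i0 i1 h)⟩,
    ⟨_, sh_optimal (sh_T_meas i0 i1 (-h)) (sh_T_mem i0 i1 (-h)) (sh_T_max i0 i1 (-h))⟩,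
    fun Tμ Tν hμ hν => ⟨(uniformProbOn (sh_Q d)).map
      (fun x => (sh_T i0 i1 h x, sh_R i1 (sh_T i0 i1 h x))), ⟨?_, ?_⟩, ?_⟩⟩
  · rw [Measure.map_map measurable_fst hp]
    rfl
  · rw [Measure.map_map measurable_snd hp]
    conv_rhs => rw [← (sh_R_preserving i1).map_eq, Measure.map_map (sh_T_meas i0 i1 (-h)) hR]
    congr 1
    funext x
    simp [sh_T_R h01]
  · refine lt_of_lt_of_le ?_ (sh_lower h01 h0 h1 hμ hν)
    calc (C : ℝ≥0∞) * quadCost _ ^ α ≤ C * ENNReal.ofReal (4 * h ^ 3) ^ α := by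
          gcongr
          exact sh_cost_pi h01 h0 h1
      _ = ENNReal.ofReal (C * (4 * h ^ 3) ^ α) := by
          rw [ENNReal.ofReal_rpow_of_nonneg (by positivity) (by linarith),
            ENNReal.ofReal_mul C.coe_nonneg, ENNReal.ofReal_coe_nnreal]
      _ < ENNReal.ofReal (h / 8) := (ENNReal.ofReal_lt_ofReal_iff (by positivity)).2 hlt

end Cube

end Crest.Agent.R82
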