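import Crest.Agent.R82.Var
import Crest.Agent.R82.MK
import Crest.Agent.Lib.PL.PrekopaLeindler

/-! Facts about the uniform measure, and the duality defect of an optimal map (row 82). -/

open MeasureTheory Crest.AnalysisR.OT
open scoped RealInnerProductSpace ENNReal

namespace Crest.Agent.R82

variable {d : ℕ}

theorem unif_prob {K : Set (EuclideanSpace ℝ (Fin d))} (hKc : IsCompact K)
    (hKi : (interior K).Nonempty) : IsProbabilityMeasure (uniformProbOn K) := by
  have h0 : volume K ≠ 0 := (Measure.measure_pos_of_nonempty_interior volume hKi).ne'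
  have h1 : volume K ≠ ∞ := hKc.measure_lt_top.ne
  constructor
  simp [uniformProbOn, ENNReal.inv_mul_cancel h0 h1]

theorem unif_ac (K : Set (EuclideanSpace ℝ (Fin d))) : uniformProbOn K ≪ volume :=
  Measure.smul_absolutelyContinuous.trans Measure.absolutelyContinuous_restrict

theorem unif_ae {K : Set (EuclideanSpace ℝ (Fin d))} (hKc : IsCompact K) :
    ∀ᵐ x ∂(uniformProbOn K), x ∈ K :=
  Measure.smul_absolutelyContinuous (ae_restrict_mem hKc.measurableSet)

theorem unif_PL {K : Set (EuclideanSpace ℝ (Fin d))} (hKc : IsCompact K) (hKv : Convex ℝ K)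
    {R : ℝ} (hR : ∀ x ∈ K, ‖x‖ ≤ R) : PLMeas (uniformProbOn K) R := by
  intro f g h hf hg hh hf0 hg0 hh0 H
  have hKm := hKc.measurableSet
  have key := Crest.Agent.Lib.PL.prekopa_leindler_half d
    (K.indicator fun x => ENNReal.ofReal (f x)) (K.indicator fun x => ENNReal.ofReal (g x))
    (K.indicator fun x => ENNReal.ofReal (h x))
    (hf.measurable.ennreal_ofReal.indicator hKm) (hg.measurable.ennreal_ofReal.indicator hKm)
    (hh.measurable.ennreal_ofReal.indicator hKm) (by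
      intro x x'
      by_cases hx : x ∈ K
      · by_cases hx' : x' ∈ K
        · have hm : (1 / 2 : ℝ) • (x + x') ∈ K := by
            rw [smul_add]
            exact hKv hx hx' (by norm_num) (by norm_num) (by norm_num)
          rw [Set.indicator_of_mem hx, Set.indicator_of_mem hx', Set.indicator_of_mem hm,
            ← ENNReal.ofReal_mul (hf0 x), ← ENNReal.ofReal_pow (hh0 _)]
          exact ENNReal.ofReal_le_ofReal (H x x' (hR x hx) (hR x' hx'))
        · simp [Set.indicator_of_notMem hx']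
      · simp [Set.indicator_of_notMem hx])
  have conv : ∀ u : EuclideanSpace ℝ (Fin d) → ℝ, Continuous u → (∀ x, 0 ≤ u x) →
      ∫⁻ x, K.indicator (fun x => ENNReal.ofReal (u x)) x = ENNReal.ofReal (∫ x in K, u x) := by
    intro u hu hu0
    rw [lintegral_indicator hKm, ofReal_integral_eq_lintegral_ofReal
      (hu.continuousOn.integrableOn_compact hKc) (Filter.Eventually.of_forall hu0)]
  have nn : ∀ u : EuclideanSpace ℝ (Fin d) → ℝ, (∀ x, 0 ≤ u x) → 0 ≤ ∫ x in K, u x :=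
    fun u hu0 => integral_nonneg hu0
  rw [conv f hf hf0, conv g hg hg0, conv h hh hh0, ← ENNReal.ofReal_mul (nn f hf0),
    ← ENNReal.ofReal_pow (nn h hh0), ENNReal.ofReal_le_ofReal_iff (by positivity)] at key
  simp only [uniformProbOn, integral_smul_measure, smul_eq_mul]
  set c := ((volume K)⁻¹).toReal
  have := mul_le_mul_of_nonneg_left key (sq_nonneg c)
  nlinarith

theorem integrable_cont_prod {E : Type} [NormedAddCommGroup E] [InnerProductSpace ℝ E]
    [FiniteDimensional ℝ E] [MeasurableSpace E] [BorelSpace E] {γ : Measure (E × E)}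
    [IsFiniteMeasure γ] {R L : ℝ} (h : ∀ᵐ q ∂γ, ‖q.1‖ ≤ R ∧ ‖q.2‖ ≤ L) {f : E × E → ℝ}
    (hf : Continuous f) : Integrable f γ := by
  obtain ⟨M, hM⟩ := ((isCompact_closedBall (0 : E) R).prod
    (isCompact_closedBall (0 : E) L)).exists_bound_of_continuousOn hf.continuousOn
  refine Integrable.of_bound hf.aestronglyMeasurable M ?_
  filter_upwards [h] with q hq
  exact hM q ⟨by simpa using hq.1, by simpa using hq.2⟩

theorem enorm_sq_eq {E : Type} [NormedAddCommGroup E] (x : E) :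
    ‖x‖ₑ ^ 2 = ENNReal.ofReal (‖x‖ ^ 2) := by
  rw [← ofReal_norm, ENNReal.ofReal_pow (norm_nonneg _)]

/-- the Monge-Kantorovich comparison in correlation form -/
theorem inner_le_of_monge (hd : 1 ≤ d) {ρ μ : Measure (EuclideanSpace ℝ (Fin d))}
    [IsProbabilityMeasure ρ] (hρ : ρ ≪ volume) {R L : ℝ} (hR : ∀ᵐ x ∂ρ, ‖x‖ ≤ R)
    (hL : ∀ᵐ p ∂μ, ‖p‖ ≤ L) {T : EuclideanSpace ℝ (Fin d) → EuclideanSpace ℝ (Fin d)}
    (hT : IsOptimalMap ρ μ T) {γ : Measure (EuclideanSpace ℝ (Fin d) × EuclideanSpace ℝ (Fin d))}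
    (hγ : IsPairCoupling ρ μ γ) : ∫ q, ⟪q.1, q.2⟫ ∂γ ≤ ∫ x, ⟪x, T x⟫ ∂ρ := by
  have hmk := monge_le_coupling hd ρ μ hρ T hT γ hγ
  haveI : IsProbabilityMeasure γ := by
    constructor
    have := congrArg (fun ν : Measure _ => ν Set.univ) hγ.1
    simp only [Measure.map_apply measurable_fst MeasurableSet.univ, Set.preimage_univ,
      measure_univ] at this
    exact this
  set γ' := ρ.map (fun x => (x, T x)) with hγ'
  have hTm : Measurable fun x => (x, T x) := measurable_id.prodMk hT.1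
  haveI : IsProbabilityMeasure γ' := Measure.isProbabilityMeasure_map hTm.aemeasurable
  have hγ'c : IsPairCoupling ρ μ γ' := by
    constructor
    · rw [hγ', Measure.map_map measurable_fst hTm]; exact Measure.map_id
    · rw [hγ', Measure.map_map measurable_snd hTm]; exact hT.2.1
  have hq : ∫⁻ x, ‖x - T x‖ₑ ^ 2 ∂ρ = quadCost γ' := by
    unfold quadCost
    rw [hγ', lintegral_map (by fun_prop) hTm]
  have hin : ∫ x, ⟪x, T x⟫ ∂ρ = ∫ q, ⟪q.1, q.2⟫ ∂γ' := by
    rw [hγ', integral_map hTm.aemeasurable (by fun_prop)]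
  have gen : ∀ (ξ : Measure (EuclideanSpace ℝ (Fin d) × EuclideanSpace ℝ (Fin d)))
      [IsProbabilityMeasure ξ], IsPairCoupling ρ μ ξ →
      quadCost ξ = ENNReal.ofReal (∫ x, ‖x‖ ^ 2 ∂ρ + ∫ p, ‖p‖ ^ 2 ∂μ - 2 * ∫ q, ⟪q.1, q.2⟫ ∂ξ) ∧
        0 ≤ ∫ x, ‖x‖ ^ 2 ∂ρ + ∫ p, ‖p‖ ^ 2 ∂μ - 2 * ∫ q, ⟪q.1, q.2⟫ ∂ξ := by
    intro ξ _ hξ
    have hb : ∀ᵐ q ∂ξ, ‖q.1‖ ≤ R ∧ ‖q.2‖ ≤ L := by
      have h1 : ∀ᵐ q ∂ξ, ‖q.1‖ ≤ R := ae_of_ae_map measurable_fst.aemeasurable (hξ.1 ▸ hR)
      have h2 : ∀ᵐ q ∂ξ, ‖q.2‖ ≤ L := ae_of_ae_map measurable_snd.aemeasurable (hξ.2 ▸ hL)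
      filter_upwards [h1, h2] with q h1 h2 using ⟨h1, h2⟩
    have e1 : ∫ x, ‖x‖ ^ 2 ∂ρ = ∫ q, ‖q.1‖ ^ 2 ∂ξ := by
      rw [← hξ.1, integral_map measurable_fst.aemeasurable (by fun_prop)]
    have e2 : ∫ p, ‖p‖ ^ 2 ∂μ = ∫ q, ‖q.2‖ ^ 2 ∂ξ := by
      rw [← hξ.2, integral_map measurable_snd.aemeasurable (by fun_prop)]
    have hi1 : Integrable (fun q => ‖q.1‖ ^ 2) ξ := integrable_cont_prod hb (by fun_prop)
    have hi2 : Integrable (fun q => ‖q.2‖ ^ 2) ξ := integrable_cont_prod hb (by fun_prop)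
    have hi3 : Integrable (fun q => 2 * ⟪q.1, q.2⟫) ξ := integrable_cont_prod hb (by fun_prop)
    have hi4 : Integrable (fun q => ‖q.1‖ ^ 2 + ‖q.2‖ ^ 2) ξ := hi1.add hi2
    have hi5 : Integrable (fun q => ‖q.1 - q.2‖ ^ 2) ξ := integrable_cont_prod hb (by fun_prop)
    have e3 : ∫ x, ‖x‖ ^ 2 ∂ρ + ∫ p, ‖p‖ ^ 2 ∂μ - 2 * ∫ q, ⟪q.1, q.2⟫ ∂ξ =
        ∫ q, ‖q.1 - q.2‖ ^ 2 ∂ξ := by
      rw [e1, e2, ← integral_const_mul, ← integral_add hi1 hi2, ← integral_sub hi4 hi3]
      congr 1; funext q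
      rw [norm_sub_sq_real]; ring
    rw [e3]
    refine ⟨?_, integral_nonneg fun q => by positivity⟩
    unfold quadCost
    rw [ofReal_integral_eq_lintegral_ofReal hi5 (Filter.Eventually.of_forall fun q => by positivity)]
    congr 1; funext q
    exact enorm_sq_eq _
  rw [hq, (gen γ' hγ'c).1, (gen γ hγ).1, ENNReal.ofReal_le_ofReal_iff (gen γ hγ).2] at hmk
  rw [hin]
  linarith

theorem side_defect (hd : 1 ≤ d) {ι : Type} [Fintype ι] [Nonempty ι]
    {ρ μ : Measure (EuclideanSpace ℝ (Fin d))}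
    [IsProbabilityMeasure ρ] (hρ : ρ ≪ volume) {R L : ℝ} (hR0 : 0 ≤ R) (hR : ∀ᵐ x ∂ρ, ‖x‖ ≤ R)
    (hL : ∀ᵐ p ∂μ, ‖p‖ ≤ L) {T : EuclideanSpace ℝ (Fin d) → EuclideanSpace ℝ (Fin d)}
    (hT : IsOptimalMap ρ μ T) {m : ι → ℝ} (hm : ∀ i, 0 < m i) (hm1 : ∑ i, m i = 1)
    {μi : ι → Measure (EuclideanSpace ℝ (Fin d))} (hμ : ∑ i, μi i = μ)
    (hμm : ∀ i, μi i Set.univ = ENNReal.ofReal (m i)) {y : ι → EuclideanSpace ℝ (Fin d)} {δ : ℝ}
    (hδ : ∀ i, ∀ᵐ p ∂(μi i), ‖p - y i‖ ≤ δ) {η : ℝ} (hη : 0 < η) {ψ : ι → ℝ}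
    (hψ : Opt ρ (fun _ => 1) m (fun i => η⁻¹ • y i) ψ) :
    ∃ e : EuclideanSpace ℝ (Fin d) → ℝ, Integrable e ρ ∧
      (∀ᵐ x ∂ρ, ‖T x‖ ≤ L ∧ 0 ≤ e x ∧ ∀ z, ‖z‖ ≤ R →
        η * LS (aff (fun i => η⁻¹ • y i) ψ x) + ⟪T x, z - x⟫ - e x ≤
          η * LS (aff (fun i => η⁻¹ • y i) ψ z)) ∧
      ∫ x, e x ∂ρ ≤ 2 * R * δ + η * Fintype.card ι := by
  set y' : ι → EuclideanSpace ℝ (Fin d) := fun i => η⁻¹ • y i with hy'
  set φ : EuclideanSpace ℝ (Fin d) → ℝ := fun x => η * LS (aff y' ψ x) with hφ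
  have hφc : Continuous φ := continuous_const.mul (cont_LS _ _)
  set ψt : EuclideanSpace ℝ (Fin d) → ℝ := fun p =>
    Finset.univ.inf' Finset.univ_nonempty fun i => η * ψ i + R * ‖p - y i‖ with hψt
  have hψtc : Continuous ψt := Continuous.finset_inf'_apply _ fun i _ => by fun_prop
  have hψt_le : ∀ p i, ψt p ≤ η * ψ i + R * ‖p - y i‖ := fun p i =>
    Finset.inf'_le (fun i => η * ψ i + R * ‖p - y i‖) (Finset.mem_univ i)
  have haff : ∀ z i, η * aff y' ψ z i = ⟪z, y i⟫ - η * ψ i := by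
    intro z i
    simp only [aff, hy', inner_smul_right]
    field_simp
  have hconj : ∀ z p, ‖z‖ ≤ R → ⟪z, p⟫ - ψt p ≤ φ z := by
    intro z p hz
    have : ⟪z, p⟫ - φ z ≤ ψt p := by
      refine Finset.le_inf' _ _ fun i _ => ?_
      have h1 := mul_le_mul_of_nonneg_left (le_LS (aff y' ψ z) i) hη.le
      rw [haff] at h1
      have h2 : ⟪z, p - y i⟫ ≤ R * ‖p - y i‖ :=
        le_trans (real_inner_le_norm _ _) (mul_le_mul_of_nonneg_right hz (norm_nonneg _))
      rw [inner_sub_right] at h2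
      simp only [hφ]
      linarith
    linarith
  haveI : IsProbabilityMeasure μ := hT.2.1 ▸ Measure.isProbabilityMeasure_map hT.1.aemeasurable
  have hTL : ∀ᵐ x ∂ρ, ‖T x‖ ≤ L := ae_of_ae_map hT.1.aemeasurable (hT.2.1 ▸ hL)
  have hfin : ∀ i, IsFiniteMeasure (μi i) := fun i => ⟨by rw [hμm]; exact ENNReal.ofReal_lt_top⟩
  have hle : ∀ i, μi i ≤ μ := fun i => by
    rw [← hμ]
    exact Finset.single_le_sum (f := μi) (fun j _ => Measure.zero_le _) (Finset.mem_univ i)
  have hLi : ∀ i, ∀ᵐ p ∂(μi i), ‖p‖ ≤ L := fun i => ae_mono (hle i) hL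
  have hreal : ∀ i, (μi i).real Set.univ = m i := fun i => by
    rw [Measure.real, hμm, ENNReal.toReal_ofReal (hm i).le]
  have hi1 : Integrable φ ρ := integrable_cont hR hφc
  have hi2 : Integrable (fun x => ψt (T x)) ρ := by
    have := integrable_cont hL hψtc
    rw [← hT.2.1] at this
    exact this.comp_measurable hT.1
  have hi3 : Integrable (fun x => ⟪x, T x⟫) ρ := by
    refine Integrable.of_bound (by have := hT.1; fun_prop) (R * L) ?_
    filter_upwards [hR, hTL] with x hx hx'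
    exact le_trans (abs_real_inner_le_norm _ _) (mul_le_mul hx hx' (norm_nonneg _) hR0)
  refine ⟨fun x => φ x + ψt (T x) - ⟪x, T x⟫, (hi1.add hi2).sub hi3, ?_, ?_⟩
  · filter_upwards [hR, hTL] with x hx hx'
    refine ⟨hx', by linarith [hconj x (T x) hx], fun z hz => ?_⟩
    have h1 := hconj z (T x) hz
    rw [inner_sub_right, real_inner_comm z, real_inner_comm x]
    change φ x + _ - _ ≤ φ z
    linarith
  have hi12 : Integrable (fun x => φ x + ψt (T x)) ρ := hi1.add hi2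
  rw [integral_sub hi12 hi3, integral_add hi1 hi2]
  set p : ι → EuclideanSpace ℝ (Fin d) → ℝ := fun i x => sm (aff y' ψ x) i with hp
  have hpc : ∀ i, Continuous (p i) := fun i => cont_sm _ _ i
  have hp0 : ∀ i x, 0 < p i x := fun i x => sm_pos _ _
  have hpm : ∀ i, ∫ x, p i x ∂ρ = m i := fun i => by simpa using hψ i
  set β : ι → ℝ := fun i => ∫ x, p i x * ⟪x, y i⟫ ∂ρ with hβ
  -- the potential
  have hA : ∫ x, φ x ∂ρ ≤ ∑ i, β i - η * ∑ i, m i * ψ i + η * Fintype.card ι := by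
    have hj : ∀ i, Integrable (fun x => p i x * ⟪x, y i⟫ - η * ψ i * p i x) ρ := fun i =>
      integrable_cont hR (by have := hpc i; fun_prop)
    have hjs : Integrable (fun x => ∑ i, (p i x * ⟪x, y i⟫ - η * ψ i * p i x)) ρ :=
      integrable_finsetSum _ fun i _ => hj i
    have : ∫ x, φ x ∂ρ ≤ ∫ x, (∑ i, (p i x * ⟪x, y i⟫ - η * ψ i * p i x) + η * Fintype.card ι) ∂ρ := by
      refine integral_mono hi1 (hjs.add (integrable_const _)) fun x => ?_
      have h1 := mul_le_mul_of_nonneg_left (LS_entropy (aff y' ψ x)) hη.le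
      refine le_trans h1 (le_of_eq ?_)
      rw [mul_add, Finset.mul_sum]
      congr 1
      refine Finset.sum_congr rfl fun i _ => ?_
      rw [mul_left_comm, haff]; simp only [hp]; ring
    rw [integral_add hjs (integrable_const _), integral_finsetSum _ fun i _ => hj i] at this
    simp only [integral_const, probReal_univ, smul_eq_mul, one_mul] at this
    refine le_trans this (le_of_eq ?_)
    rw [Finset.mul_sum, ← Finset.sum_sub_distrib]
    congr 1
    refine Finset.sum_congr rfl fun i _ => ?_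
    have hj1 : Integrable (fun x => p i x * ⟪x, y i⟫) ρ :=
      integrable_cont hR (by have := hpc i; fun_prop)
    have hj2 : Integrable (fun x => η * ψ i * p i x) ρ :=
      integrable_cont hR (by have := hpc i; fun_prop)
    rw [integral_sub hj1 hj2, integral_const_mul, hpm]; simp only [hβ]; ring
  -- the conjugate
  have hB : ∫ x, ψt (T x) ∂ρ ≤ η * ∑ i, m i * ψ i + R * δ := by
    have e1 : ∫ x, ψt (T x) ∂ρ = ∫ q, ψt q ∂μ := by
      rw [← hT.2.1, integral_map hT.1.aemeasurable hψtc.aestronglyMeasurable]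
    rw [e1, ← hμ, integral_finsetSum_measure fun i _ => integrable_cont (hLi i) hψtc]
    have : ∀ i, ∫ q, ψt q ∂(μi i) ≤ m i * (η * ψ i + R * δ) := by
      intro i
      have h1 : ∫ q, ψt q ∂(μi i) ≤ ∫ _, (η * ψ i + R * δ) ∂(μi i) := by
        refine integral_mono_ae (integrable_cont (hLi i) hψtc) (integrable_const _) ?_
        filter_upwards [hδ i] with q hq
        have := mul_le_mul_of_nonneg_left hq hR0
        linarith [hψt_le q i]
      rwa [integral_const, hreal, smul_eq_mul] at h1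
    refine le_trans (Finset.sum_le_sum fun i _ => this i) (le_of_eq ?_)
    simp_rw [mul_add]
    rw [Finset.sum_add_distrib, ← Finset.sum_mul, hm1, Finset.mul_sum]
    congr 1
    · exact Finset.sum_congr rfl fun i _ => by ring
    · ring
  -- the competitor coupling
  have hC : ∑ i, β i - R * δ ≤ ∫ x, ⟪x, T x⟫ ∂ρ := by
    set ρi : ι → Measure (EuclideanSpace ℝ (Fin d)) := fun i =>
      ρ.withDensity fun x => ENNReal.ofReal (p i x) with hρi
    have hρim : ∀ i, ρi i Set.univ = ENNReal.ofReal (m i) := by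
      intro i
      simp only [hρi]
      rw [withDensity_apply _ MeasurableSet.univ, Measure.restrict_univ, ← hpm i,
        ofReal_integral_eq_lintegral_ofReal (integrable_cont hR (hpc i))
          (Filter.Eventually.of_forall fun x => (hp0 i x).le)]
    have hρfin : ∀ i, IsFiniteMeasure (ρi i) := fun i =>
      ⟨by rw [hρim]; exact ENNReal.ofReal_lt_top⟩
    have hρsum : ∑ i, ρi i = ρ := by
      ext s hs
      simp only [hρi, Measure.coe_finsetSum, Finset.sum_apply, withDensity_apply _ hs]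
      rw [← lintegral_finsetSum _ fun i _ => (hpc i).measurable.ennreal_ofReal]
      have : ∀ x, ∑ i, ENNReal.ofReal (p i x) = 1 := by
        intro x
        rw [← ENNReal.ofReal_sum_of_nonneg fun i _ => (hp0 i x).le]
        simp only [hp]; rw [sum_sm]; simp
      simp [this]
    have hne : ∀ i, ENNReal.ofReal (m i) ≠ 0 := fun i => by simpa using hm i
    set γi : ι → Measure (EuclideanSpace ℝ (Fin d) × EuclideanSpace ℝ (Fin d)) := fun i =>
      (ENNReal.ofReal (m i))⁻¹ • (ρi i).prod (μi i) with hγi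
    have hγ1 : ∀ i, (γi i).map Prod.fst = ρi i := by
      intro i
      simp only [hγi]
      rw [Measure.map_smul, Measure.map_fst_prod, hμm, smul_smul,
        ENNReal.inv_mul_cancel (hne i) ENNReal.ofReal_ne_top, one_smul]
    have hγ2 : ∀ i, (γi i).map Prod.snd = μi i := by
      intro i
      simp only [hγi]
      rw [Measure.map_smul, Measure.map_snd_prod, hρim, smul_smul,
        ENNReal.inv_mul_cancel (hne i) ENNReal.ofReal_ne_top, one_smul]
    have hγfin : ∀ i, IsFiniteMeasure (γi i) := fun i => by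
      constructor
      have := congrArg (fun ν : Measure _ => ν Set.univ) (hγ1 i)
      simp only [Measure.map_apply measurable_fst MeasurableSet.univ, Set.preimage_univ] at this
      rw [this]; exact measure_lt_top _ _
    have hcoup : IsPairCoupling ρ μ (∑ i, γi i) := by
      constructor
      · rw [Measure.map_finset_sum measurable_fst.aemeasurable]; simp_rw [hγ1]; exact hρsum
      · rw [Measure.map_finset_sum measurable_snd.aemeasurable]; simp_rw [hγ2]; exact hμ
    have hRi : ∀ i, ∀ᵐ x ∂(ρi i), ‖x‖ ≤ R := fun i => withDensity_absolutelyContinuous _ _ hR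
    have hb : ∀ i, ∀ᵐ q ∂(γi i), ‖q.1‖ ≤ R ∧ ‖q.2‖ ≤ L := by
      intro i
      have h1 : ∀ᵐ q ∂(γi i), ‖q.1‖ ≤ R :=
        ae_of_ae_map measurable_fst.aemeasurable ((hγ1 i).symm ▸ hRi i)
      have h2 : ∀ᵐ q ∂(γi i), ‖q.2‖ ≤ L :=
        ae_of_ae_map measurable_snd.aemeasurable ((hγ2 i).symm ▸ hLi i)
      filter_upwards [h1, h2] with q h1 h2 using ⟨h1, h2⟩
    refine le_trans ?_ (inner_le_of_monge hd hρ hR hL hT hcoup)
    rw [integral_finsetSum_measure fun i _ => integrable_cont_prod (hb i) (by fun_prop)]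
    have : ∀ i, β i - m i * (R * δ) ≤ ∫ q, ⟪q.1, q.2⟫ ∂(γi i) := by
      intro i
      have h1 : ∫ q, (⟪q.1, y i⟫ - R * δ) ∂(γi i) ≤ ∫ q, ⟪q.1, q.2⟫ ∂(γi i) := by
        refine integral_mono_ae (integrable_cont_prod (hb i) (by fun_prop))
          (integrable_cont_prod (hb i) (by fun_prop)) ?_
        have h2 : ∀ᵐ q ∂(γi i), ‖q.2 - y i‖ ≤ δ :=
          ae_of_ae_map measurable_snd.aemeasurable ((hγ2 i).symm ▸ hδ i)
        filter_upwards [hb i, h2] with q hq hq2
        have h3 := abs_real_inner_le_norm q.1 (q.2 - y i)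
        have h4 : ‖q.1‖ * ‖q.2 - y i‖ ≤ R * δ := mul_le_mul hq.1 hq2 (norm_nonneg _) hR0
        have h5 := neg_abs_le ⟪q.1, q.2 - y i⟫
        rw [inner_sub_right] at h3 h5
        linarith
      have h6 : ∫ q, (⟪q.1, y i⟫ - R * δ) ∂(γi i) = ∫ x, (⟪x, y i⟫ - R * δ) ∂(ρi i) := by
        rw [← hγ1 i, integral_map measurable_fst.aemeasurable (by fun_prop)]
      have h7 : ∫ x, (⟪x, y i⟫ - R * δ) ∂(ρi i) = β i - m i * (R * δ) := by
        simp only [hρi]
        rw [integral_withDensity_eq_integral_toReal_smul (hpc i).measurable.ennreal_ofReal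
          (Filter.Eventually.of_forall fun x => ENNReal.ofReal_lt_top)]
        have hj1 : Integrable (fun x => p i x * ⟪x, y i⟫) ρ :=
          integrable_cont hR (by have := hpc i; fun_prop)
        have hj2 : Integrable (fun x => p i x * (R * δ)) ρ :=
          integrable_cont hR (by have := hpc i; fun_prop)
        rw [← hpm i, ← integral_mul_const, hβ, ← integral_sub hj1 hj2]
        congr 1; funext x
        rw [ENNReal.toReal_ofReal (hp0 i x).le, smul_eq_mul]; ring
      linarith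
    refine le_trans (le_of_eq ?_) (Finset.sum_le_sum fun i _ => this i)
    rw [Finset.sum_sub_distrib, ← Finset.sum_mul, hm1, one_mul]
  linarith

end Crest.Agent.R82
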