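import Crest.Agent.R82.Bary

/-! The variance bound for soft semi-discrete potentials (row 82). -/

open MeasureTheory
open scoped RealInnerProductSpace

namespace Crest.Agent.R82

theorem telescope (g g' β β' : ℝ → ℝ) (η : ℝ) (hg : ∀ s t, g t + (s - t) * β t ≤ g s)
    (hg' : ∀ s t, g' t + (s - t) * β' t ≤ g' s) (hβ : ∀ t, β t - β' t ≤ η) :
    (g 1 - g 0) - (g' 1 - g' 0) ≤ η := by
  have key : ∀ (δ : ℝ), 0 < δ → ∀ n : ℕ,
      (g (n * δ) - g 0) - (g' (n * δ) - g' 0) ≤ n * δ * η + δ * (β (n * δ) - β 0) := by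
    intro δ hδ n
    induction n with
    | zero => simp
    | succ n ih =>
      have h1 := hg (n * δ) ((n + 1) * δ)
      have h2 := hg' ((n + 1) * δ) (n * δ)
      have h3 := mul_le_mul_of_nonneg_left (hβ (n * δ)) hδ.le
      push_cast
      nlinarith
  refine le_of_forall_pos_le_add fun ε hε => ?_
  obtain ⟨N, hN⟩ := exists_nat_gt (|β 1 - β 0| / ε)
  have hN0 : (0 : ℝ) < N := lt_of_le_of_lt (by positivity) hN
  have h1 := key (1 / N) (by positivity) N
  have e : (N : ℝ) * (1 / N) = 1 := by field_simp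
  rw [e] at h1
  have h2 : 1 / (N : ℝ) * (β 1 - β 0) ≤ ε := by
    rw [div_lt_iff₀ hε] at hN
    have h3 := le_abs_self (β 1 - β 0)
    rw [one_div, inv_mul_le_iff₀ hN0]
    linarith
  linarith

variable {E : Type} [NormedAddCommGroup E] [InnerProductSpace ℝ E] [FiniteDimensional ℝ E]
  [MeasurableSpace E] [BorelSpace E] {ι : Type} [Fintype ι] [Nonempty ι]

theorem bary_smul (ρ : Measure E) (σ : E → ℝ) (y : ι → E) (ψ : ι → ℝ) (v : ι → E) (c : ℝ) :
    bary ρ σ y ψ (fun i => c • v i) = c * bary ρ σ y ψ v := by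
  unfold bary
  rw [Finset.mul_sum]
  refine Finset.sum_congr rfl fun i _ => ?_
  rw [← integral_const_mul]
  congr 1; funext x
  rw [inner_smul_right]; ring

theorem var_bound {ρ : Measure E} [IsProbabilityMeasure ρ] {R : ℝ} (hR0 : 0 < R)
    (hR : ∀ᵐ x ∂ρ, ‖x‖ ≤ R) (hPL : PLMeas ρ R) {m : ι → ℝ} (hm : ∀ i, 0 < m i)
    (hm1 : ∑ i, m i = 1) (y z : ι → E) :
    ∃ ψ₀ ψ₁ : ι → ℝ, Opt ρ (fun _ => 1) m y ψ₀ ∧ Opt ρ (fun _ => 1) m z ψ₁ ∧ ∃ c : ℝ,
      ∫ x, (LS (aff z ψ₁ x) - LS (aff y ψ₀ x) - c) ^ 2 ∂ρ ≤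
        60000 * R ^ 2 * ∑ i, m i * ‖z i - y i‖ ^ 2 := by
  have h10 : ∀ᵐ x ∂ρ, (0 : ℝ) ≤ (fun _ : E => (1 : ℝ)) x := Filter.Eventually.of_forall fun _ => zero_le_one
  have h11 : ∫ x, (fun _ : E => (1 : ℝ)) x ∂ρ = 1 := by simp
  set Y : ℝ → ι → E := fun t i => y i + t • (z i - y i) with hY
  have hY0 : Y 0 = y := by funext i; simp [hY]
  have hY1 : Y 1 = z := by funext i; simp [hY]
  have hYd : ∀ s t, (fun i => Y s i - Y t i) = fun i => (s - t) • (z i - y i) := by
    intro s t; funext i; simp only [hY, sub_smul]; abel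
  choose Ψ hΨ using fun t => exists_opt hR continuous_const h10 h11 hm hm1 (Y t)
  refine ⟨Ψ 0, Ψ 1, hY0 ▸ hΨ 0, hY1 ▸ hΨ 1, ?_⟩
  set φ₀ : E → ℝ := fun x => LS (aff y (Ψ 0) x) with hφ₀
  set φ₁ : E → ℝ := fun x => LS (aff z (Ψ 1) x) with hφ₁
  have hc0 : Continuous φ₀ := cont_LS _ _
  have hc1 : Continuous φ₁ := cont_LS _ _
  set c := ∫ x, (φ₁ x - φ₀ x) ∂ρ with hc
  refine ⟨c, ?_⟩
  set h : E → ℝ := fun x => φ₁ x - φ₀ x - c with hh
  have hhc : Continuous h := by fun_prop
  change ∫ x, h x ^ 2 ∂ρ ≤ _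
  set V := ∫ x, h x ^ 2 ∂ρ with hV
  set W := ∑ i, m i * ‖z i - y i‖ ^ 2 with hW
  have hint0 : ∫ x, h x ∂ρ = 0 := by
    have hi : Integrable (fun x => φ₁ x - φ₀ x) ρ := integrable_cont hR (hc1.sub hc0)
    simp only [hh]
    rw [integral_sub hi (integrable_const c)]
    simp [hc]
  obtain ⟨M₀, hM₀⟩ := (isCompact_closedBall (0 : E) R).exists_bound_of_continuousOn hhc.continuousOn
  set M := |M₀| + 1 with hM
  have hMpos : 0 < M := by positivity
  have hMb : ∀ᵐ x ∂ρ, |h x| ≤ M := by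
    filter_upwards [hR] with x hx
    have := hM₀ x (by simpa using hx)
    have := le_abs_self M₀
    rw [Real.norm_eq_abs] at *
    linarith
  obtain ⟨p, hp0, hp⟩ : ∃ p : ℝ, 0 < p ∧ ∀ᵐ x ∂ρ, ∀ j, p ≤ sm (aff y (Ψ 0) x) j := by
    have h1 : ∀ j, ∃ q : ℝ, 0 < q ∧ ∀ x, ‖x‖ ≤ R → q ≤ sm (aff y (Ψ 0) x) j := by
      intro j
      obtain ⟨x₀, -, hx₀⟩ := (isCompact_closedBall (0 : E) R).exists_isMinOn
        ⟨0, by simpa using hR0.le⟩ (cont_sm y (Ψ 0) j).continuousOn
      exact ⟨_, sm_pos _ j, fun x hx => hx₀ (by simpa using hx)⟩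
    choose q hq0 hq using h1
    obtain ⟨j₀, hj₀⟩ := Finite.exists_min q
    refine ⟨q j₀, hq0 j₀, ?_⟩
    filter_upwards [hR] with x hx j
    exact le_trans (hj₀ j) (hq j x hx)
  have main : ∀ ε : ℝ, 0 < ε → ε * M ≤ 1 / 2 → V / 2 ≤ 30000 * R ^ 2 * W + ε * (M ^ 2 / p) := by
    intro ε hε hεM
    set k : E → ℝ := fun x => -ε * h x with hk
    have hkc : Continuous k := by fun_prop
    have hk2 : ∀ᵐ x ∂ρ, |k x| ≤ 1 / 2 := by
      filter_upwards [hMb] with x hx
      simp only [hk]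
      rw [abs_mul, abs_neg, abs_of_pos hε]
      exact le_trans (mul_le_mul_of_nonneg_left hx hε.le) hεM
    have hkM : ∀ᵐ x ∂ρ, 1 + k x ≤ 1 + ε * M := by
      filter_upwards [hMb] with x hx
      simp only [hk]
      have := neg_abs_le (h x)
      nlinarith
    have hσc : Continuous fun x => 1 + k x := by fun_prop
    have hσ0 : ∀ᵐ x ∂ρ, 0 ≤ 1 + k x := by
      filter_upwards [hk2] with x hx
      have := neg_abs_le (k x)
      linarith
    have hσ1 : ∫ x, (1 + k x) ∂ρ = 1 := by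
      rw [integral_add (integrable_const _) (integrable_cont hR hkc)]
      simp only [hk]
      rw [integral_const_mul, hint0]; simp
    choose Ψ' hΨ' using fun t => exists_opt hR hσc hσ0 hσ1 hm hm1 (Y t)
    have hk2int : ∫ x, k x ^ 2 ∂ρ = ε ^ 2 * V := by
      rw [hV, ← integral_const_mul]
      congr 1; funext x; simp only [hk]; ring
    have htel := telescope (fun t => Fd ρ (fun _ => 1) m (Y t) (Ψ t))
      (fun t => Fd ρ (fun x => 1 + k x) m (Y t) (Ψ' t))
      (fun t => bary ρ (fun _ => 1) (Y t) (Ψ t) fun i => z i - y i)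
      (fun t => bary ρ (fun x => 1 + k x) (Y t) (Ψ' t) fun i => z i - y i)
      (ε * V / 2 + 30000 * ε * R ^ 2 * W)
      (fun s t => by
        have := Fd_grad hR continuous_const h10 (hΨ t) (Y s) (Ψ s)
        rwa [hYd, bary_smul] at this)
      (fun s t => by
        have := Fd_grad hR hσc hσ0 (hΨ' t) (Y s) (Ψ' s)
        rwa [hYd, bary_smul] at this)
      (fun t => by
        have h1 := bary_stab hR0 hR hPL hkc hk2 (hΨ t) (hΨ' t) (fun i => (10 * ε) • (z i - y i))
        rw [bary_smul, bary_smul, hk2int] at h1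
        have h2 : ∑ i, m i * ‖(10 * ε) • (z i - y i)‖ ^ 2 = (10 * ε) ^ 2 * W := by
          rw [hW, Finset.mul_sum]
          refine Finset.sum_congr rfl fun i _ => ?_
          rw [norm_smul, mul_pow, Real.norm_eq_abs, sq_abs]; ring
        rw [h2] at h1
        refine le_of_mul_le_mul_left ?_ (by positivity : 0 < 10 * ε)
        nlinarith)
    simp only [hY0, hY1] at htel
    have hsplit : ∀ (w : ι → E) (χ : ι → ℝ), Fd ρ (fun x => 1 + k x) m w χ =
        Fd ρ (fun _ => 1) m w χ - ε * ∫ x, LS (aff w χ x) * h x ∂ρ := by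
      intro w χ
      have hi1 : Integrable (fun x => LS (aff w χ x) * 1) ρ :=
        integrable_cont hR ((cont_LS w χ).mul continuous_const)
      have hi2 : Integrable (fun x => ε * (LS (aff w χ x) * h x)) ρ :=
        integrable_cont hR (continuous_const.mul ((cont_LS w χ).mul hhc))
      have : ∫ x, LS (aff w χ x) * (1 + k x) ∂ρ =
          ∫ x, LS (aff w χ x) * 1 ∂ρ - ε * ∫ x, LS (aff w χ x) * h x ∂ρ := by
        rw [← integral_const_mul, ← integral_sub hi1 hi2]
        congr 1; funext x; simp only [hk]; ring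
      unfold Fd
      rw [this]; ring
    have hO0 : Opt ρ (fun _ => 1) m y (Ψ 0) := hY0 ▸ hΨ 0
    have hO0' : Opt ρ (fun x => 1 + k x) m y (Ψ' 0) := hY0 ▸ hΨ' 0
    have hO1' : Opt ρ (fun x => 1 + k x) m z (Ψ' 1) := hY1 ▸ hΨ' 1
    have hA := Fd_min hR hσc hσ0 hO1' (Ψ 1)
    rw [hsplit z (Ψ 1)] at hA
    have hB := Fd_min hR continuous_const h10 hO0 (Ψ' 0)
    have hB' := hsplit y (Ψ' 0)
    obtain ⟨b, hb⟩ := opt_stab hR hσc hσ0 hm hO0 hO0' hkM hp0 hp
    have hC : ∫ x, LS (aff y (Ψ' 0) x) * h x ∂ρ ≤ ∫ x, φ₀ x * h x ∂ρ + ε * M / p * M := by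
      have hi1 : Integrable (fun x => φ₀ x * h x) ρ := integrable_cont hR (hc0.mul hhc)
      have hi2 : Integrable (fun x => b * h x) ρ := integrable_cont hR (continuous_const.mul hhc)
      have hi3 : Integrable (fun x => φ₀ x * h x - b * h x) ρ := hi1.sub hi2
      have : ∫ x, LS (aff y (Ψ' 0) x) * h x ∂ρ ≤
          ∫ x, (φ₀ x * h x - b * h x + ε * M / p * M) ∂ρ := by
        refine integral_mono_ae (integrable_cont hR ((cont_LS _ _).mul hhc))
          (hi3.add (integrable_const _)) ?_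
        filter_upwards [hMb] with x hx
        have u1 := LS_le_add (aff y (Ψ 0) x) (aff y (Ψ' 0) x) (-b) fun i => by
          simp only [aff]; linarith [(hb i).1]
        have u2 := LS_le_add (aff y (Ψ' 0) x) (aff y (Ψ 0) x) (b + ε * M / p) fun i => by
          simp only [aff]; linarith [(hb i).2]
        have u3 : |LS (aff y (Ψ' 0) x) - φ₀ x + b| ≤ ε * M / p := by
          rw [abs_le]; simp only [hφ₀]
          have : 0 ≤ ε * M / p := by positivity
          constructor <;> linarith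
        have u4 : (LS (aff y (Ψ' 0) x) - φ₀ x + b) * h x ≤ ε * M / p * M := by
          refine le_trans (le_abs_self _) ?_
          rw [abs_mul]
          exact mul_le_mul u3 hx (abs_nonneg _) (by positivity)
        linarith
      rw [integral_add hi3 (integrable_const _), integral_sub hi1 hi2, integral_const_mul, hint0]
        at this
      simpa using this
    have hD : ∫ x, φ₁ x * h x ∂ρ - ∫ x, φ₀ x * h x ∂ρ = V := by
      have hi1 : Integrable (fun x => φ₀ x * h x) ρ := integrable_cont hR (hc0.mul hhc)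
      have hi2 : Integrable (fun x => φ₁ x * h x) ρ := integrable_cont hR (hc1.mul hhc)
      have hi3 : Integrable (fun x => h x ^ 2) ρ := integrable_cont hR (hhc.pow 2)
      have hi4 : Integrable (fun x => c * h x) ρ := integrable_cont hR (continuous_const.mul hhc)
      have : V = ∫ x, (h x ^ 2 + c * h x) ∂ρ := by
        rw [integral_add hi3 hi4, integral_const_mul, hint0]; simp [hV]
      rw [this, ← integral_sub hi2 hi1]
      congr 1; funext x; simp only [hh]; ring
    have hC' := mul_le_mul_of_nonneg_left hC hε.le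
    change _ ≤ _ - ε * ∫ x, φ₁ x * h x ∂ρ at hA
    have hfin : ε * (V / 2) ≤ ε * (30000 * R ^ 2 * W + ε * (M ^ 2 / p)) := by
      have e : ε * (ε * M / p * M) = ε * (ε * (M ^ 2 / p)) := by ring
      have e2 : ε * V = ε * ∫ x, φ₁ x * h x ∂ρ - ε * ∫ x, φ₀ x * h x ∂ρ := by rw [← hD]; ring
      nlinarith
    exact le_of_mul_le_mul_left hfin hε
  have : V / 2 ≤ 30000 * R ^ 2 * W := by
    refine le_of_forall_pos_le_add fun δ hδ => ?_
    have hq : 0 < M ^ 2 / p := by positivity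
    have h1 := main (min (1 / (2 * M)) (δ / (M ^ 2 / p))) (by positivity) (by
      calc min (1 / (2 * M)) (δ / (M ^ 2 / p)) * M ≤ 1 / (2 * M) * M :=
            mul_le_mul_of_nonneg_right (min_le_left _ _) hMpos.le
        _ = 1 / 2 := by field_simp)
    have h2 : min (1 / (2 * M)) (δ / (M ^ 2 / p)) * (M ^ 2 / p) ≤ δ := by
      calc _ ≤ δ / (M ^ 2 / p) * (M ^ 2 / p) :=
            mul_le_mul_of_nonneg_right (min_le_right _ _) hq.le
        _ = δ := by field_simp
    linarith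
  linarith

end Crest.Agent.R82
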